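import Crest.Agent.R39.Exact

set_option autoImplicit false

namespace Crest.Agent.R39

open Module

/-- Region lemma, structure-free: if `Y` is connected through the edge set `E1`, `U` is a proper
set of faces all of whose edges lie in `E1`, then `|Y| + |U| ≤ |E1| + 1`. -/
theorem rl_gen {V E F : Type*} [Fintype V] [Fintype E] [Fintype F]
    [DecidableEq F] (s t : E → V) (L R : E → F)
    (closed : ∀ (g : V → ℚ) (w : F),
      ∑ e with L e = w, (g (t e) - g (s e)) = ∑ e with R e = w, (g (t e) - g (s e)))
    (dconn : ∀ y : F → Prop, (∀ e, y (L e) ↔ y (R e)) → ∀ u v, y u → y v)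
    (Y : Finset V) (E1 : Finset E) (U : Finset F)
    (hU : ∀ e, L e ∈ U ∨ R e ∈ U → e ∈ E1) (hprop : ∃ w, w ∉ U)
    (hY : ∀ S : V → Prop, (∀ e ∈ E1, S (s e) ↔ S (t e)) → ∀ u ∈ Y, ∀ v ∈ Y, S u → S v) :
    Y.card + U.card ≤ E1.card + 1 := by
  classical
  let ext : (Y → ℚ) → V → ℚ := fun g v => if h : v ∈ Y then g ⟨v, h⟩ else 0
  let d0 : (Y → ℚ) →ₗ[ℚ] (E1 → ℚ) :=
    { toFun := fun g e => ext g (t e) - ext g (s e)
      map_add' := by
        intro a b; funext e
        simp only [ext, Pi.add_apply]
        split_ifs <;> ring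
      map_smul' := by
        intro c a; funext e
        simp only [ext, Pi.smul_apply, smul_eq_mul, RingHom.id_apply]
        split_ifs <;> ring }
  let M : Matrix U E1 ℚ :=
    fun w e => (if L e = w then 1 else 0) - (if R e = w then 1 else 0)
  have hM : ∀ (x : E → ℚ) (w : U),
      M.mulVecLin (fun e => x e) w = ∑ e with L e = w, x e - ∑ e with R e = w, x e := by
    intro x w
    simp only [Matrix.mulVecLin_apply, Matrix.mulVec, dotProduct, M]
    rw [Finset.sum_coe_sort E1
      (fun e => ((if L e = w then (1:ℚ) else 0) - (if R e = w then 1 else 0)) * x e)]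
    rw [Finset.sum_filter, Finset.sum_filter, ← Finset.sum_sub_distrib]
    refine (Finset.sum_subset (Finset.subset_univ E1) ?_).trans ?_
    · intro e _ he
      have h1 : L e ≠ w := fun h => he (hU e (Or.inl (h ▸ w.2)))
      have h2 : R e ≠ w := fun h => he (hU e (Or.inr (h ▸ w.2)))
      simp [h1, h2]
    · refine Finset.sum_congr rfl fun e _ => ?_
      split_ifs <;> ring
  have hMT : ∀ (y : U → ℚ) (e : E1), M.transpose.mulVecLin y e =
      (if h : L e ∈ U then y ⟨_, h⟩ else 0) - (if h : R e ∈ U then y ⟨_, h⟩ else 0) := by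
    intro y e
    simp only [Matrix.mulVecLin_apply, Matrix.mulVec, dotProduct, M, Matrix.transpose_apply,
      sub_mul, Finset.sum_sub_distrib, ite_mul, one_mul, zero_mul]
    have key : ∀ a : F, (∑ w : U, if a = (w : F) then y w else 0)
        = if h : a ∈ U then y ⟨a, h⟩ else 0 := by
      intro a
      split_ifs with h
      · rw [Finset.sum_eq_single ⟨a, h⟩]
        · simp
        · intro b _ hb
          rw [if_neg]
          intro hab
          exact hb (Subtype.ext hab.symm)
        · simp
      · refine Finset.sum_eq_zero fun b _ => ?_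
        rw [if_neg]
        intro hab
        exact h (hab ▸ b.2)
    rw [key, key]
  have hle : LinearMap.range d0 ≤ LinearMap.ker M.mulVecLin := by
    rintro _ ⟨g, rfl⟩
    rw [LinearMap.mem_ker]
    funext w
    have := hM (fun e => ext g (t e) - ext g (s e)) w
    simp only [Pi.zero_apply]
    refine Eq.trans this ?_
    exact sub_eq_zero.2 (closed (ext g) w)
  have r0 := rank_cob d0 (by
    intro g hg u v
    have h1 : ∀ e ∈ E1, ext g (s e) = ext g (t e) := by
      intro e he
      have := congrFun hg ⟨e, he⟩
      simp only [d0, LinearMap.coe_mk, AddHom.coe_mk, Pi.zero_apply] at this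
      exact (sub_eq_zero.1 this).symm
    have h2 := hY (fun a => ext g a = ext g u) (fun e he => by rw [h1 e he]) u u.2 v v.2 rfl
    simp only [ext, u.2, v.2, dif_pos] at h2
    exact h2.symm)
  have hinj : LinearMap.ker M.transpose.mulVecLin = ⊥ := by
    rw [LinearMap.ker_eq_bot']
    intro y hy
    let yy : F → ℚ := fun a => if h : a ∈ U then y ⟨a, h⟩ else 0
    have h1 : ∀ e, yy (L e) = yy (R e) := by
      intro e
      by_cases he : e ∈ E1
      · have := congrFun hy ⟨e, he⟩
        rw [hMT] at this
        exact sub_eq_zero.1 this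
      · have a1 : L e ∉ U := fun h => he (hU e (Or.inl h))
        have a2 : R e ∉ U := fun h => he (hU e (Or.inr h))
        simp [yy, a1, a2]
    obtain ⟨w0, hw0⟩ := hprop
    funext w
    have h2 := dconn (fun a => yy a = 0) (fun e => by rw [h1 e]) w0 w (by simp [yy, hw0])
    simpa [yy, w.2] using h2
  have r1 := LinearMap.finrank_range_add_finrank_ker M.transpose.mulVecLin
  rw [hinj, finrank_bot] at r1
  have r1' : finrank ℚ (U → ℚ) = U.card := by simp
  have r2 : finrank ℚ (LinearMap.range M.transpose.mulVecLin)
      = finrank ℚ (LinearMap.range M.mulVecLin) := Matrix.rank_transpose M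
  have r3 := LinearMap.finrank_range_add_finrank_ker M.mulVecLin
  have r4 : finrank ℚ (E1 → ℚ) = E1.card := by simp
  have r5 := Submodule.finrank_mono hle
  have r6 : Fintype.card Y = Y.card := by simp
  omega

end Crest.Agent.R39
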