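import Crest.Agent.R39.Defs
import Crest.Agent.R39.RLgen

set_option autoImplicit false
set_option linter.unusedSectionVars false
open Finset

namespace Crest.Agent.R39
namespace W20
open Mp
variable {E B W F : Type} [Fintype E] [DecidableEq E] [Fintype B] [DecidableEq B]
  [Fintype W] [DecidableEq W] [Fintype F] [DecidableEq F]

theorem cardE_B {G : Mp E B W F} (h : G.Good0) : Fintype.card E = 3 * Fintype.card B := by
  rw [← Finset.card_univ, Finset.card_eq_sum_card_fiberwise (f := G.bl) (t := univ)
    (fun _ _ => mem_coe.2 (mem_univ _))]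
  simp [h.degB, mul_comm]

theorem cardE_W {G : Mp E B W F} (h : G.Good0) : Fintype.card E = 3 * Fintype.card W := by
  rw [← Finset.card_univ, Finset.card_eq_sum_card_fiberwise (f := G.wh) (t := univ)
    (fun _ _ => mem_coe.2 (mem_univ _))]
  simp [h.degW, mul_comm]

theorem cardW {G : Mp E B W F} (h : G.Good0) : Fintype.card W = Fintype.card B := by
  have := cardE_B h; have := cardE_W h; omega

theorem sum_fib {K V : Type*} [Field K] [Fintype V] [DecidableEq V] (p : E → V) (L : E → F)
    (g : V → K) (w : F) :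
    ∑ e with L e = w, g (p e) =
      ∑ v, ((univ.filter fun e => p e = v ∧ L e = w).card : K) * g v := by
  rw [← Finset.sum_fiberwise (s := univ.filter fun e => L e = w) (g := p)]
  refine Finset.sum_congr rfl fun v _ => ?_
  rw [Finset.filter_filter, Finset.sum_congr rfl (g := fun _ => g v)
    (fun e he => by rw [(mem_filter.1 he).2.2]), Finset.sum_const, nsmul_eq_mul]
  congr 3
  ext e
  simp [and_comm]

theorem closedB {K : Type*} [Field K] {G : Mp E B W F} (h : G.Good0) (g : B → K) (w : F) :
    ∑ e with G.L e = w, g (G.bl e) = ∑ e with G.R e = w, g (G.bl e) := by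
  rw [sum_fib, sum_fib]; simp only [h.clB]

theorem closedW {K : Type*} [Field K] {G : Mp E B W F} (h : G.Good0) (g : W → K) (w : F) :
    ∑ e with G.L e = w, g (G.wh e) = ∑ e with G.R e = w, g (G.wh e) := by
  rw [sum_fib, sum_fib]; simp only [h.clW]

theorem closed_d {K : Type*} [Field K] {G : Mp E B W F} (h : G.Good0) (g : B ⊕ W → K) (w : F) :
    ∑ e with G.L e = w, (g (Sum.inr (G.wh e)) - g (Sum.inl (G.bl e))) =
      ∑ e with G.R e = w, (g (Sum.inr (G.wh e)) - g (Sum.inl (G.bl e))) := by
  rw [Finset.sum_sub_distrib, Finset.sum_sub_distrib,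
    closedB h (fun b => g (Sum.inl b)), closedW h (fun t => g (Sum.inr t))]

theorem connP {G : Mp E B W F} (h : G.Good0) (S : B ⊕ W → Prop)
    (hS : ∀ e, S (Sum.inl (G.bl e)) ↔ S (Sum.inr (G.wh e))) : ∀ u v, S u → S v := by
  classical
  intro u v hu
  by_contra hv
  have := h.cut3 (univ.filter fun b => S (Sum.inl b)) (univ.filter fun t => S (Sum.inr t))
    (by
      rcases u with u | u
      · exact Or.inl ⟨u, by simpa using hu⟩
      · exact Or.inr ⟨u, by simpa using hu⟩)
    (by
      rcases v with v | v
      · refine Or.inl fun hh => hv ?_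
        have : v ∈ univ.filter fun b => S (Sum.inl b) := by rw [hh]; exact mem_univ v
        simpa using this
      · refine Or.inr fun hh => hv ?_
        have : v ∈ univ.filter fun b => S (Sum.inr b) := by rw [hh]; exact mem_univ v
        simpa using this)
  have h1 : G.pc (univ.filter fun b => S (Sum.inl b)) (univ.filter fun t => S (Sum.inr t)) = 0 := by
    simp only [pc, card_eq_zero, filter_eq_empty_iff, mem_filter, mem_univ, true_and]
    intro e _ hh
    exact hh.2 ((hS e).1 hh.1)
  have h2 : G.qc (univ.filter fun b => S (Sum.inl b)) (univ.filter fun t => S (Sum.inr t)) = 0 := by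
    simp only [qc, card_eq_zero, filter_eq_empty_iff, mem_filter, mem_univ, true_and]
    intro e _ hh
    exact hh.1 ((hS e).2 hh.2)
  omega

theorem dconnP {G : Mp E B W F} (h : G.Good1) (y : F → Prop)
    (hy : ∀ e, y (G.L e) ↔ y (G.R e)) : ∀ u v, y u → y v := by
  classical
  intro u v hu
  have := h.dconn (fun w => if y w then 1 else 0) (fun e => by simp only [hy e]) u v
  by_contra hv
  simp [hu, hv] at this

/-- EXACT over any field. -/
theorem exactK {K : Type*} [Field K] {G : Mp E B W F} (h : G.Good) (x : E → K)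
    (hx : ∀ w, ∑ e with G.L e = w, x e = ∑ e with G.R e = w, x e) :
    ∃ (gB : B → K) (gW : W → K), ∀ e, x e = gW (G.wh e) - gB (G.bl e) := by
  obtain ⟨g, hg⟩ := exact1 (K := K) (fun e => (Sum.inl (G.bl e) : B ⊕ W))
    (fun e => Sum.inr (G.wh e)) G.L G.R (closed_d h.toGood0)
    (fun g hg u v => (connP h.toGood0 (fun a => g a = g u) (fun e => by rw [hg e]) u v rfl).symm)
    (fun y hy u v => (dconnP h.toGood1 (fun a => y a = y u) (fun e => by rw [hy e]) u v rfl).symm)
    (by
      have h1 := cardE_B h.toGood0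
      have h2 := cardW h.toGood0
      have h3 := h.euler
      rw [Fintype.card_sum]
      omega) x hx
  exact ⟨fun b => g (Sum.inl b), fun t => g (Sum.inr t), hg⟩

theorem exactQ {G : Mp E B W F} (h : G.Good) (x : E → ℚ) (hx : G.Closed x) :
    ∃ (gB : B → ℚ) (gW : W → ℚ), ∀ e, x e = gW (G.wh e) - gB (G.bl e) :=
  exactK h x hx

/-- RL. -/
theorem rl {G : Mp E B W F} (h : G.Good1) (YB : Finset B) (YW : Finset W) (E1 : Finset E)
    (U : Finset F) (hU : ∀ e, G.L e ∈ U ∨ G.R e ∈ U → e ∈ E1) (hp : ∃ w, w ∉ U)
    (hc : G.ConnOn YB YW E1) : YB.card + YW.card + U.card ≤ E1.card + 1 := by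
  classical
  have := rl_gen (fun e => (Sum.inl (G.bl e) : B ⊕ W)) (fun e => Sum.inr (G.wh e)) G.L G.R
    (closed_d h.toGood0) (dconnP h) (YB.disjSum YW) E1 U hU hp (by
      intro S hS u hu v hv hSu
      obtain ⟨c, hB, hW⟩ := hc (fun b => if S (Sum.inl b) then 1 else 0)
        (fun t => if S (Sum.inr t) then 1 else 0) (fun e he => by simp only [hS e he])
      have key : ∀ a ∈ YB.disjSum YW, (if S a then (1 : ℚ) else 0) = c := by
        rintro (a | a) ha
        · exact hB a (by simpa using ha)
        · exact hW a (by simpa using ha)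
      have h1 := key u hu
      have h2 := key v hv
      by_contra hSv
      rw [if_pos hSu] at h1
      rw [if_neg hSv] at h2
      rw [← h2] at h1
      exact one_ne_zero h1)
  rwa [Finset.card_disjSum] at this

/-- Euler inequality for any connected map. -/
theorem eulerLe {G : Mp E B W F} (h : G.Good1) : Fintype.card F ≤ Fintype.card B + 2 := by
  classical
  obtain ⟨b⟩ := h.ne
  have hE : 0 < (univ.filter fun e => G.bl e = b).card := by rw [h.degB]; norm_num
  obtain ⟨e0, -⟩ := card_pos.1 hE
  have := rl_gen (fun e => (Sum.inl (G.bl e) : B ⊕ W)) (fun e => Sum.inr (G.wh e)) G.L G.R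
    (closed_d h.toGood0) (dconnP h) univ univ (univ.erase (G.L e0)) (fun e _ => mem_univ e)
    ⟨G.L e0, by simp⟩ (fun S hS u _ v _ => connP h.toGood0 S (fun e => hS e (mem_univ e)) u v)
  rw [card_erase_of_mem (mem_univ _), card_univ, card_univ, card_univ, Fintype.card_sum] at this
  have h1 := cardE_B h.toGood0
  have h2 := cardW h.toGood0
  have h3 : 0 < Fintype.card F := Fintype.card_pos_iff.2 ⟨G.L e0⟩
  omega

end W20
end Crest.Agent.R39
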