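import Crest.Agent.R39.Basic1
import Crest.Agent.R39.W20

set_option autoImplicit false
set_option linter.unusedSectionVars false
open Finset

namespace Crest.Agent.R39
namespace Mp
variable {E B W F : Type} [Fintype E] [DecidableEq E] [Fintype B] [DecidableEq B]
  [Fintype W] [DecidableEq W] [Fintype F] [DecidableEq F]

theorem exact {G : Mp E B W F} (h : G.Good) (x : E → ℚ) (hx : G.Closed x) :
    ∃ (gB : B → ℚ) (gW : W → ℚ), ∀ e, x e = gW (G.wh e) - gB (G.bl e) := by
  exact W20.exactQ h x hx

/-- if `L e = R e` then `1_e` is closed, exact, and thresholding gives a cut of size ≤ 1 -/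
theorem LR {G : Mp E B W F} (h : G.Good) (e : E) : G.L e ≠ G.R e := by
  intro hLR
  obtain ⟨gB, gW, hg⟩ := exact h (fun e' => if e' = e then 1 else 0) (by
    intro w
    simp only [Finset.sum_ite_eq', mem_filter, mem_univ, true_and, hLR])
  have h0 := hg e
  simp only [if_true] at h0
  have hne : gB (G.bl e) ≠ gW (G.wh e) := by intro h1; rw [h1] at h0; simp at h0
  have hoth : ∀ e', e' ≠ e → gB (G.bl e') = gW (G.wh e') := by
    intro e' he'
    have := hg e'
    simp only [he', if_false] at this
    linarith
  have h3 := h.cut3 (univ.filter fun b => gB b = gW (G.wh e))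
    (univ.filter fun t => gW t = gW (G.wh e)) (Or.inr ⟨G.wh e, by simp⟩)
    (Or.inl (by
      intro h1
      have : G.bl e ∈ univ.filter fun b => gB b = gW (G.wh e) := by rw [h1]; exact mem_univ _
      exact hne (mem_filter.1 this).2))
  have hp : G.pc (univ.filter fun b => gB b = gW (G.wh e))
      (univ.filter fun t => gW t = gW (G.wh e)) ≤ 1 := by
    unfold pc
    refine (card_le_card (t := {e}) fun e' he' => ?_).trans (by simp)
    simp only [mem_filter, mem_univ, true_and] at he'
    rw [mem_singleton]
    by_contra hc
    exact he'.2 (by rw [← hoth e' hc]; exact he'.1)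
  have hq : G.qc (univ.filter fun b => gB b = gW (G.wh e))
      (univ.filter fun t => gW t = gW (G.wh e)) ≤ 1 := by
    unfold qc
    refine (card_le_card (t := {e}) fun e' he' => ?_).trans (by simp)
    simp only [mem_filter, mem_univ, true_and] at he'
    rw [mem_singleton]
    by_contra hc
    exact he'.1 (by rw [hoth e' hc]; exact he'.2)
  omega

end Mp
end Crest.Agent.R39
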