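import Crest.Agent.R39.Basic2
import Crest.Agent.R39.ExactM

set_option autoImplicit false
set_option linter.unusedSectionVars false
open Finset

namespace Crest.Agent.R39
namespace Mp
variable {E B W F : Type} [Fintype E] [DecidableEq E] [Fintype B] [DecidableEq B]
  [Fintype W] [DecidableEq W] [Fintype F] [DecidableEq F]

namespace A1X

theorem card_ite (e0 : E) (p : Prop) [Decidable p] (q : E → Prop) [DecidablePred q]
    (h : ∀ e, q e ↔ e = e0 ∧ p) : ((univ.filter q).card : ℤ) = if p then 1 else 0 := by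
  by_cases hp : p
  · rw [if_pos hp]
    have : univ.filter q = {e0} := by
      ext e
      simp [h e, hp]
    rw [this]
    simp
  · rw [if_neg hp]
    have : univ.filter q = ∅ := by
      ext e
      simp [h e, hp]
    rw [this]
    simp

/-- the row of `J` at a corner -/
theorem row {G : Mp E B W F} (h : G.Good) (e0 : E) :
    ∃ n, G.bl n = G.bl e0 ∧
      (∀ w, G.J (G.bl e0) (G.L e0) w = (if G.L n = w then 1 else 0) - (if G.R n = w then 1 else 0)) ∧
      ∀ e, G.bl e = G.bl e0 → e ≠ n → G.L e = G.L e0 ∨ G.R e = G.L e0 := by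
  obtain ⟨e1, e2, -, -, -, hb, h01, h12, h20, n01, n02, n12⟩ := locB h.toGood1.toGood0 (LR h) e0
  refine ⟨e2, (hb e2).2 (Or.inr (Or.inr rfl)), fun w => ?_, fun e he hn => ?_⟩
  · unfold J
    rw [card_ite e0 (G.L e2 = w) _ ?_, card_ite e1 (G.R e2 = w) _ ?_]
    · intro e
      constructor
      · rintro ⟨h1, h2, h3⟩
        rcases (hb e).1 h1 with rfl | rfl | rfl
        · exact absurd (h20.trans h2).symm n02
        · exact ⟨rfl, h12 ▸ h3⟩
        · exact absurd (h12.trans h2).symm n01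
      · rintro ⟨rfl, h3⟩
        exact ⟨(hb e).2 (Or.inr (Or.inl rfl)), h01.symm, h12.trans h3⟩
    · intro e
      constructor
      · rintro ⟨h1, h2, h3⟩
        rcases (hb e).1 h1 with rfl | rfl | rfl
        · exact ⟨rfl, h20.trans h3⟩
        · exact absurd h2.symm n01
        · exact absurd h2.symm n02
      · rintro ⟨rfl, h3⟩
        exact ⟨rfl, rfl, h20.symm.trans h3⟩
  · rcases (hb e).1 he with rfl | rfl | rfl
    · exact Or.inl rfl
    · exact Or.inr h01.symm
    · exact absurd rfl hn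

end A1X

theorem A1 {G : Mp E B W F} (h : G.Good) (e0 : E) (r : B' (G.bl e0) ≃ G.F' (G.bl e0))
    (hdet : (Matrix.of fun b b' : B' (G.bl e0) => G.J b.1 (r b).1 (r b').1).det ≠ 0) :
    (∀ b, (r b).1 ∈ G.RF b.1) ∧
    ∃ χ : F → Bool, χ (G.L e0) = χ (G.R e0) ∧ (∀ b, ∃ e, G.bl e = b ∧ χ (G.L e) ≠ χ (G.R e)) ∧
      ∀ e (hb : G.bl e ≠ G.bl e0), χ (G.L e) = χ (G.R e) →
        G.L e = (r ⟨G.bl e, hb⟩).1 ∨ G.R e = (r ⟨G.bl e, hb⟩).1 := by
  classical
  have h0 : G.Good0 := h.toGood1.toGood0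
  have h1 : ∀ b, (r b).1 ∈ G.RF b.1 := by
    intro b
    by_contra hb
    apply hdet
    refine Matrix.det_eq_zero_of_row_eq_zero b fun b' => ?_
    by_contra hJ
    exact hb ((J_ne_iff h0 (LR h) _ _ _).1 hJ).1
  refine ⟨h1, ?_⟩
  have h2 : ∀ b : B' (G.bl e0), ∃ n, G.bl n = b.1 ∧
      (∀ w, G.J b.1 (r b).1 w = (if G.L n = w then 1 else 0) - (if G.R n = w then 1 else 0)) ∧
      ∀ e, G.bl e = b.1 → e ≠ n → G.L e = (r b).1 ∨ G.R e = (r b).1 := by
    intro b
    obtain ⟨e, he, hL⟩ := Finset.mem_image.1 (h1 b)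
    have he' : G.bl e = b.1 := (Finset.mem_filter.1 he).2
    have := A1X.row h e
    rw [he', hL] at this
    exact this
  choose n hn1 hn2 hn3 using h2
  -- the kernel statement
  have hker : ∀ S : F → Prop, (∀ w ∈ G.RF (G.bl e0), ¬ S w) →
      (∀ b, S (G.L (n b)) ↔ S (G.R (n b))) → ∀ w, ¬ S w := by
    intro S hS hSn
    let z : F → ℤ := fun w => if S w then 1 else 0
    have hz : (Matrix.of fun b b' : B' (G.bl e0) => G.J b.1 (r b).1 (r b').1).mulVec
        (fun b' => z (r b').1) = 0 := by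
      funext b
      show ∑ b', G.J b.1 (r b).1 (r b').1 * z (r b').1 = 0
      rw [Equiv.sum_comp r (fun w : G.F' (G.bl e0) => G.J b.1 (r b).1 w.1 * z w.1),
        ← Finset.sum_subtype (univ.filter fun w => w ∉ G.RF (G.bl e0)) (by simp)
          (fun w => G.J b.1 (r b).1 w * z w)]
      rw [Finset.sum_subset (Finset.filter_subset _ _) (fun w _ hw => by
        have hm : w ∈ G.RF (G.bl e0) := by simpa using hw
        simp [z, hS w hm])]
      simp only [hn2, sub_mul, Finset.sum_sub_distrib, ite_mul, one_mul, zero_mul,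
        Finset.sum_ite_eq, Finset.mem_univ, if_true]
      simp [z, hSn b]
    have hz0 := Matrix.eq_zero_of_mulVec_eq_zero hdet hz
    intro w hw
    by_cases hm : w ∈ G.RF (G.bl e0)
    · exact hS w hm hw
    · have := congrFun hz0 (r.symm ⟨w, hm⟩)
      simp [z, hw] at this
  obtain ⟨e1, e2, -, -, -, hb, h01, h12, h20, n01, n02, n12⟩ := locB h0 (LR h) e0
  let ch : (G.F' (G.bl e0) → Bool) → F → Bool := fun y w =>
    if hw : w ∈ G.RF (G.bl e0) then decide (w = G.L e1) else y ⟨w, hw⟩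
  let Ψ : (G.F' (G.bl e0) → Bool) → (B' (G.bl e0) → Bool) := fun y b =>
    xor (ch y (G.L (n b))) (ch y (G.R (n b)))
  have hinj : Function.Injective Ψ := by
    intro y y' hy
    have := hker (fun w => ch y w ≠ ch y' w) (fun w hw => by simp [ch, hw]) (fun b => by
      have h3 : xor (ch y (G.L (n b))) (ch y (G.R (n b))) =
        xor (ch y' (G.L (n b))) (ch y' (G.R (n b))) := congrFun hy b
      revert h3
      cases ch y (G.L (n b)) <;> cases ch y (G.R (n b)) <;> cases ch y' (G.L (n b)) <;>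
        cases ch y' (G.R (n b)) <;> simp)
    funext w
    have h4 := this w.1
    simpa [ch, w.2] using h4
  have hsurj : Function.Surjective Ψ :=
    (Finite.injective_iff_surjective_of_equiv (Equiv.arrowCongr r.symm (Equiv.refl Bool))).1 hinj
  obtain ⟨y, hy⟩ := hsurj fun _ => true
  have hne : ∀ b, ch y (G.L (n b)) ≠ ch y (G.R (n b)) := by
    intro b hb'
    have h3 : xor (ch y (G.L (n b))) (ch y (G.R (n b))) = true := congrFun hy b
    rw [hb'] at h3
    simp at h3
  have hb1 : G.bl e1 = G.bl e0 := (hb e1).2 (Or.inr (Or.inl rfl))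
  have m0 : G.L e0 ∈ G.RF (G.bl e0) := (mem_RF h0 _ _).2 ⟨e0, rfl, Or.inl rfl⟩
  have m2 : G.R e0 ∈ G.RF (G.bl e0) := (mem_RF h0 _ _).2 ⟨e0, rfl, Or.inr rfl⟩
  have m1 : G.L e1 ∈ G.RF (G.bl e0) := (mem_RF h0 _ _).2 ⟨e1, hb1, Or.inl rfl⟩
  have c0 : ch y (G.L e0) = false := by simp [ch, m0, n01]
  have c2 : ch y (G.R e0) = false := by
    have : G.R e0 ≠ G.L e1 := h20 ▸ n12.symm
    simp [ch, m2, this]
  have c1 : ch y (G.L e1) = true := by simp [ch, m1]
  refine ⟨ch y, c0.trans c2.symm, fun b => ?_, fun e hbe hc => ?_⟩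
  · by_cases hbb : b = G.bl e0
    · refine ⟨e1, hb1.trans hbb.symm, ?_⟩
      rw [c1, ← h01, c0]
      simp
    · exact ⟨n ⟨b, hbb⟩, hn1 _, hne _⟩
  · refine hn3 ⟨G.bl e, hbe⟩ e rfl fun hen => ?_
    apply hne ⟨G.bl e, hbe⟩
    rw [← hen]
    exact hc

end Mp
end Crest.Agent.R39
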