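import Crest.Agent.R39.ASplit
/-! Row 39, end of part (A): the complement of the mono matching is connected. -/
set_option autoImplicit false
namespace Crest.Agent.R39.AC
open Finset

theorem aconn {E B W F : Type*} [Fintype E] [Fintype B] [Fintype W] [Fintype F]
    [DecidableEq B] [DecidableEq W] [DecidableEq F]
    (bl : E → B) (wh : E → W) (L R : E → F)
    (hb3 : ∀ a, (univ.filter fun e => bl e = a).card = 3)
    (hw3 : ∀ a, (univ.filter fun e => wh e = a).card = 3)
    (hLs : Function.Surjective L)
    (cb : ∀ a f, (univ.filter fun e => bl e = a ∧ L e = f).card =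
      (univ.filter fun e => bl e = a ∧ R e = f).card)
    (cw : ∀ a f, (univ.filter fun e => wh e = a ∧ L e = f).card =
      (univ.filter fun e => wh e = a ∧ R e = f).card)
    (noloop : ∀ e, L e ≠ R e)
    (conn : ∀ X : B ⊕ W → Prop, (∀ e, X (Sum.inl (bl e)) ↔ X (Sum.inr (wh e))) →
      ∀ p q, X p → X q)
    (dconn : ∀ y : F → Prop, (∀ e, y (L e) ↔ y (R e)) → ∀ u v, y u → y v)
    (hF : Fintype.card F = Fintype.card B + 2)
    (b0 : B) (M : E → Prop)
    (hMb : ∀ b, ∃! e, bl e = b ∧ M e) (hMw : ∀ w, ∃! e, wh e = w ∧ M e)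
    (r : B → F)
    (hron : ∀ f, (¬ ∃ e, bl e = b0 ∧ L e = f) → ∃ t, t ≠ b0 ∧ r t = f)
    (hrc : ∀ t, t ≠ b0 → ∃ e, bl e = t ∧ L e = r t)
    (hrM : ∀ e, bl e ≠ b0 → M e → r (bl e) = L e ∨ r (bl e) = R e)
    (X : B ⊕ W → Prop) (hX : ∀ e, ¬ M e → (X (Sum.inl (bl e)) ↔ X (Sum.inr (wh e))))
    (p q : B ⊕ W) (hp : X p) : X q := by
  classical
  obtain ⟨Y, hYd⟩ : ∃ Y : B ⊕ W → Prop, ∀ v, Y v ↔ ∀ S : B ⊕ W → Prop,
    (∀ e, ¬ M e → (S (Sum.inl (bl e)) ↔ S (Sum.inr (wh e)))) → S (Sum.inl b0) → S v :=
    ⟨_, fun _ => Iff.rfl⟩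
  have hY0 : Y (Sum.inl b0) := (hYd _).2 fun S _ h => h
  have hYc : ∀ e, ¬ M e → (Y (Sum.inl (bl e)) ↔ Y (Sum.inr (wh e))) := fun e he => by
    rw [hYd, hYd]
    exact ⟨fun h S hS h0 => (hS e he).1 (h S hS h0), fun h S hS h0 => (hS e he).2 (h S hS h0)⟩
  suffices hall : ∀ v, Y v by
    have h1 : X (Sum.inl b0) := by
      by_contra h
      exact (hYd _).1 (hall p) (fun v => ¬ X v) (fun e he => not_congr (hX e he)) h hp
    exact (hYd _).1 (hall q) X hX h1
  by_contra hno
  push Not at hno
  obtain ⟨v0, hv0⟩ := hno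
  let BY : Finset B := univ.filter fun b => Y (Sum.inl b)
  let WY : Finset W := univ.filter fun b => Y (Sum.inr b)
  let E1 : Finset E := univ.filter fun e => Y (Sum.inl (bl e)) ∧ Y (Sum.inr (wh e))
  let Cb : Finset E := univ.filter fun e => Y (Sum.inl (bl e)) ∧ ¬ Y (Sum.inr (wh e))
  let Cw : Finset E := univ.filter fun e => Y (Sum.inr (wh e)) ∧ ¬ Y (Sum.inl (bl e))
  let EM : Finset E := univ.filter fun e => M e ∧ Y (Sum.inl (bl e)) ∧ Y (Sum.inr (wh e))
  have hCbM : ∀ e ∈ Cb, M e := by
    intro e he
    by_contra h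
    simp only [Cb, mem_filter, mem_univ, true_and] at he
    exact he.2 ((hYc e h).1 he.1)
  have hCwM : ∀ e ∈ Cw, M e := by
    intro e he
    by_contra h
    simp only [Cw, mem_filter, mem_univ, true_and] at he
    exact he.2 ((hYc e h).2 he.1)
  have c1 : E1.card + Cb.card = 3 * BY.card := by
    rw [← card_three bl hb3 (fun b => Y (Sum.inl b)),
      ← Finset.card_filter_add_card_filter_not (s := univ.filter fun e => Y (Sum.inl (bl e)))
        (fun e => Y (Sum.inr (wh e))), Finset.filter_filter, Finset.filter_filter]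
  have c2 : E1.card + Cw.card = 3 * WY.card := by
    rw [← card_three wh hw3 (fun b => Y (Sum.inr b)),
      ← Finset.card_filter_add_card_filter_not (s := univ.filter fun e => Y (Sum.inr (wh e)))
        (fun e => Y (Sum.inl (bl e))), Finset.filter_filter, Finset.filter_filter]
    congr 2
    ext e
    simp only [E1, and_comm]
  have c3 : EM.card + Cb.card = BY.card := by
    rw [← Finset.card_union_of_disjoint (by
      rw [Finset.disjoint_left]
      intro e h1 h2
      simp only [EM, Cb, mem_filter, mem_univ, true_and] at h1 h2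
      exact h2.2 h1.2.2)]
    refine Finset.card_bij (fun e _ => bl e) ?_ ?_ ?_
    · intro e he
      simp only [EM, Cb, BY, mem_union, mem_filter, mem_univ, true_and] at he ⊢
      rcases he with h | h
      · exact h.2.1
      · exact h.1
    · intro e he e' he' h
      have m1 : M e := by
        rcases mem_union.1 he with h | h
        · exact (mem_filter.1 h).2.1
        · exact hCbM e h
      have m2 : M e' := by
        rcases mem_union.1 he' with h | h
        · exact (mem_filter.1 h).2.1
        · exact hCbM e' h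
      exact (hMb (bl e')).unique ⟨h, m1⟩ ⟨rfl, m2⟩
    · intro b hb
      obtain ⟨e, ⟨he, hm⟩, -⟩ := hMb b
      refine ⟨e, ?_, he⟩
      simp only [EM, Cb, BY, mem_union, mem_filter, mem_univ, true_and] at hb ⊢
      rw [he]
      tauto
  have c4 : EM.card + Cw.card = WY.card := by
    rw [← Finset.card_union_of_disjoint (by
      rw [Finset.disjoint_left]
      intro e h1 h2
      simp only [EM, Cw, mem_filter, mem_univ, true_and] at h1 h2
      exact h2.2 h1.2.1)]
    refine Finset.card_bij (fun e _ => wh e) ?_ ?_ ?_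
    · intro e he
      simp only [EM, Cw, WY, mem_union, mem_filter, mem_univ, true_and] at he ⊢
      rcases he with h | h
      · exact h.2.2
      · exact h.1
    · intro e he e' he' h
      have m1 : M e := by
        rcases mem_union.1 he with h | h
        · exact (mem_filter.1 h).2.1
        · exact hCwM e h
      have m2 : M e' := by
        rcases mem_union.1 he' with h | h
        · exact (mem_filter.1 h).2.1
        · exact hCwM e' h
      exact (hMw (wh e')).unique ⟨h, m1⟩ ⟨rfl, m2⟩
    · intro b hb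
      obtain ⟨e, ⟨he, hm⟩, -⟩ := hMw b
      refine ⟨e, ?_, he⟩
      simp only [EM, Cw, WY, mem_union, mem_filter, mem_univ, true_and] at hb ⊢
      rw [he]
      tauto
  have closed : ∀ (g : B ⊕ W → ℚ) (u : F),
      ∑ e with L e = u, (g (Sum.inr (wh e)) - g (Sum.inl (bl e))) =
      ∑ e with R e = u, (g (Sum.inr (wh e)) - g (Sum.inl (bl e))) := by
    intro g u
    rw [Finset.sum_sub_distrib, Finset.sum_sub_distrib]
    simp only [Finset.sum_filter]
    congr 1
    · exact closed_sum wh L R cw (fun a f => if f = u then g (Sum.inr a) else 0)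
    · exact closed_sum bl L R cb (fun a f => if f = u then g (Sum.inl a) else 0)
  let Q : Finset F := Cw.image L ∪ Cb.image R
  have hQ : ∀ e, ¬ (Y (Sum.inl (bl e)) ↔ Y (Sum.inr (wh e))) → L e ∈ Q ∧ R e ∈ Q := by
    have key : ∀ u, u ∉ Q → ∀ e, (L e = u ∨ R e = u) →
        (Y (Sum.inl (bl e)) ↔ Y (Sum.inr (wh e))) := by
      intro u hu
      have h1 : ∀ e, L e = u → Y (Sum.inr (wh e)) → Y (Sum.inl (bl e)) := by
        intro e he h
        by_contra h'
        exact hu (mem_union_left _ (mem_image.2 ⟨e, by simp [Cw, h, h'], he⟩))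
      have h2 : ∀ e, R e = u → Y (Sum.inl (bl e)) → Y (Sum.inr (wh e)) := by
        intro e he h
        by_contra h'
        exact hu (mem_union_right _ (mem_image.2 ⟨e, by simp [Cb, h, h'], he⟩))
      let g : B ⊕ W → ℚ := fun v => if Y v then 1 else 0
      have hc := closed g u
      have hl : ∀ e ∈ univ.filter (fun e => L e = u),
          g (Sum.inr (wh e)) - g (Sum.inl (bl e)) ≤ 0 := by
        intro e he
        have := h1 e (mem_filter.1 he).2
        by_cases a1 : Y (Sum.inr (wh e)) <;> by_cases a2 : Y (Sum.inl (bl e))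
        · simp only [g, if_pos a1, if_pos a2]; norm_num
        · exact absurd (this a1) a2
        · simp only [g, if_neg a1, if_pos a2]; norm_num
        · simp only [g, if_neg a1, if_neg a2]; norm_num
      have hr : ∀ e ∈ univ.filter (fun e => R e = u),
          0 ≤ g (Sum.inr (wh e)) - g (Sum.inl (bl e)) := by
        intro e he
        have := h2 e (mem_filter.1 he).2
        by_cases a1 : Y (Sum.inr (wh e)) <;> by_cases a2 : Y (Sum.inl (bl e))
        · simp only [g, if_pos a1, if_pos a2]; norm_num
        · simp only [g, if_pos a1, if_neg a2]; norm_num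
        · exact absurd (this a2) a1
        · simp only [g, if_neg a1, if_neg a2]; norm_num
      have s1 := Finset.sum_nonpos hl
      have s2 := Finset.sum_nonneg hr
      have z1 := (Finset.sum_eq_zero_iff_of_nonpos hl).1 (by linarith)
      have z2 := (Finset.sum_eq_zero_iff_of_nonneg hr).1 (by linarith)
      intro e he
      have z : g (Sum.inr (wh e)) - g (Sum.inl (bl e)) = 0 := by
        rcases he with he | he
        · exact z1 e (by simp [he])
        · exact z2 e (by simp [he])
      by_cases a1 : Y (Sum.inr (wh e)) <;> by_cases a2 : Y (Sum.inl (bl e))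
      · exact iff_of_true a2 a1
      · simp only [g, if_pos a1, if_neg a2] at z; norm_num at z
      · simp only [g, if_neg a1, if_pos a2] at z; norm_num at z
      · exact iff_of_false a2 a1
    intro e he
    constructor
    · by_contra h
      exact he (key _ h e (Or.inl rfl))
    · by_contra h
      exact he (key _ h e (Or.inr rfl))
  have cQ : Q.card ≤ Cw.card + Cb.card :=
    (card_union_le _ _).trans (add_le_add card_image_le card_image_le)
  let U : Finset F := univ.filter fun u => ∀ e, L e = u ∨ R e = u → e ∈ E1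
  let T : Finset B := (univ \ BY) \ Cw.image bl
  have cT : T.card + Cw.card + BY.card = Fintype.card B := by
    have h1 : (Cw.image bl).card = Cw.card := by
      refine card_image_of_injOn ?_
      intro e he e' he' h
      exact (hMb (bl e')).unique ⟨h, hCwM e he⟩ ⟨rfl, hCwM e' he'⟩
    have h2 : Cw.image bl ⊆ univ \ BY := by
      intro b hb
      obtain ⟨e, he, rfl⟩ := mem_image.1 hb
      simp only [Cw, BY, mem_filter, mem_univ, true_and, mem_sdiff] at he ⊢
      exact he.2
    have h3 := card_sdiff_add_card_eq_card h2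
    have h4 := card_sdiff_add_card_eq_card (subset_univ BY)
    rw [card_univ] at h4
    simp only [T]
    omega
  have hcover : (univ : Finset F) ⊆ U ∪ Q ∪ T.image r := by
    intro u _
    by_cases hU : u ∈ U
    · exact mem_union_left _ (mem_union_left _ hU)
    by_cases hu : u ∈ Q
    · exact mem_union_left _ (mem_union_right _ hu)
    refine mem_union_right _ ?_
    have hnc : ∀ e, L e = u ∨ R e = u → (Y (Sum.inl (bl e)) ↔ Y (Sum.inr (wh e))) := by
      intro e he
      by_contra h
      rcases he with he | he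
      · exact hu (he ▸ (hQ e h).1)
      · exact hu (he ▸ (hQ e h).2)
    simp only [U, mem_filter, mem_univ, true_and] at hU
    push Not at hU
    obtain ⟨e2, he2, hE⟩ := hU
    have hn2 : ¬ Y (Sum.inl (bl e2)) := by
      intro h
      exact hE (by simp [E1, h, (hnc e2 he2).1 h])
    have hout : ∀ e, L e = u → ¬ Y (Sum.inl (bl e)) := fun e he h =>
      hn2 (nosplit bl wh L R hb3 hw3 hLs cb cw noloop conn hF Y u hnc e e2 (Or.inl he) he2 h)
    obtain ⟨t, ht0, ht⟩ := hron u (by
      rintro ⟨e, he, hl⟩
      exact hout e hl (he ▸ hY0))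
    refine mem_image.2 ⟨t, ?_, ht⟩
    obtain ⟨e, he, hl⟩ := hrc t ht0
    have hnt : ¬ Y (Sum.inl t) := he ▸ hout e (hl.trans ht)
    simp only [T, BY, mem_sdiff, mem_univ, mem_filter, true_and]
    refine ⟨hnt, ?_⟩
    intro h
    obtain ⟨e', he', hb⟩ := mem_image.1 h
    have hm := hCwM e' he'
    have hcut : ¬ (Y (Sum.inl (bl e')) ↔ Y (Sum.inr (wh e'))) := by
      simp only [Cw, mem_filter, mem_univ, true_and] at he'
      tauto
    have := hrM e' (hb ▸ ht0) hm
    rw [hb, ht] at this
    rcases this with h | h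
    · exact hu (h ▸ (hQ e' hcut).1)
    · exact hu (h ▸ (hQ e' hcut).2)
  have cF : Fintype.card F ≤ U.card + Q.card + T.card := by
    have := card_le_card hcover
    rw [card_univ] at this
    exact this.trans ((card_union_le _ _).trans
      (add_le_add (card_union_le _ _) card_image_le))
  have hprop : ∃ u, u ∉ U := by
    have : ∃ e, e ∉ E1 := by
      rcases v0 with b | w
      · obtain ⟨e, ⟨he, -⟩, -⟩ := hMb b
        exact ⟨e, fun h => hv0 (he ▸ (mem_filter.1 h).2.1)⟩
      · obtain ⟨e, ⟨he, -⟩, -⟩ := hMw w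
        exact ⟨e, fun h => hv0 (he ▸ (mem_filter.1 h).2.2)⟩
    obtain ⟨e, he⟩ := this
    exact ⟨L e, fun h => he ((mem_filter.1 h).2 e (Or.inl rfl))⟩
  have hrl := rl_gen (fun e => (Sum.inl (bl e) : B ⊕ W)) (fun e => Sum.inr (wh e)) L R closed
    dconn (univ.filter Y) E1 U
    (by
      intro e he
      rcases he with he | he
      · exact (mem_filter.1 he).2 e (Or.inl rfl)
      · exact (mem_filter.1 he).2 e (Or.inr rfl)) hprop
    (by
      intro S hS u hu v hv hSu
      have hh : ∀ x, Y x → (S x ↔ S (Sum.inl b0)) := by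
        intro x hx
        refine ((hYd _).1 hx (fun x => Y x ∧ (S x ↔ S (Sum.inl b0))) ?_ ⟨hY0, Iff.rfl⟩).2
        intro e he
        have h1 := hYc e he
        by_cases h : Y (Sum.inl (bl e))
        · have h2 := hS e (by simp [E1, h, h1.1 h])
          simp only [h, h1.1 h, true_and]
          rw [h2]
        · have h' : ¬ Y (Sum.inr (wh e)) := fun h2 => h (h1.2 h2)
          simp [h, h']
      exact (hh v (mem_filter.1 hv).2).2 ((hh u (mem_filter.1 hu).2).1 hSu))
  have cY : (univ.filter Y).card = BY.card + WY.card := by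
    simp only [BY, WY, Finset.card_filter, Fintype.sum_sum_type]
  omega

end Crest.Agent.R39.AC
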