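import Crest.Agent.R39.FC
import Crest.Agent.R39.AConn
import Crest.Agent.R39.W20

set_option autoImplicit false
set_option linter.unusedSectionVars false
open Finset

namespace Crest.Agent.R39
namespace Mp
variable {E B W F : Type} [Fintype E] [DecidableEq E] [Fintype B] [DecidableEq B]
  [Fintype W] [DecidableEq W] [Fintype F] [DecidableEq F]

/-- mono edges form a perfect matching -/
theorem A2a {G : Mp E B W F} (h : G.Good) (χ : F → Bool)
    (h2 : ∀ b, ∃ e, G.bl e = b ∧ χ (G.L e) ≠ χ (G.R e)) :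
    (∀ b, ((univ.filter fun e => χ (G.L e) = χ (G.R e)).filter fun e => G.bl e = b).card = 1) ∧
    (∀ t, ((univ.filter fun e => χ (G.L e) = χ (G.R e)).filter fun e => G.wh e = t).card = 1) := by
  classical
  have h0 : G.Good0 := h.toGood1.toGood0
  have hLR : ∀ e, G.L e ≠ G.R e := LR h
  set M : Finset E := univ.filter fun e => χ (G.L e) = χ (G.R e) with hM
  have memM : ∀ e, e ∈ M ↔ χ (G.L e) = χ (G.R e) := by
    intro e; simp [hM]
  have hB : ∀ b, (M.filter fun e => G.bl e = b).card = 1 := by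
    intro b
    obtain ⟨e0, he0, hne⟩ := h2 b
    obtain ⟨e1, e2, h01, h02, h12, hall, hL0, hL1, hL2, -⟩ := locB h0 hLR e0
    rw [he0] at hall
    have hb1 : G.bl e1 = b := (hall e1).2 (Or.inr (Or.inl rfl))
    have hb2 : G.bl e2 = b := (hall e2).2 (Or.inr (Or.inr rfl))
    rw [Finset.card_eq_one]
    by_cases hc : χ (G.L e1) = χ (G.R e1)
    · refine ⟨e1, ?_⟩
      ext e
      simp only [mem_filter, memM, mem_singleton]
      constructor
      · rintro ⟨hm, hb⟩
        rcases (hall e).1 hb with rfl | rfl | rfl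
        · exact absurd hm hne
        · rfl
        · exfalso
          apply hne
          rw [hL0, ← hc, hL1, ← hm, hL2]
      · rintro rfl
        exact ⟨hc, hb1⟩
    · refine ⟨e2, ?_⟩
      have hc2 : χ (G.L e2) = χ (G.R e2) := by
        rw [← hL2] at hne
        rw [← hL0] at hc
        rw [← hL1]
        revert hne hc
        cases χ (G.L e0) <;> cases χ (G.L e1) <;> cases χ (G.L e2) <;> simp
      ext e
      simp only [mem_filter, memM, mem_singleton]
      constructor
      · rintro ⟨hm, hb⟩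
        rcases (hall e).1 hb with rfl | rfl | rfl
        · exact absurd hm hne
        · exact absurd hm hc
        · rfl
      · rintro rfl
        exact ⟨hc2, hb2⟩
  refine ⟨hB, ?_⟩
  have hW1 : ∀ t, 1 ≤ (M.filter fun e => G.wh e = t).card := by
    intro t
    obtain ⟨e0, he0⟩ := wh_surj h0 t
    obtain ⟨e1, e2, h01, h02, h12, hall, hL0, hL1, hL2, -⟩ := locW h0 hLR e0
    rw [he0] at hall
    have hb1 : G.wh e1 = t := (hall e1).2 (Or.inr (Or.inl rfl))
    have hb2 : G.wh e2 = t := (hall e2).2 (Or.inr (Or.inr rfl))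
    rw [Nat.one_le_iff_ne_zero, Ne, Finset.card_eq_zero, ← Ne, ← Finset.nonempty_iff_ne_empty]
    have key : χ (G.L e0) = χ (G.R e0) ∨ χ (G.L e1) = χ (G.R e1) ∨ χ (G.L e2) = χ (G.R e2) := by
      rw [← hL0, ← hL1, ← hL2]
      cases χ (G.L e0) <;> cases χ (G.L e1) <;> cases χ (G.L e2) <;> simp
    rcases key with k | k | k
    · exact ⟨e0, by simp only [mem_filter, memM]; exact ⟨k, he0⟩⟩
    · exact ⟨e1, by simp only [mem_filter, memM]; exact ⟨k, hb1⟩⟩
    · exact ⟨e2, by simp only [mem_filter, memM]; exact ⟨k, hb2⟩⟩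
  have sB : M.card = ∑ b : B, (M.filter fun e => G.bl e = b).card :=
    Finset.card_eq_sum_card_fiberwise (f := G.bl) (s := M) (t := univ) (fun _ _ => by simp)
  have sW : M.card = ∑ t : W, (M.filter fun e => G.wh e = t).card :=
    Finset.card_eq_sum_card_fiberwise (f := G.wh) (s := M) (t := univ) (fun _ _ => by simp)
  have hsum : ∑ t : W, (1 : ℕ) = ∑ t : W, (M.filter fun e => G.wh e = t).card := by
    rw [← sW, sB]
    simp only [hB, Finset.sum_const, smul_eq_mul, mul_one, Finset.card_univ]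
    exact cardW h0
  intro t
  exact ((Finset.sum_eq_sum_iff_of_le (fun t _ => hW1 t)).1 hsum t (mem_univ t)).symm

/-- faces touching a cut edge are at most as many as the cut edges -/
theorem A2b {G : Mp E B W F} (h : G.Good) (YB : Finset B) (YW : Finset W) :
    (univ.filter fun w => ∃ e, (G.L e = w ∨ G.R e = w) ∧ ¬ (G.bl e ∈ YB ↔ G.wh e ∈ YW)).card ≤
      G.pc YB YW + G.qc YB YW := by
  classical
  have h0 : G.Good0 := h.toGood1.toGood0
  have hLR : ∀ e, G.L e ≠ G.R e := LR h
  set C : Finset E := univ.filter fun e => ¬ (G.bl e ∈ YB ↔ G.wh e ∈ YW) with hC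
  have memC : ∀ e, e ∈ C ↔ ¬ (G.bl e ∈ YB ↔ G.wh e ∈ YW) := by
    intro e; simp only [hC, mem_filter, mem_univ, true_and]
  have hCcard : C.card = G.pc YB YW + G.qc YB YW := by
    unfold pc qc
    rw [← Finset.card_union_of_disjoint]
    · congr 1
      ext e
      simp only [memC, mem_union, mem_filter, mem_univ, true_and]
      tauto
    · rw [Finset.disjoint_left]
      intro e he1 he2
      simp only [mem_filter, mem_univ, true_and] at he1 he2
      exact he2.1 he1.1
  set x : E → ℚ := fun e => (if G.wh e ∈ YW then (1 : ℚ) else 0) - (if G.bl e ∈ YB then (1 : ℚ) else 0)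
    with hx
  have hcl : G.Closed x :=
    closed_d h0 (fun b => if b ∈ YB then (1 : ℚ) else 0) (fun t => if t ∈ YW then (1 : ℚ) else 0)
  have hx0 : ∀ e, e ∉ C → x e = 0 := by
    intro e he
    rw [memC, not_not] at he
    by_cases hb : G.bl e ∈ YB
    · simp [hx, hb, he.1 hb]
    · have : G.wh e ∉ YW := fun h' => hb (he.2 h')
      simp [hx, hb, this]
  have hx1 : ∀ e, e ∈ C → x e ≠ 0 := by
    intro e he
    rw [memC] at he
    by_cases hb : G.bl e ∈ YB
    · have : G.wh e ∉ YW := fun h' => he ⟨fun _ => h', fun _ => hb⟩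
      simp [hx, hb, this]
    · have : G.wh e ∈ YW := by
        by_contra h'
        exact he ⟨fun h'' => absurd h'' hb, fun h'' => absurd h'' h'⟩
      simp [hx, hb, this]
  have hsumL : ∀ w, ∑ e ∈ univ.filter (fun e => G.L e = w), x e =
      ∑ e ∈ C.filter (fun e => G.L e = w), x e := by
    intro w
    symm
    apply Finset.sum_subset
    · intro e he
      simp only [mem_filter, mem_univ, true_and] at he ⊢
      exact he.2
    · intro e he hn
      apply hx0
      intro hc
      apply hn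
      simp only [mem_filter, mem_univ, true_and] at he ⊢
      exact ⟨hc, he⟩
  have hsumR : ∀ w, ∑ e ∈ univ.filter (fun e => G.R e = w), x e =
      ∑ e ∈ C.filter (fun e => G.R e = w), x e := by
    intro w
    symm
    apply Finset.sum_subset
    · intro e he
      simp only [mem_filter, mem_univ, true_and] at he ⊢
      exact he.2
    · intro e he hn
      apply hx0
      intro hc
      apply hn
      simp only [mem_filter, mem_univ, true_and] at he ⊢
      exact ⟨hc, he⟩
  have h2 : ∀ w, (∃ e, (G.L e = w ∨ G.R e = w) ∧ ¬ (G.bl e ∈ YB ↔ G.wh e ∈ YW)) →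
      2 ≤ (C.filter fun e => G.L e = w).card + (C.filter fun e => G.R e = w).card := by
    rintro w ⟨e, hw, he⟩
    rw [← memC] at he
    have hcw := hcl w
    rw [hsumL, hsumR] at hcw
    by_contra hlt
    rw [not_le] at hlt
    rcases hw with hw | hw
    · have he' : e ∈ C.filter fun e => G.L e = w := mem_filter.2 ⟨he, hw⟩
      have hpos : 0 < (C.filter fun e => G.L e = w).card := Finset.card_pos.2 ⟨e, he'⟩
      have hR0 : (C.filter fun e => G.R e = w) = ∅ := Finset.card_eq_zero.1 (by omega)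
      have hL1 : (C.filter fun e => G.L e = w).card = 1 := by omega
      obtain ⟨a, ha⟩ := Finset.card_eq_one.1 hL1
      rw [ha, mem_singleton] at he'
      rw [ha, hR0, Finset.sum_singleton, Finset.sum_empty, ← he'] at hcw
      exact hx1 e he hcw
    · have he' : e ∈ C.filter fun e => G.R e = w := mem_filter.2 ⟨he, hw⟩
      have hpos : 0 < (C.filter fun e => G.R e = w).card := Finset.card_pos.2 ⟨e, he'⟩
      have hR0 : (C.filter fun e => G.L e = w) = ∅ := Finset.card_eq_zero.1 (by omega)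
      have hL1 : (C.filter fun e => G.R e = w).card = 1 := by omega
      obtain ⟨a, ha⟩ := Finset.card_eq_one.1 hL1
      rw [ha, mem_singleton] at he'
      rw [ha, hR0, Finset.sum_singleton, Finset.sum_empty, ← he'] at hcw
      exact hx1 e he hcw.symm
  have sL : C.card = ∑ w : F, (C.filter fun e => G.L e = w).card :=
    Finset.card_eq_sum_card_fiberwise (f := G.L) (s := C) (t := univ) (fun _ _ => by simp)
  have sR : C.card = ∑ w : F, (C.filter fun e => G.R e = w).card :=
    Finset.card_eq_sum_card_fiberwise (f := G.R) (s := C) (t := univ) (fun _ _ => by simp)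
  set T : Finset F := univ.filter fun w => ∃ e, (G.L e = w ∨ G.R e = w) ∧
    ¬ (G.bl e ∈ YB ↔ G.wh e ∈ YW) with hT
  have hle : ∑ w ∈ T, 2 ≤ ∑ w : F, ((C.filter fun e => G.L e = w).card +
      (C.filter fun e => G.R e = w).card) := by
    calc ∑ w ∈ T, 2 ≤ ∑ w ∈ T, ((C.filter fun e => G.L e = w).card +
          (C.filter fun e => G.R e = w).card) := by
          apply Finset.sum_le_sum
          intro w hw
          exact h2 w (mem_filter.1 hw).2
      _ ≤ _ := Finset.sum_le_sum_of_subset (subset_univ _)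
  rw [Finset.sum_add_distrib, ← sL, ← sR, Finset.sum_const, smul_eq_mul] at hle
  omega

/-- the component of `b0` along the edges outside `M` -/
theorem A2c (G : Mp E B W F) (M : Finset E) (b0 : B) :
    ∃ (YB : Finset B) (YW : Finset W), b0 ∈ YB ∧ (∀ e, e ∉ M → (G.bl e ∈ YB ↔ G.wh e ∈ YW)) ∧
      G.ConnOn YB YW (G.ins YB YW) ∧
      ∀ (ZB : Finset B) (ZW : Finset W), b0 ∈ ZB → (∀ e, e ∉ M → (G.bl e ∈ ZB ↔ G.wh e ∈ ZW)) →
        YB ⊆ ZB ∧ YW ⊆ ZW := by
  classical
  set YB : Finset B := univ.filter fun b => ∀ (ZB : Finset B) (ZW : Finset W), b0 ∈ ZB →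
    (∀ e, e ∉ M → (G.bl e ∈ ZB ↔ G.wh e ∈ ZW)) → b ∈ ZB with hYB
  set YW : Finset W := univ.filter fun t => ∀ (ZB : Finset B) (ZW : Finset W), b0 ∈ ZB →
    (∀ e, e ∉ M → (G.bl e ∈ ZB ↔ G.wh e ∈ ZW)) → t ∈ ZW with hYW
  have mB : ∀ b, b ∈ YB ↔ ∀ (ZB : Finset B) (ZW : Finset W), b0 ∈ ZB →
      (∀ e, e ∉ M → (G.bl e ∈ ZB ↔ G.wh e ∈ ZW)) → b ∈ ZB := by
    intro b; simp only [hYB, mem_filter, mem_univ, true_and]
  have mW : ∀ t, t ∈ YW ↔ ∀ (ZB : Finset B) (ZW : Finset W), b0 ∈ ZB →
      (∀ e, e ∉ M → (G.bl e ∈ ZB ↔ G.wh e ∈ ZW)) → t ∈ ZW := by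
    intro t; simp only [hYW, mem_filter, mem_univ, true_and]
  have hb0 : b0 ∈ YB := (mB b0).2 fun _ _ h _ => h
  have hcl : ∀ e, e ∉ M → (G.bl e ∈ YB ↔ G.wh e ∈ YW) := by
    intro e he
    rw [mB, mW]
    constructor
    · intro h ZB ZW h1 h2
      exact (h2 e he).1 (h ZB ZW h1 h2)
    · intro h ZB ZW h1 h2
      exact (h2 e he).2 (h ZB ZW h1 h2)
  have hmin : ∀ (ZB : Finset B) (ZW : Finset W), b0 ∈ ZB →
      (∀ e, e ∉ M → (G.bl e ∈ ZB ↔ G.wh e ∈ ZW)) → YB ⊆ ZB ∧ YW ⊆ ZW := by
    intro ZB ZW h1 h2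
    exact ⟨fun b hb => (mB b).1 hb ZB ZW h1 h2, fun t ht => (mW t).1 ht ZB ZW h1 h2⟩
  refine ⟨YB, YW, hb0, hcl, ?_, hmin⟩
  intro gB gW hg
  have := hmin (YB.filter fun b => gB b = gB b0) (YW.filter fun t => gW t = gB b0)
    (mem_filter.2 ⟨hb0, rfl⟩) (by
      intro e he
      simp only [mem_filter]
      constructor
      · rintro ⟨h1, h2⟩
        have h3 := (hcl e he).1 h1
        refine ⟨h3, ?_⟩
        rw [← hg e (by simp only [ins, mem_filter, mem_univ, true_and]; exact ⟨h1, h3⟩), h2]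
      · rintro ⟨h1, h2⟩
        have h3 := (hcl e he).2 h1
        refine ⟨h3, ?_⟩
        rw [hg e (by simp only [ins, mem_filter, mem_univ, true_and]; exact ⟨h3, h1⟩), h2])
  exact ⟨gB b0, fun b hb => (mem_filter.1 (this.1 hb)).2, fun t ht => (mem_filter.1 (this.2 ht)).2⟩

theorem A2 {G : Mp E B W F} (h : G.Good) (e0 : E) (r : B' (G.bl e0) ≃ G.F' (G.bl e0))
    (hr : ∀ b, (r b).1 ∈ G.RF b.1) (χ : F → Bool) (h1 : χ (G.L e0) = χ (G.R e0))
    (h2 : ∀ b, ∃ e, G.bl e = b ∧ χ (G.L e) ≠ χ (G.R e))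
    (h3 : ∀ e (hb : G.bl e ≠ G.bl e0), χ (G.L e) = χ (G.R e) →
        G.L e = (r ⟨G.bl e, hb⟩).1 ∨ G.R e = (r ⟨G.bl e, hb⟩).1) : G.Ham e0 := by
  classical
  obtain ⟨ha, hb⟩ := A2a h χ h2
  refine ⟨univ.filter fun e => χ (G.L e) = χ (G.R e), by simp [h1], ha, hb, ?_⟩
  intro YB YW hY
  have key := AC.aconn G.bl G.wh G.L G.R h.degB h.degW h.surj h.clB h.clW (LR h)
    (W20.connP h.toGood0) (W20.dconnP h.toGood1) h.euler (G.bl e0)
    (fun e => χ (G.L e) = χ (G.R e))
    (fun b => by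
      obtain ⟨e, he⟩ := card_eq_one.1 (ha b)
      have hm : ∀ e', (G.bl e' = b ∧ χ (G.L e') = χ (G.R e')) ↔ e' = e := by
        intro e'
        rw [← mem_singleton (a := e) (b := e'), ← he]
        simp [and_comm]
      exact ⟨e, (hm e).2 rfl, fun e' he' => (hm e').1 he'⟩)
    (fun b => by
      obtain ⟨e, he⟩ := card_eq_one.1 (hb b)
      have hm : ∀ e', (G.wh e' = b ∧ χ (G.L e') = χ (G.R e')) ↔ e' = e := by
        intro e'
        rw [← mem_singleton (a := e) (b := e'), ← he]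
        simp [and_comm]
      exact ⟨e, (hm e).2 rfl, fun e' he' => (hm e').1 he'⟩)
    (fun b => if hb : b ≠ G.bl e0 then (r ⟨b, hb⟩).1 else G.L e0)
    (fun f hf => by
      have hf' : f ∉ G.RF (G.bl e0) := by
        intro hh
        obtain ⟨e, he, hl⟩ := mem_image.1 hh
        exact hf ⟨e, (mem_filter.1 he).2, hl⟩
      refine ⟨(r.symm ⟨f, hf'⟩).1, (r.symm ⟨f, hf'⟩).2, ?_⟩
      rw [dif_pos (r.symm ⟨f, hf'⟩).2]
      simp)
    (fun t ht => by
      obtain ⟨e, he, hl⟩ := mem_image.1 (hr ⟨t, ht⟩)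
      refine ⟨e, (mem_filter.1 he).2, ?_⟩
      rw [dif_pos ht]
      exact hl)
    (fun e he hm => by
      rw [dif_pos he]
      rcases h3 e he hm with h4 | h4
      · exact Or.inl h4.symm
      · exact Or.inr h4.symm)
    (fun v => match v with
      | Sum.inl b => b ∈ YB
      | Sum.inr t => t ∈ YW)
    (fun e he => hY e (by simpa using he))
  by_cases h0 : G.bl e0 ∈ YB
  · right
    exact ⟨eq_univ_of_forall fun b => key (Sum.inl (G.bl e0)) (Sum.inl b) h0,
      eq_univ_of_forall fun t => key (Sum.inl (G.bl e0)) (Sum.inr t) h0⟩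
  · left
    exact ⟨eq_empty_of_forall_notMem fun b hb => h0 (key (Sum.inl b) (Sum.inl (G.bl e0)) hb),
      eq_empty_of_forall_notMem fun t ht => h0 (key (Sum.inr t) (Sum.inl (G.bl e0)) ht)⟩

end Mp
end Crest.Agent.R39
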