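import Crest.Agent.R39.RLgen
/-! Structure-free helpers for row 39: closed sums, triangle lemma, faces do not split. -/
set_option autoImplicit false
namespace Crest.Agent.R39.AC
open Finset

theorem closed_sum {E A F : Type*} [Fintype E] [Fintype A] [Fintype F] [DecidableEq A]
    [DecidableEq F] (p : E → A) (L R : E → F)
    (hc : ∀ a f, (univ.filter fun e => p e = a ∧ L e = f).card =
      (univ.filter fun e => p e = a ∧ R e = f).card) (h : A → F → ℚ) :
    ∑ e, h (p e) (L e) = ∑ e, h (p e) (R e) := by
  have key : ∀ L : E → F, ∑ e, h (p e) (L e) =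
      ∑ a, ∑ f, ((univ.filter fun e => p e = a ∧ L e = f).card : ℚ) * h a f := by
    intro L
    calc ∑ e, h (p e) (L e) = ∑ e, ∑ a, ∑ f, if p e = a ∧ L e = f then h a f else 0 := by
          simp [ite_and]
      _ = ∑ a, ∑ e, ∑ f, if p e = a ∧ L e = f then h a f else 0 := Finset.sum_comm
      _ = ∑ a, ∑ f, ∑ e, if p e = a ∧ L e = f then h a f else 0 :=
          Finset.sum_congr rfl fun a _ => Finset.sum_comm
      _ = _ := by
          refine Finset.sum_congr rfl fun a _ => Finset.sum_congr rfl fun f _ => ?_
          rw [← Finset.sum_filter, Finset.sum_const, nsmul_eq_mul]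
  rw [key L, key R]
  simp only [hc]

theorem exists_R {E A F : Type*} [Fintype E] [DecidableEq A]
    [DecidableEq F] (p : E → A) (L R : E → F)
    (hc : ∀ a f, (univ.filter fun e => p e = a ∧ L e = f).card =
      (univ.filter fun e => p e = a ∧ R e = f).card) (e : E) :
    ∃ e', p e' = p e ∧ R e' = L e := by
  have h1 : 0 < (univ.filter fun e' => p e' = p e ∧ L e' = L e).card :=
    Finset.card_pos.2 ⟨e, by simp⟩
  rw [hc] at h1
  obtain ⟨e', he'⟩ := Finset.card_pos.1 h1
  exact ⟨e', by simpa using he'⟩

theorem tri {E A F : Type*} [Fintype E] [DecidableEq A]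
    [DecidableEq F] (p : E → A) (L R : E → F)
    (hc : ∀ a f, (univ.filter fun e => p e = a ∧ L e = f).card =
      (univ.filter fun e => p e = a ∧ R e = f).card)
    (h3 : ∀ a, (univ.filter fun e => p e = a).card = 3) (noloop : ∀ e, L e ≠ R e)
    (P : F → Prop) (a : A) (hP : ∀ e, p e = a → (P (L e) ↔ P (R e)))
    (e1 e2 : E) (h1 : p e1 = a) (h2 : p e2 = a) (hp : P (L e1)) : P (L e2) := by
  classical
  by_contra hn
  obtain ⟨e3, h3a, h3R⟩ := exists_R p L R hc e1
  obtain ⟨e4, h4a, h4R⟩ := exists_R p L R hc e2
  have h3a' : p e3 = a := h3a.trans h1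
  have h4a' : p e4 = a := h4a.trans h2
  have P3 : P (L e3) := (hP e3 h3a').2 (h3R ▸ hp)
  have P4 : ¬ P (L e4) := fun h => hn (h4R ▸ (hP e4 h4a').1 h)
  have n13 : e1 ≠ e3 := fun h => noloop e1 (by rw [← h3R, h])
  have n24 : e2 ≠ e4 := fun h => noloop e2 (by rw [← h4R, h])
  have n12 : e1 ≠ e2 := fun h => hn (h ▸ hp)
  have n14 : e1 ≠ e4 := fun h => P4 (h ▸ hp)
  have n32 : e3 ≠ e2 := fun h => hn (h ▸ P3)
  have n34 : e3 ≠ e4 := fun h => P4 (h ▸ P3)
  have hsub : ({e1, e3, e2, e4} : Finset E) ⊆ univ.filter fun e => p e = a := by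
    intro e he
    simp only [Finset.mem_insert, Finset.mem_singleton] at he
    rcases he with rfl | rfl | rfl | rfl <;> simp [*]
  have hcard := Finset.card_le_card hsub
  rw [h3, Finset.card_insert_of_notMem (by simp [n13, n12, n14]),
    Finset.card_insert_of_notMem (by simp [n32, n34]), Finset.card_pair n24] at hcard
  omega

theorem card_three {E A : Type*} [Fintype E] [Fintype A] [DecidableEq A] (p : E → A)
    (h3 : ∀ a, (univ.filter fun e => p e = a).card = 3) (S : A → Prop) [DecidablePred S] :
    (univ.filter fun e => S (p e)).card = 3 * (univ.filter S).card := by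
  rw [Finset.card_eq_sum_card_fiberwise (f := p) (t := univ.filter S)
    (by intro e he; simpa using he)]
  rw [Finset.sum_congr rfl (g := fun _ => 3)]
  · simp [mul_comm]
  · intro a ha
    rw [← h3 a, Finset.filter_filter]
    congr 1
    ext e
    simp only [Finset.mem_filter, Finset.mem_univ, true_and] at ha ⊢
    exact ⟨fun h => h.2, fun h => ⟨h ▸ ha, h⟩⟩

/-- a face without cut edges lies on one side. -/
theorem nosplit {E B W F : Type*} [Fintype E] [Fintype B] [Fintype W] [Fintype F]
    [DecidableEq B] [DecidableEq W] [DecidableEq F]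
    (bl : E → B) (wh : E → W) (L R : E → F)
    (hb3 : ∀ a, (univ.filter fun e => bl e = a).card = 3)
    (hw3 : ∀ a, (univ.filter fun e => wh e = a).card = 3)
    (hLs : Function.Surjective L)
    (cb : ∀ a f, (univ.filter fun e => bl e = a ∧ L e = f).card =
      (univ.filter fun e => bl e = a ∧ R e = f).card)
    (cw : ∀ a f, (univ.filter fun e => wh e = a ∧ L e = f).card =
      (univ.filter fun e => wh e = a ∧ R e = f).card)
    (noloop : ∀ e, L e ≠ R e)
    (conn : ∀ X : B ⊕ W → Prop, (∀ e, X (Sum.inl (bl e)) ↔ X (Sum.inr (wh e))) →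
      ∀ p q, X p → X q)
    (hF : Fintype.card F = Fintype.card B + 2)
    (Y : B ⊕ W → Prop) (w : F)
    (hw : ∀ e, L e = w ∨ R e = w → (Y (Sum.inl (bl e)) ↔ Y (Sum.inr (wh e))))
    (e1 e2 : E) (h1 : L e1 = w ∨ R e1 = w) (h2 : L e2 = w ∨ R e2 = w)
    (hY1 : Y (Sum.inl (bl e1))) : Y (Sum.inl (bl e2)) := by
  classical
  by_contra hY2
  let φ : B ⊕ W → F → Option F := fun v f => if f = w ∧ Y v then none else some f
  let L' : E → Option F := fun e => φ (Sum.inl (bl e)) (L e)
  let R' : E → Option F := fun e => φ (Sum.inl (bl e)) (R e)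
  have hL' : ∀ e, L' e = φ (Sum.inr (wh e)) (L e) := by
    intro e
    by_cases h : L e = w
    · simp only [L', φ, hw e (Or.inl h)]
    · simp [L', φ, h]
  have hR' : ∀ e, R' e = φ (Sum.inr (wh e)) (R e) := by
    intro e
    by_cases h : R e = w
    · simp only [R', φ, hw e (Or.inr h)]
    · simp [R', φ, h]
  have closed : ∀ (g : B ⊕ W → ℚ) (u : Option F),
      ∑ e with L' e = u, (g (Sum.inr (wh e)) - g (Sum.inl (bl e))) =
      ∑ e with R' e = u, (g (Sum.inr (wh e)) - g (Sum.inl (bl e))) := by
    intro g u
    rw [Finset.sum_sub_distrib, Finset.sum_sub_distrib]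
    simp only [Finset.sum_filter]
    congr 1
    · simp only [hL', hR']
      exact closed_sum wh L R cw (fun a f => if φ (Sum.inr a) f = u then g (Sum.inr a) else 0)
    · exact closed_sum bl L R cb (fun a f => if φ (Sum.inl a) f = u then g (Sum.inl a) else 0)
  have dconn : ∀ y : Option F → Prop, (∀ e, y (L' e) ↔ y (R' e)) → ∀ u v, y u → y v := by
    intro y hy
    let X : B ⊕ W → Prop := fun v => match v with
      | Sum.inl a => ∃ e, bl e = a ∧ y (L' e)
      | Sum.inr a => ∃ e, wh e = a ∧ y (L' e)
    have hXb : ∀ e, X (Sum.inl (bl e)) ↔ y (L' e) := by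
      intro e
      refine ⟨?_, fun h => ⟨e, rfl, h⟩⟩
      rintro ⟨e', he', h⟩
      refine tri bl L R cb hb3 noloop (fun f => y (φ (Sum.inl (bl e)) f)) (bl e) ?_ e' e he' rfl ?_
      · intro e'' he''
        have := hy e''
        simp only [L', R', he''] at this
        exact this
      · simp only [L', he'] at h
        exact h
    have hXw : ∀ e, X (Sum.inr (wh e)) ↔ y (L' e) := by
      intro e
      refine ⟨?_, fun h => ⟨e, rfl, h⟩⟩
      rintro ⟨e', he', h⟩
      rw [hL']
      refine tri wh L R cw hw3 noloop (fun f => y (φ (Sum.inr (wh e)) f)) (wh e) ?_ e' e he' rfl ?_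
      · intro e'' he''
        have := hy e''
        rw [hL', hR', he''] at this
        exact this
      · rw [hL', he'] at h
        exact h
    have hall : ∀ e e', y (L' e) → y (L' e') := fun e e' h =>
      (hXb e').1 (conn X (fun e => (hXb e).trans (hXw e).symm) (Sum.inl (bl e)) (Sum.inl (bl e'))
        ((hXb e).2 h))
    have hrep : ∀ u, ∃ e, (y u ↔ y (L' e)) := by
      intro u
      rcases u with _ | f
      · refine ⟨e1, ?_⟩
        rcases h1 with h | h
        · have : L' e1 = none := by simp [L', φ, h, hY1]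
          rw [this]
        · have : R' e1 = none := by simp [R', φ, h, hY1]
          rw [hy, this]
      · by_cases hf : f = w
        · refine ⟨e2, ?_⟩
          rcases h2 with h | h
          · have : L' e2 = some f := by simp [L', φ, h, hY2, hf]
            rw [this]
          · have : R' e2 = some f := by simp [R', φ, h, hY2, hf]
            rw [hy, this]
        · obtain ⟨e, he⟩ := hLs f
          refine ⟨e, ?_⟩
          have : L' e = some f := by simp [L', φ, he, hf]
          rw [this]
    intro u v hu
    obtain ⟨e, he⟩ := hrep u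
    obtain ⟨e', he'⟩ := hrep v
    exact he'.2 (hall e e' (he.1 hu))
  by_cases hsmall : True
  · have hsplit : ∀ e, (L' e ∈ (univ.erase none : Finset (Option F)) ∨
        R' e ∈ (univ.erase none : Finset (Option F))) → e ∈ (univ : Finset E) :=
      fun e _ => Finset.mem_univ e
    have := rl_gen (fun e => (Sum.inl (bl e) : B ⊕ W)) (fun e => Sum.inr (wh e)) L' R' closed dconn
      univ univ (univ.erase none) hsplit ⟨none, by simp⟩
      (fun S hS u _ v _ hu => conn S (fun e => hS e (Finset.mem_univ e)) u v hu)
    have hb := card_three bl hb3 (fun _ => True)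
    have hw' := card_three wh hw3 (fun _ => True)
    simp only [Finset.filter_true, Finset.card_univ] at hb hw'
    rw [Finset.card_erase_of_mem (Finset.mem_univ _)] at this
    simp only [Finset.card_univ, Fintype.card_sum, Fintype.card_option] at this
    omega
  · exact hsmall trivial

end Crest.Agent.R39.AC
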