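import Crest.Agent.R39.Basic2
import Crest.Agent.R39.ExactM

set_option autoImplicit false
set_option linter.unusedSectionVars false
open Finset

namespace Crest.Agent.R39
namespace Mp
variable {E B W F : Type} [Fintype E] [DecidableEq E] [Fintype B] [DecidableEq B]
  [Fintype W] [DecidableEq W] [Fintype F] [DecidableEq F]

namespace B1aX

theorem uniq1 {G : Mp E B W F} (h : G.Good) {e e' : E} (hb : G.bl e' = G.bl e)
    (hL : G.L e' = G.L e) : e' = e := by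
  obtain ⟨e1, e2, -, -, -, hall, -, -, -, h4, h5, -⟩ := locB h.toGood0 (LR h) e
  rcases (hall e').1 hb with rfl | rfl | rfl
  · rfl
  · exact absurd hL.symm h4
  · exact absurd hL.symm h5

theorem uniq2 {G : Mp E B W F} (h : G.Good) {e e' : E} (hb : G.bl e' = G.bl e)
    (hL : G.R e' = G.L e) (hR : G.L e' = G.R e) : False := by
  obtain ⟨e1, e2, -, -, -, hall, h1, h2, h3, h4, h5, h6⟩ := locB h.toGood0 (LR h) e
  rcases (hall e').1 hb with rfl | rfl | rfl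
  · exact LR h _ hR
  · exact h6 (hR.trans h3.symm)
  · exact h4 (hL.symm.trans h2.symm)

theorem loc {G : Mp E B W F} (h : G.Good) (b : B) (x y : F) (hJ : G.J b x y ≠ 0) :
    ∃ e0 : E, G.bl e0 = b ∧
      ((G.L e0 = x ∧ G.R e0 = y ∧ G.J b x y = 1) ∨ (G.R e0 = x ∧ G.L e0 = y ∧ G.J b x y = -1)) ∧
      ∀ e, ((if G.bl e = b ∧ G.L e = x ∧ G.R e = y then (1 : ℚ) else 0) -
        (if G.bl e = b ∧ G.R e = x ∧ G.L e = y then (1 : ℚ) else 0)) =
          if e = e0 then (G.J b x y : ℚ) else 0 := by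
  by_cases h1 : ∃ e0, G.bl e0 = b ∧ G.L e0 = x ∧ G.R e0 = y
  · obtain ⟨e0, hb, hx, hy⟩ := h1
    have hA : ∀ e, (G.bl e = b ∧ G.L e = x ∧ G.R e = y) ↔ e = e0 := fun e =>
      ⟨fun he => uniq1 h (he.1.trans hb.symm) (he.2.1.trans hx.symm), fun he => by
        rw [he]; exact ⟨hb, hx, hy⟩⟩
    have hB : ∀ e, ¬ (G.bl e = b ∧ G.R e = x ∧ G.L e = y) := fun e he =>
      uniq2 h (he.1.trans hb.symm) (he.2.1.trans hx.symm) (he.2.2.trans hy.symm)
    have hv : G.J b x y = 1 := by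
      unfold J
      rw [Finset.filter_congr (fun e _ => hA e), Finset.filter_eq', Finset.filter_eq_empty_iff.2
        (fun e _ => hB e)]
      simp
    refine ⟨e0, hb, Or.inl ⟨hx, hy, hv⟩, fun e => ?_⟩
    rw [if_neg (hB e), hv]
    by_cases he : e = e0
    · rw [if_pos ((hA e).2 he), if_pos he]; simp
    · rw [if_neg (fun h' => he ((hA e).1 h')), if_neg he]; simp
  · by_cases h2 : ∃ e0, G.bl e0 = b ∧ G.R e0 = x ∧ G.L e0 = y
    · obtain ⟨e0, hb, hx, hy⟩ := h2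
      have hA : ∀ e, (G.bl e = b ∧ G.R e = x ∧ G.L e = y) ↔ e = e0 := fun e =>
        ⟨fun he => uniq1 h (he.1.trans hb.symm) (he.2.2.trans hy.symm), fun he => by
          rw [he]; exact ⟨hb, hx, hy⟩⟩
      have hB : ∀ e, ¬ (G.bl e = b ∧ G.L e = x ∧ G.R e = y) := fun e he => h1 ⟨e, he⟩
      have hv : G.J b x y = -1 := by
        unfold J
        rw [Finset.filter_congr (fun e _ => hA e), Finset.filter_eq', Finset.filter_eq_empty_iff.2
          (fun e _ => hB e)]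
        simp
      refine ⟨e0, hb, Or.inr ⟨hx, hy, hv⟩, fun e => ?_⟩
      rw [if_neg (hB e), hv]
      by_cases he : e = e0
      · rw [if_pos ((hA e).2 he), if_pos he]; simp
      · rw [if_neg (fun h' => he ((hA e).1 h')), if_neg he]; simp
    · exfalso
      apply hJ
      unfold J
      rw [Finset.filter_eq_empty_iff.2 (fun e _ he => h1 ⟨e, he⟩),
        Finset.filter_eq_empty_iff.2 (fun e _ he => h2 ⟨e, he⟩)]
      simp

theorem eps {G : Mp E B W F} (h : G.Good) (b0 : B) (r s : B' b0 ≃ G.F' b0)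
    (hJ : ∀ b : B' b0, G.J b.1 (r b).1 (s b).1 ≠ 0) :
    ∃ ε : B' b0 → E, (∀ b, G.bl (ε b) = b.1) ∧
      (∀ b, (G.L (ε b) = (r b).1 ∧ G.R (ε b) = (s b).1 ∧ G.J b.1 (r b).1 (s b).1 = 1) ∨
        (G.R (ε b) = (r b).1 ∧ G.L (ε b) = (s b).1 ∧ G.J b.1 (r b).1 (s b).1 = -1)) ∧
      ∀ (C : Finset (B' b0)) e, G.xC b0 r s C e =
        ∑ b ∈ C, if e = ε b then (G.J b.1 (r b).1 (s b).1 : ℚ) else 0 := by
  choose ε h1 h2 h3 using fun b : B' b0 => loc h b.1 (r b).1 (s b).1 (hJ b)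
  exact ⟨ε, h1, h2, fun C e => Finset.sum_congr rfl fun b _ => h3 b e⟩

theorem bdry {G : Mp E B W F} (b0 : B) (r s : B' b0 ≃ G.F' b0) (ε : B' b0 → E)
    (h2 : ∀ b, (G.L (ε b) = (r b).1 ∧ G.R (ε b) = (s b).1 ∧ G.J b.1 (r b).1 (s b).1 = 1) ∨
        (G.R (ε b) = (r b).1 ∧ G.L (ε b) = (s b).1 ∧ G.J b.1 (r b).1 (s b).1 = -1))
    (C : Finset (B' b0)) (c : B' b0 → ℚ) (y : E → ℚ)
    (hy : ∀ e, y e = ∑ b ∈ C, if e = ε b then c b * (G.J b.1 (r b).1 (s b).1 : ℚ) else 0) (w : F) :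
    ∑ e ∈ univ.filter (fun e => G.L e = w), y e - ∑ e ∈ univ.filter (fun e => G.R e = w), y e =
      ∑ b ∈ C, (if (r b).1 = w then c b else 0) - ∑ b ∈ C, (if (s b).1 = w then c b else 0) := by
  simp only [hy]
  rw [Finset.sum_comm, Finset.sum_comm (s := univ.filter (fun e => G.R e = w)),
    ← Finset.sum_sub_distrib, ← Finset.sum_sub_distrib]
  refine Finset.sum_congr rfl fun b _ => ?_
  rw [Finset.sum_ite_eq', Finset.sum_ite_eq']
  simp only [Finset.mem_filter, Finset.mem_univ, true_and]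
  rcases h2 b with ⟨a1, a2, a3⟩ | ⟨a1, a2, a3⟩
  · rw [a1, a2, a3]; simp
  · rw [a1, a2, a3]
    split_ifs <;> simp

theorem mem_orb {ι : Type} [Fintype ι] [DecidableEq ι] (κ : Equiv.Perm ι) (b1 b : ι) :
    κ b ∈ orb κ b1 ↔ b ∈ orb κ b1 := by
  simp [orb]

end B1aX

theorem B1a {G : Mp E B W F} (h : G.Good) (b0 : B) (r s : B' b0 ≃ G.F' b0) (b1 : B' b0) :
    G.Closed (G.xC b0 r s (orb (s.trans r.symm) b1)) ∨
      ∃ b : B' b0, G.J b.1 (r b).1 (s b).1 = 0 := by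
  by_cases hJ : ∃ b : B' b0, G.J b.1 (r b).1 (s b).1 = 0
  · exact Or.inr hJ
  left
  obtain ⟨ε, -, h2, h3⟩ := B1aX.eps h b0 r s (fun b hb => hJ ⟨b, hb⟩)
  intro w
  have key := B1aX.bdry b0 r s ε h2 (orb (s.trans r.symm) b1) (fun _ => 1)
    (G.xC b0 r s (orb (s.trans r.symm) b1)) (fun e => by simpa using h3 _ e) w
  have e2 : ∑ b ∈ orb (s.trans r.symm) b1, (if (s b).1 = w then (1 : ℚ) else 0) =
      ∑ b ∈ orb (s.trans r.symm) b1, (if (r b).1 = w then (1 : ℚ) else 0) := by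
    refine Finset.sum_equiv (s.trans r.symm) (fun b => (B1aX.mem_orb _ b1 b).symm) fun b _ => ?_
    simp
  rw [e2, sub_self] at key
  exact sub_eq_zero.1 key

/-- values of `xC` -/
theorem B1v {G : Mp E B W F} (h : G.Good) (b0 : B) (r s : B' b0 ≃ G.F' b0)
    (hJ : ∀ b : B' b0, G.J b.1 (r b).1 (s b).1 ≠ 0) (C : Finset (B' b0)) :
    ∃ ε : B' b0 → E, (∀ b, G.bl (ε b) = b.1) ∧
      (∀ b, (G.L (ε b) = (r b).1 ∧ G.R (ε b) = (s b).1 ∧ G.J b.1 (r b).1 (s b).1 = 1) ∨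
        (G.R (ε b) = (r b).1 ∧ G.L (ε b) = (s b).1 ∧ G.J b.1 (r b).1 (s b).1 = -1)) ∧
      (∀ b ∈ C, G.xC b0 r s C (ε b) = G.J b.1 (r b).1 (s b).1) ∧
      (∀ e, G.xC b0 r s C e ≠ 0 → ∃ b ∈ C, e = ε b) := by
  obtain ⟨ε, h1, h2, h3⟩ := B1aX.eps h b0 r s hJ
  refine ⟨ε, h1, h2, fun b hb => ?_, fun e he => ?_⟩
  · rw [h3, Finset.sum_eq_single b]
    · rw [if_pos rfl]
    · intro b' _ hne
      rw [if_neg]
      intro hE
      apply hne
      apply Subtype.ext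
      rw [← h1 b', ← hE, h1 b]
    · intro hn
      exact absurd hb hn
  · rw [h3] at he
    obtain ⟨b, hb, hne⟩ := Finset.exists_ne_zero_of_sum_ne_zero he
    refine ⟨b, hb, ?_⟩
    by_contra hc
    exact hne (if_neg hc)

/-- all or nothing -/
theorem B1b {G : Mp E B W F} (h : G.Good) (b0 : B) (r s : B' b0 ≃ G.F' b0)
    (hJ : ∀ b : B' b0, G.J b.1 (r b).1 (s b).1 ≠ 0) (b1 : B' b0) (y : E → ℚ) (hy : G.Closed y)
    (hsupp : ∀ e, G.xC b0 r s (orb (s.trans r.symm) b1) e = 0 → y e = 0) :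
    ∃ c : ℚ, ∀ e, y e = c * G.xC b0 r s (orb (s.trans r.symm) b1) e := by
  obtain ⟨ε, h1, h2, h3⟩ := B1aX.eps h b0 r s hJ
  set κ : Equiv.Perm (B' b0) := s.trans r.symm with hκ
  have hinj : Function.Injective ε := fun b b' hE => by
    apply Subtype.ext
    rw [← h1 b', ← hE, h1 b]
  have hsq : ∀ b : B' b0, (G.J b.1 (r b).1 (s b).1 : ℚ) * (G.J b.1 (r b).1 (s b).1 : ℚ) = 1 := by
    intro b
    rcases h2 b with ⟨-, -, a3⟩ | ⟨-, -, a3⟩ <;> rw [a3] <;> simp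
  let c : B' b0 → ℚ := fun b => y (ε b) * (G.J b.1 (r b).1 (s b).1 : ℚ)
  have hy2 : ∀ e, y e =
      ∑ b ∈ orb κ b1, if e = ε b then c b * (G.J b.1 (r b).1 (s b).1 : ℚ) else 0 := by
    intro e
    by_cases he : ∃ b ∈ orb κ b1, e = ε b
    · obtain ⟨b, hb, rfl⟩ := he
      rw [Finset.sum_eq_single b]
      · rw [if_pos rfl]
        simp only [c]
        rw [mul_assoc, hsq, mul_one]
      · intro b' _ hne
        exact if_neg fun hE => hne (hinj hE).symm
      · intro hn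
        exact absurd hb hn
    · rw [hsupp e, Finset.sum_eq_zero]
      · intro b hb
        exact if_neg fun hE => he ⟨b, hb, hE⟩
      · rw [h3]
        exact Finset.sum_eq_zero fun b hb => if_neg fun hE => he ⟨b, hb, hE⟩
  have hstep : ∀ b ∈ orb κ b1, c (κ b) = c b := by
    intro b hb
    have key := B1aX.bdry b0 r s ε h2 (orb κ b1) c y hy2 (s b).1
    rw [hy (s b).1, sub_self, Finset.sum_eq_single (κ b), Finset.sum_eq_single b] at key
    · rw [if_pos (by simp [hκ]), if_pos rfl] at key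
      linarith
    · intro b' _ hne
      exact if_neg fun hE => hne (s.injective (Subtype.ext hE))
    · intro hn
      exact absurd hb hn
    · intro b' _ hne
      refine if_neg fun hE => hne ?_
      have : r b' = s b := Subtype.ext hE
      rw [hκ, Equiv.trans_apply, ← this, Equiv.symm_apply_apply]
    · intro hn
      exact absurd ((B1aX.mem_orb κ b1 b).2 hb) hn
  have hpow : ∀ n : ℕ, (κ ^ n) b1 ∈ orb κ b1 ∧ c ((κ ^ n) b1) = c b1 := by
    intro n
    induction n with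
    | zero => exact ⟨by simp [orb, Equiv.Perm.SameCycle.refl], rfl⟩
    | succ n ih =>
      rw [pow_succ', Equiv.Perm.mul_apply]
      exact ⟨(B1aX.mem_orb κ b1 _).2 ih.1, (hstep _ ih.1).trans ih.2⟩
  have hall : ∀ b ∈ orb κ b1, c b = c b1 := by
    intro b hb
    have hs : κ.SameCycle b1 b := (Finset.mem_filter.1 hb).2
    obtain ⟨n, hn⟩ := hs.exists_nat_pow_eq
    rw [← hn]
    exact (hpow n).2
  refine ⟨c b1, fun e => ?_⟩
  rw [hy2, h3, Finset.mul_sum]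
  refine Finset.sum_congr rfl fun b hb => ?_
  rw [hall b hb]
  split_ifs <;> simp

end Mp
end Crest.Agent.R39
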