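import Crest.Agent.R39.B1a

set_option autoImplicit false
set_option linter.unusedSectionVars false
open Finset

namespace Crest.Agent.R39
namespace Mp
variable {E B W F : Type} [Fintype E] [DecidableEq E] [Fintype B] [DecidableEq B]
  [Fintype W] [DecidableEq W] [Fintype F] [DecidableEq F]

/-- a side of an all-or-nothing coboundary is connected -/
theorem B1c_conn {G : Mp E B W F} (h : G.Good) (x : E → ℚ)
    (hall : ∀ y : E → ℚ, G.Closed y → (∀ e, x e = 0 → y e = 0) → ∃ c : ℚ, ∀ e, y e = c * x e)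
    (γ : ℚ) (hγ : γ ≠ 0) (ZB : Finset B) (ZW : Finset W)
    (hx : ∀ e, x e =
      γ * ((if G.wh e ∈ ZW then (1 : ℚ) else 0) - (if G.bl e ∈ ZB then 1 else 0))) :
    G.ConnOn ZB ZW (G.ins ZB ZW) := by
  intro gB gW hg
  obtain ⟨c, hc⟩ := hall
    (fun e => (if G.wh e ∈ ZW then gW (G.wh e) else 0) - (if G.bl e ∈ ZB then gB (G.bl e) else 0))
    (closed_d h.toGood0 (fun b => if b ∈ ZB then gB b else 0) (fun t => if t ∈ ZW then gW t else 0))
    (by
      intro e he
      rw [hx e] at he
      have he' := (mul_eq_zero.1 he).resolve_left hγ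
      by_cases h1 : G.wh e ∈ ZW <;> by_cases h2 : G.bl e ∈ ZB
      · have := hg e (by simp [ins, h1, h2])
        simp [h1, h2, this]
      · simp [h1, h2] at he'
      · simp [h1, h2] at he'
      · simp [h1, h2])
  obtain ⟨k, hk1, hk2⟩ := conn h.toGood0
    (fun b => (if b ∈ ZB then gB b else 0) - c * γ * (if b ∈ ZB then 1 else 0))
    (fun t => (if t ∈ ZW then gW t else 0) - c * γ * (if t ∈ ZW then 1 else 0))
    (by
      intro e _
      have := hc e
      rw [hx e] at this
      linear_combination -this)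
  refine ⟨k + c * γ, fun b hb => ?_, fun t ht => ?_⟩
  · have := hk1 b (mem_univ _)
    simp only [hb, if_true] at this
    linear_combination this
  · have := hk2 t (mem_univ _)
    simp only [ht, if_true] at this
    linear_combination this

/-- a nonzero exact all-or-nothing cochain with values in `{0, 1, -1}` is `γ d 1_Y`, both sides
connected -/
theorem B1c {G : Mp E B W F} (h : G.Good) (b0 : B) (x : E → ℚ) (hx : G.Closed x)
    (hval : ∀ e, x e = 0 ∨ x e = 1 ∨ x e = -1) (hne : ∃ e, x e ≠ 0)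
    (hall : ∀ y : E → ℚ, G.Closed y → (∀ e, x e = 0 → y e = 0) → ∃ c : ℚ, ∀ e, y e = c * x e) :
    ∃ (γ : ℤ) (YB : Finset B) (YW : Finset W), (γ = 1 ∨ γ = -1) ∧ b0 ∉ YB ∧
      (∀ e, x e = γ * ((if G.wh e ∈ YW then (1 : ℚ) else 0) - (if G.bl e ∈ YB then 1 else 0))) ∧
      G.ConnOn YB YW (G.ins YB YW) ∧ G.ConnOn YBᶜ YWᶜ (G.ins YBᶜ YWᶜ) := by
  obtain ⟨gB, gW, hg⟩ := exact h x hx
  let YB : Finset B := univ.filter fun b => gB b ≠ gB b0
  let YW : Finset W := univ.filter fun t => gW t ≠ gB b0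
  obtain ⟨c, hc⟩ := hall
    (fun e => (if G.wh e ∈ YW then (1 : ℚ) else 0) - (if G.bl e ∈ YB then 1 else 0))
    (closed_d h.toGood0 (fun b => if b ∈ YB then 1 else 0) (fun t => if t ∈ YW then 1 else 0))
    (by
      intro e he
      have h1 : gW (G.wh e) = gB (G.bl e) := by
        have := hg e
        linarith
      simp [YB, YW, h1])
  have hb0 : b0 ∉ YB := by simp [YB]
  obtain ⟨k, hk1, hk2⟩ := conn h.toGood0
    (fun b => (if b ∈ YB then (1 : ℚ) else 0) - c * (gB b - gB b0))
    (fun t => (if t ∈ YW then (1 : ℚ) else 0) - c * (gW t - gB b0))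
    (by
      intro e _
      have := hc e
      rw [hg e] at this
      linear_combination -this)
  have hk0 : k = 0 := by
    have := hk1 b0 (mem_univ _)
    simp only [hb0, if_false] at this
    linear_combination -this
  obtain ⟨e1, he1⟩ := hne
  have hc0 : c ≠ 0 := by
    intro h0
    apply he1
    have a1 := hk1 (G.bl e1) (mem_univ _)
    have a2 := hk2 (G.wh e1) (mem_univ _)
    simp only [h0, hk0, zero_mul, sub_zero] at a1 a2
    have b1 : G.bl e1 ∉ YB := fun hh => by simp [hh] at a1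
    have b2 : G.wh e1 ∉ YW := fun hh => by simp [hh] at a2
    simp only [YB, YW, mem_filter, mem_univ, true_and, not_not] at b1 b2
    rw [hg, b1, b2, sub_self]
  have hc1 : c = 1 ∨ c = -1 := by
    have a := hc e1
    have hx1 : x e1 = 1 ∨ x e1 = -1 := (hval e1).resolve_left he1
    by_cases h1 : G.wh e1 ∈ YW <;> by_cases h2 : G.bl e1 ∈ YB <;>
      simp only [h1, h2, if_true, if_false] at a <;> rcases hx1 with h3 | h3 <;> rw [h3] at a <;>
      first
        | (left; linarith)
        | (right; linarith)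
        | (exfalso; apply hc0; linarith)
  have hcc : c * c = 1 := by rcases hc1 with h1 | h1 <;> rw [h1] <;> norm_num
  have hxe : ∀ e, x e =
      c * ((if G.wh e ∈ YW then (1 : ℚ) else 0) - (if G.bl e ∈ YB then 1 else 0)) := by
    intro e
    have := hc e
    rw [this, ← mul_assoc, hcc, one_mul]
  have conn1 := B1c_conn h x hall c hc0 YB YW hxe
  have conn2 := B1c_conn h x hall (-c) (neg_ne_zero.2 hc0) YBᶜ YWᶜ (by
    intro e
    rw [hxe e]
    by_cases h1 : G.wh e ∈ YW <;> by_cases h2 : G.bl e ∈ YB <;> simp [h1, h2])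
  rcases hc1 with h1 | h1
  · refine ⟨1, YB, YW, Or.inl rfl, hb0, fun e => ?_, conn1, conn2⟩
    rw [hxe e, h1]; norm_num
  · refine ⟨-1, YB, YW, Or.inr rfl, hb0, fun e => ?_, conn1, conn2⟩
    rw [hxe e, h1]; norm_num

end Mp
end Crest.Agent.R39
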