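import Crest.Agent.R39.Basic1
import Crest.Agent.R39.W20

set_option autoImplicit false
set_option linter.unusedSectionVars false
open Finset

namespace Crest.Agent.R39
namespace Mp
variable {E B W F : Type} [Fintype E] [DecidableEq E] [Fintype B] [DecidableEq B]
  [Fintype W] [DecidableEq W] [Fintype F] [DecidableEq F]

/-- rank lemma: coboundaries on `Y` (rank ≥ |Y|-1) are orthogonal to the |U| independent face
vectors, all inside `ℚ^E1`. -/
theorem RL {G : Mp E B W F} (h : G.Good1) (YB : Finset B) (YW : Finset W) (E1 : Finset E)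
    (U : Finset F) (hin : ∀ e ∈ E1, G.bl e ∈ YB ∧ G.wh e ∈ YW)
    (hU : ∀ e, G.L e ∈ U ∨ G.R e ∈ U → e ∈ E1) (hne : U ≠ univ)
    (hconn : G.ConnOn YB YW E1) :
    YB.card + YW.card + U.card ≤ E1.card + 1 := by
  have _ := hin
  refine W20.rl h YB YW E1 U hU ?_ hconn
  by_contra hcon
  exact hne (eq_univ_of_forall fun w => by_contra fun hw => hcon ⟨w, hw⟩)

theorem euler_le {G : Mp E B W F} (h : G.Good1) : Fintype.card F ≤ Fintype.card B + 2 :=
  W20.eulerLe h

end Mp
end Crest.Agent.R39
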