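import Crest.Agent.R39.Basic2
import Crest.Agent.R39.RL
import Crest.Agent.R39.ExactM
import Crest.Agent.R39.ASplit
import Crest.Agent.R39.W20

set_option autoImplicit false
set_option linter.unusedSectionVars false
open Finset

namespace Crest.Agent.R39
namespace Mp
variable {E B W F : Type} [Fintype E] [DecidableEq E] [Fintype B] [DecidableEq B]
  [Fintype W] [DecidableEq W] [Fintype F] [DecidableEq F]

/-- face connectivity: refine `F` to `Option F` (sides `w` of edges with black end in `YB` become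
`none`), `good1_of_LR`, `euler_le` -/
theorem FC {G : Mp E B W F} (h : G.Good) (YB : Finset B) (YW : Finset W) (w : F)
    (hw : ∀ e, G.L e = w ∨ G.R e = w → (G.bl e ∈ YB ↔ G.wh e ∈ YW)) :
    (∀ e, G.L e = w ∨ G.R e = w → G.bl e ∈ YB) ∨ (∀ e, G.L e = w ∨ G.R e = w → G.bl e ∉ YB) := by
  classical
  by_cases h1 : ∃ e, (G.L e = w ∨ G.R e = w) ∧ G.bl e ∈ YB
  · obtain ⟨e1, he1, hY⟩ := h1
    left
    intro e he
    exact AC.nosplit G.bl G.wh G.L G.R h.degB h.degW h.surj h.clB h.clW (LR h)
      (fun X hX => W20.connP h.toGood1.toGood0 X hX) h.euler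
      (Sum.elim (fun b => b ∈ YB) (fun t => t ∈ YW)) w hw e1 e he1 he hY
  · right
    intro e he hY
    exact h1 ⟨e, he, hY⟩

end Mp
end Crest.Agent.R39
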