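import Crest.Agent.R39.B1a
import Crest.Agent.R39.FC

set_option autoImplicit false
set_option linter.unusedSectionVars false
open Finset

namespace Crest.Agent.R39
namespace Mp
variable {E B W F : Type} [Fintype E] [DecidableEq E] [Fintype B] [DecidableEq B]
  [Fintype W] [DecidableEq W] [Fintype F] [DecidableEq F]

theorem B1d_orb {ι : Type} [Fintype ι] [DecidableEq ι] (κ : Equiv.Perm ι) (b1 b : ι)
    (hb : b ∈ orb κ b1) : κ b ∈ orb κ b1 := by
  simp only [orb, mem_filter, mem_univ, true_and] at hb ⊢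
  exact Equiv.Perm.sameCycle_apply_right.2 hb

theorem B1d_aux {G : Mp E B W F} (h : G.Good) (b0 : B) (r s : B' b0 ≃ G.F' b0)
    (hJ : ∀ b : B' b0, G.J b.1 (r b).1 (s b).1 ≠ 0) (b1 : B' b0) (YB : Finset B) (YW : Finset W)
    (hcut : ∀ e, G.xC b0 r s (orb (s.trans r.symm) b1) e = 0 ↔ (G.bl e ∈ YB ↔ G.wh e ∈ YW))
    (hc1 : G.ConnOn YB YW (G.ins YB YW)) (U0 : Finset F) (hU0 : U0 ⊆ G.RF b0)
    (hU0' : ∀ w ∈ U0, b0 ∈ YB) :
    YW.card + U0.card + (univ.filter fun b : B' b0 => b.1 ∈ YB).card ≤ 2 * YB.card + 1 := by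
  classical
  set C := orb (s.trans r.symm) b1 with hC
  obtain ⟨ε, hε1, hε2, hε3, hε4⟩ := B1v h b0 r s hJ C
  have hb1 : b1 ∈ C := by
    simp only [hC, orb, mem_filter, mem_univ, true_and]
    exact Equiv.Perm.SameCycle.refl _ _
  -- faces not in `r C` touch no cut edge
  have hno : ∀ w : F, (∀ b ∈ C, (r b).1 ≠ w) → ∀ e, G.L e = w ∨ G.R e = w →
      (G.bl e ∈ YB ↔ G.wh e ∈ YW) := by
    intro w hw e he
    by_contra hne
    obtain ⟨b, hb, rfl⟩ := hε4 e (fun h0 => hne ((hcut e).1 h0))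
    have h1 : (r b).1 ≠ w := hw b hb
    have h2 : (s b).1 ≠ w := by
      have := hw _ (B1d_orb (s.trans r.symm) b1 b hb)
      simpa using this
    rcases hε2 b with ⟨a1, a2, -⟩ | ⟨a1, a2, -⟩ <;> rcases he with he | he
    · exact h1 (a1.symm.trans he)
    · exact h2 (a2.symm.trans he)
    · exact h2 (a2.symm.trans he)
    · exact h1 (a1.symm.trans he)
  have hins : ∀ w : F, (∀ b ∈ C, (r b).1 ≠ w) → (∃ e, (G.L e = w ∨ G.R e = w) ∧ G.bl e ∈ YB) →
      ∀ e, G.L e = w ∨ G.R e = w → e ∈ G.ins YB YW := by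
    intro w hw ⟨e0, he0, hy0⟩ e he
    have h1 := hno w hw
    rcases FC h YB YW w h1 with h2 | h2
    · simp only [ins, mem_filter, mem_univ, true_and]
      exact ⟨h2 e he, (h1 e he).1 (h2 e he)⟩
    · exact absurd hy0 (h2 e0 he0)
  set A := univ.filter fun b : B' b0 => b.1 ∈ YB ∧ b ∉ C with hA
  set A' := univ.filter fun b : B' b0 => b.1 ∈ YB ∧ b ∈ C with hA'
  set U := U0 ∪ A.image (fun b => (r b).1) with hU
  have hUw : ∀ w ∈ U, (∀ b ∈ C, (r b).1 ≠ w) ∧ ∃ e, (G.L e = w ∨ G.R e = w) ∧ G.bl e ∈ YB := by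
    intro w hw
    rcases mem_union.1 hw with hw | hw
    · refine ⟨fun b _ hb => (r b).2 (hb ▸ hU0 hw), ?_⟩
      have := hU0 hw
      simp only [RF, mem_image, mem_filter, mem_univ, true_and] at this
      obtain ⟨e, he1, he2⟩ := this
      exact ⟨e, Or.inl he2, he1 ▸ hU0' w hw⟩
    · obtain ⟨b, hb, rfl⟩ := mem_image.1 hw
      simp only [hA, mem_filter, mem_univ, true_and] at hb
      refine ⟨fun c hc hcb => hb.2 ?_, ε b, ?_, (hε1 b).symm ▸ hb.1⟩
      · have : c = b := r.injective (Subtype.ext hcb)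
        exact this ▸ hc
      · rcases hε2 b with ⟨a1, -, -⟩ | ⟨a1, -, -⟩
        · exact Or.inl a1
        · exact Or.inr a1
  have hrl := RL h.toGood1 YB YW (G.ins YB YW) U
    (fun e he => by simpa only [ins, mem_filter, mem_univ, true_and] using he)
    (fun e he => by
      rcases he with he | he
      · exact hins _ (hUw _ he).1 (hUw _ he).2 e (Or.inl rfl)
      · exact hins _ (hUw _ he).1 (hUw _ he).2 e (Or.inr rfl))
    (fun hu => (hUw (r b1).1 (hu ▸ mem_univ _)).1 b1 hb1 rfl) hc1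
  have hUc : U.card = U0.card + A.card := by
    rw [hU, card_union_of_disjoint, card_image_of_injective]
    · exact fun a b hab => r.injective (Subtype.ext hab)
    · rw [Finset.disjoint_left]
      intro w hw hw'
      obtain ⟨b, -, rfl⟩ := mem_image.1 hw'
      exact (r b).2 (hU0 hw)
  have hp : A'.card ≤ G.pc YB YW := by
    unfold pc
    refine card_le_card_of_injOn ε ?_ ?_
    · intro b hb
      simp only [hA', coe_filter, mem_univ, true_and, Set.mem_setOf_eq] at hb ⊢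
      have hy : G.bl (ε b) ∈ YB := (hε1 b).symm ▸ hb.1
      refine ⟨hy, fun hw => ?_⟩
      have h0 := (hcut (ε b)).2 ⟨fun _ => hw, fun _ => hy⟩
      rw [hε3 b hb.2] at h0
      exact hJ b (by exact_mod_cast h0)
    · intro a _ b _ hab
      exact Subtype.ext (by rw [← hε1 a, ← hε1 b, hab])
  have hsplit : (univ.filter fun b : B' b0 => b.1 ∈ YB).card = A'.card + A.card := by
    rw [hA, hA', ← filter_filter, ← filter_filter, card_filter_add_card_filter_not]
  have hcc := (cutcount h.toGood0 YB YW).1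
  omega

/-- the count: `RL` on both sides (`U = r (YB \\ C)`, `U' = RF b0 ∪ r (YBᶜ \\ C)`), `FC`, `cutcount` -/
theorem B1d {G : Mp E B W F} (h : G.Good) (b0 : B) (r s : B' b0 ≃ G.F' b0)
    (hJ : ∀ b : B' b0, G.J b.1 (r b).1 (s b).1 ≠ 0) (b1 : B' b0) (YB : Finset B) (YW : Finset W)
    (hb0 : b0 ∉ YB)
    (hcut : ∀ e, G.xC b0 r s (orb (s.trans r.symm) b1) e = 0 ↔ (G.bl e ∈ YB ↔ G.wh e ∈ YW))
    (hc1 : G.ConnOn YB YW (G.ins YB YW)) (hc2 : G.ConnOn YBᶜ YWᶜ (G.ins YBᶜ YWᶜ)) :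
    YW.card = YB.card + 1 := by
  classical
  have h1 := B1d_aux h b0 r s hJ b1 YB YW hcut hc1 ∅ (empty_subset _) (fun w hw => by simp at hw)
  have h2 := B1d_aux h b0 r s hJ b1 YBᶜ YWᶜ
    (fun e => by rw [hcut e, mem_compl, mem_compl]; exact not_iff_not.symm) hc2 (G.RF b0)
    (Subset.refl _) (fun _ _ => mem_compl.2 hb0)
  have h3 := card_RF h.toGood0 (LR h) b0
  have h4 : ∀ Y : Finset B, (univ.filter fun b : B' b0 => b.1 ∈ Y).card = (Y.erase b0).card := by
    intro Y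
    refine card_bij (fun b _ => b.1) ?_ ?_ ?_
    · intro b hb
      exact mem_erase.2 ⟨b.2, (mem_filter.1 hb).2⟩
    · intro a _ b _ hab
      exact Subtype.ext hab
    · intro b hb
      exact ⟨⟨b, (mem_erase.1 hb).1⟩, mem_filter.2 ⟨mem_univ _, (mem_erase.1 hb).2⟩, rfl⟩
  rw [h4, erase_eq_of_notMem hb0] at h1
  rw [h4] at h2
  have h5 := card_erase_add_one (mem_compl.2 hb0)
  have h6 := card_add_card_compl YB
  have h7 := card_add_card_compl YW
  have h8 := cardW h.toGood0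
  simp only [card_empty] at h1
  omega

end Mp
end Crest.Agent.R39
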