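import Crest.Agent.R39.Basic2
import Crest.Agent.R39.ExactM

set_option autoImplicit false
set_option linter.unusedSectionVars false
open Finset

namespace Crest.Agent.R39
namespace Mp
variable {E B W F : Type} [Fintype E] [DecidableEq E] [Fintype B] [DecidableEq B]
  [Fintype W] [DecidableEq W] [Fintype F] [DecidableEq F]

theorem B2 {G : Mp E B W F} (h : G.Good) (b0 : B) :
    ∃ (α : E → ℚ) (a : B → F → ℚ),
      (∀ e, G.bl e ≠ b0 → a (G.bl e) (G.L e) - a (G.bl e) (G.R e) = α e) ∧
      (∀ b, b ≠ b0 → ∑ e ∈ univ.filter (fun e => G.bl e = b), α e = 0) ∧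
      (∀ t, ∑ e ∈ univ.filter (fun e => G.wh e = t), α e = 1) := by
  classical
  let A : Matrix (B' b0 ⊕ W) E ℚ := fun i e =>
    Sum.elim (fun b : B' b0 => if G.bl e = b.1 then (1 : ℚ) else 0)
      (fun t : W => if G.wh e = t then (1 : ℚ) else 0) i
  have hli : LinearIndependent ℚ A.row := by
    rw [Fintype.linearIndependent_iff]
    intro c hc
    let gB : B → ℚ := fun b => if hb : b = b0 then 0 else c (Sum.inl ⟨b, hb⟩)
    have key : ∀ e, gB (G.bl e) = - c (Sum.inr (G.wh e)) := by
      intro e
      have h1 := congrFun hc e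
      simp only [Finset.sum_apply, Pi.smul_apply, Matrix.row, A, Fintype.sum_sum_type,
        Sum.elim_inl, Sum.elim_inr, smul_eq_mul, mul_ite, mul_one, mul_zero, Pi.zero_apply,
        Finset.sum_ite_eq, mem_univ, if_true] at h1
      have h2 : ∑ b : B' b0, (if G.bl e = b.1 then c (Sum.inl b) else 0) = gB (G.bl e) := by
        by_cases hb : G.bl e = b0
        · rw [Finset.sum_eq_zero]
          · simp [gB, hb]
          · intro b _
            rw [if_neg]
            intro h3
            exact b.2 (h3.symm.trans hb)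
        · rw [Finset.sum_eq_single ⟨G.bl e, hb⟩]
          · simp [gB, hb]
          · intro b _ hne
            rw [if_neg]
            intro h3
            exact hne (Subtype.ext h3.symm)
          · simp
      linarith
    obtain ⟨k, hk1, hk2⟩ := conn h.toGood0 gB (fun t => - c (Sum.inr t)) (fun e _ => key e)
    have hk : k = 0 := by
      have := hk1 b0 (mem_univ _)
      simpa [gB] using this.symm
    rintro (b | t)
    · have := hk1 b.1 (mem_univ _)
      simpa [gB, b.2, hk] using this
    · have := hk2 t (mem_univ _)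
      simpa [hk] using this
  have hr : LinearMap.range A.mulVecLin = ⊤ := by
    apply Submodule.eq_top_of_finrank_eq
    have := hli.rank_matrix
    rw [Matrix.rank] at this
    rw [this]; simp
  obtain ⟨α, hα⟩ : Sum.elim (fun _ => (0 : ℚ)) (fun _ => (1 : ℚ)) ∈
      LinearMap.range A.mulVecLin := by rw [hr]; trivial
  have hB : ∀ b, b ≠ b0 → ∑ e ∈ univ.filter (fun e => G.bl e = b), α e = 0 := by
    intro b hb
    have := congrFun hα (Sum.inl ⟨b, hb⟩)
    simpa [A, Matrix.mulVec, dotProduct, Finset.sum_filter] using this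
  have hW : ∀ t, ∑ e ∈ univ.filter (fun e => G.wh e = t), α e = 1 := by
    intro t
    have := congrFun hα (Sum.inr t)
    simpa [A, Matrix.mulVec, dotProduct, Finset.sum_filter] using this
  refine ⟨α, fun b f => ∑ e ∈ univ.filter (fun e => G.bl e = b),
    ((if G.L e = f then α e / 3 else 0) - (if G.R e = f then α e / 3 else 0)), ?_, hB, hW⟩
  intro e0 he0
  obtain ⟨e1, e2, n1, n2, n3, hf, l0, l1, l2, m1, m2, m3⟩ := locB h.toGood0 (LR h) e0
  have hS : univ.filter (fun e => G.bl e = G.bl e0) = {e0, e1, e2} := by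
    ext e; simp [hf]
  have h0 := hB _ he0
  rw [hS] at h0
  simp only [hS]
  rw [Finset.sum_insert (by simp [n1, n2]), Finset.sum_pair n3] at h0
  rw [Finset.sum_insert (by simp [n1, n2]), Finset.sum_pair n3,
    Finset.sum_insert (by simp [n1, n2]), Finset.sum_pair n3, ← l0, ← l1, ← l2]
  simp only [m1, m2, m3, m1.symm, m2.symm, m3.symm, if_true, if_false]
  linarith

end Mp
end Crest.Agent.R39
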