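import Crest.Agent.R39.B1c
import Crest.Agent.R39.B1d
import Crest.Agent.R39.B2

set_option autoImplicit false
set_option linter.unusedSectionVars false
open Finset

namespace Crest.Agent.R39
namespace Mp
variable {E B W F : Type} [Fintype E] [DecidableEq E] [Fintype B] [DecidableEq B]
  [Fintype W] [DecidableEq W] [Fintype F] [DecidableEq F]

theorem B3 {G : Mp E B W F} (h : G.Good) (b0 : B) :
    ∃ a : B → F → ℚ, ∀ r s : B' b0 ≃ G.F' b0, (∀ b : B' b0, G.J b.1 (r b).1 (s b).1 ≠ 0) →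
      ∀ b1 : B' b0, ∃ (γ : ℤ) (N : ℚ), (γ = 1 ∨ γ = -1) ∧ 0 < N ∧
        ∑ b ∈ orb (s.trans r.symm) b1, G.J b.1 (r b).1 (s b).1 = 3 * γ ∧
        ∑ b ∈ orb (s.trans r.symm) b1, (a b.1 (r b).1 - a b.1 (s b).1) = γ * N := by
  classical
  obtain ⟨α, a, ha, hαB, hαW⟩ := B2 h b0
  refine ⟨a, fun r s hJ b1 => ?_⟩
  set C := orb (s.trans r.symm) b1 with hC
  have hcl : G.Closed (G.xC b0 r s C) := by
    rcases B1a h b0 r s b1 with h1 | ⟨b, hb⟩
    · exact h1
    · exact absurd hb (hJ b)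
  obtain ⟨ε, hε, hcase, hxv, hsupp⟩ := B1v h b0 r s hJ C
  have hb1 : b1 ∈ C := by
    simp only [hC, orb, mem_filter, mem_univ, true_and]
    exact Equiv.Perm.SameCycle.refl _ _
  have hval : ∀ e, G.xC b0 r s C e = 0 ∨ G.xC b0 r s C e = 1 ∨ G.xC b0 r s C e = -1 := by
    intro e
    by_cases h0 : G.xC b0 r s C e = 0
    · exact Or.inl h0
    · obtain ⟨b, hb, rfl⟩ := hsupp e h0
      rw [hxv b hb]
      rcases hcase b with ⟨-, -, h1⟩ | ⟨-, -, h1⟩ <;> simp [h1]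
  have hne : ∃ e, G.xC b0 r s C e ≠ 0 := by
    refine ⟨ε b1, ?_⟩
    rw [hxv b1 hb1]
    exact_mod_cast hJ b1
  obtain ⟨γ, YB, YW, hγ, hb0, hx, hc1, hc2⟩ :=
    B1c h b0 _ hcl hval hne (fun y hy hs => B1b h b0 r s hJ b1 y hy hs)
  have hγ0 : (γ : ℚ) ≠ 0 := by rcases hγ with rfl | rfl <;> norm_num
  have hcard : YW.card = YB.card + 1 := by
    refine B1d h b0 r s hJ b1 YB YW hb0 (fun e => ?_) hc1 hc2
    rw [← hC, hx e, mul_eq_zero, or_iff_right hγ0]
    by_cases h1 : G.wh e ∈ YW <;> by_cases h2 : G.bl e ∈ YB <;> simp [h1, h2]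
  have hinj : Function.Injective ε := fun b b' hbb =>
    Subtype.ext (by rw [← hε b, ← hε b', hbb])
  have hS1 : ∀ φ : E → ℚ, ∑ e, G.xC b0 r s C e * φ e =
      ∑ b ∈ C, (G.J b.1 (r b).1 (s b).1 : ℚ) * φ (ε b) := by
    intro φ
    rw [← sum_subset (subset_univ (C.image ε)), sum_image (fun b _ b' _ hbb => hinj hbb)]
    · exact sum_congr rfl fun b hb => by rw [hxv b hb]
    · intro e _ he
      by_cases h0 : G.xC b0 r s C e = 0
      · rw [h0, zero_mul]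
      · obtain ⟨b, hb, rfl⟩ := hsupp e h0
        exact absurd (mem_image_of_mem ε hb) he
  have hS2 : ∀ φ : E → ℚ, ∑ e, G.xC b0 r s C e * φ e =
      γ * (∑ t ∈ YW, ∑ e ∈ univ.filter (fun e => G.wh e = t), φ e -
        ∑ b ∈ YB, ∑ e ∈ univ.filter (fun e => G.bl e = b), φ e) := by
    intro φ
    rw [sum_fiberwise_eq_sum_filter, sum_fiberwise_eq_sum_filter, sum_filter, sum_filter,
      ← sum_sub_distrib, mul_sum]
    refine sum_congr rfl fun e _ => ?_
    rw [hx e]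
    split_ifs <;> ring
  refine ⟨γ, YW.card, hγ, by rw [hcard]; positivity, ?_, ?_⟩
  · have h1 := (hS1 fun _ => 1).symm.trans (hS2 fun _ => 1)
    simp only [mul_one, sum_const, h.degB, h.degW, nsmul_eq_mul, hcard] at h1
    have h2 : ((∑ b ∈ C, G.J b.1 (r b).1 (s b).1 : ℤ) : ℚ) = ((3 * γ : ℤ) : ℚ) := by
      push_cast at h1 ⊢
      rw [h1]; ring
    exact_mod_cast h2
  · have h1 := (hS1 α).symm.trans (hS2 α)
    rw [sum_congr rfl fun t _ => hαW t,
      sum_congr rfl (s₁ := YB) fun b hb => hαB b (fun hbb => hb0 (hbb ▸ hb))] at h1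
    simp only [sum_const, nsmul_eq_mul, mul_one, mul_zero, sub_zero] at h1
    rw [← h1]
    refine sum_congr rfl fun b _ => ?_
    have hb : G.bl (ε b) ≠ b0 := by rw [hε b]; exact b.2
    have h2 := ha (ε b) hb
    rw [hε b] at h2
    rcases hcase b with ⟨e1, e2, h3⟩ | ⟨e1, e2, h3⟩
    · rw [h3, ← e1, ← e2, h2]; simp
    · rw [h3, ← e1, ← e2, ← h2]; simp

end Mp
end Crest.Agent.R39
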