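import Mathlib

set_option autoImplicit false

open Finset

namespace Crest.Agent.R39.Flip

variable {ι Φ : Type*}

/-- a pair of disjoint admissible bijections -/
def Pair (A : ι → Φ → Prop) (r s : ι → Φ) : Prop :=
  Function.Bijective r ∧ Function.Bijective s ∧ ∀ b, A b (r b) ∧ A b (s b) ∧ r b ≠ s b

/-- invariant flip patterns -/
def Inv (r s : ι → Φ) (t : ι → Bool) : Prop := ∀ b b', r b = s b' → t b = t b'

def fl (t : ι → Bool) (r s : ι → Φ) : ι → Φ := fun b => if t b then s b else r b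

theorem fl_fl (t : ι → Bool) (r s : ι → Φ) : fl t (fl t r s) (fl t s r) = r := by
  funext b; unfold fl; cases t b <;> simp

theorem Inv.symm {r s : ι → Φ} {t : ι → Bool} (h : Inv r s t) : Inv s r t :=
  fun b b' e => (h b' b e.symm).symm

theorem fl_bij [Finite ι] {r s : ι → Φ} (hr : Function.Bijective r) (hs : Function.Bijective s)
    {t : ι → Bool} (h : Inv r s t) : Function.Bijective (fl t r s) := by
  have hinj : Function.Injective (fl t r s) := by
    intro b b' e
    unfold fl at e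
    cases hb : t b <;> cases hb' : t b' <;> simp only [hb, hb', if_true, Bool.false_eq_true,
      if_false] at e
    · exact hr.1 e
    · have := h b b' e; rw [hb, hb'] at this; cases this
    · have := h b' b e.symm; rw [hb, hb'] at this; cases this
    · exact hs.1 e
  refine ⟨hinj, ?_⟩
  exact (Finite.injective_iff_surjective_of_equiv (Equiv.ofBijective r hr)).1 hinj

theorem Pair.fl [Finite ι] {A : ι → Φ → Prop} {r s : ι → Φ} (hp : Pair A r s) {t : ι → Bool}
    (h : Inv r s t) : Pair A (fl t r s) (fl t s r) := by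
  refine ⟨fl_bij hp.1 hp.2.1 h, fl_bij hp.2.1 hp.1 h.symm, fun b => ?_⟩
  obtain ⟨h1, h2, h3⟩ := hp.2.2 b
  unfold Flip.fl
  cases t b
  · simpa using ⟨h1, h2, h3⟩
  · simpa using ⟨h2, h1, h3.symm⟩

theorem Inv.fl_of {A : ι → Φ → Prop} {r s : ι → Φ} (hp : Pair A r s) {t u : ι → Bool}
    (hu : Inv r s u) : Inv (fl t r s) (fl t s r) u := by
  intro b b' e
  unfold fl at e
  cases hb : t b <;> cases hb' : t b' <;> simp only [hb, hb', if_true, Bool.false_eq_true,
      if_false] at e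
  · exact hu b b' e
  · rw [hp.1.1 e]
  · rw [hp.2.1.1 e]
  · exact (hu b' b e.symm).symm

theorem inv_fl_iff [Finite ι] {A : ι → Φ → Prop} {r s : ι → Φ} (hp : Pair A r s) {t : ι → Bool}
    (h : Inv r s t) (u : ι → Bool) : Inv (fl t r s) (fl t s r) u ↔ Inv r s u := by
  refine ⟨fun hu => ?_, fun hu => Inv.fl_of hp hu⟩
  have := Inv.fl_of (t := t) (hp.fl h) hu
  rwa [fl_fl, fl_fl] at this

/-- the classes -/
def cls (r s : ι → Φ) : Setoid ι where
  r b b' := ∀ t, Inv r s t → t b = t b'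
  iseqv := ⟨fun _ _ _ => rfl, fun h t ht => (h t ht).symm, fun h h' t ht => (h t ht).trans (h' t ht)⟩

open Classical in
theorem sum_inv [Fintype ι] [DecidableEq ι] (r s : ι → Φ) (φ : ι → Bool → ℂ) :
    ∑ t ∈ univ.filter (Inv r s), ∏ b, φ b (t b) =
      ∏ c : Quotient (cls r s),
        (∏ b ∈ univ.filter (fun b => Quotient.mk (cls r s) b = c), φ b false +
          ∏ b ∈ univ.filter (fun b => Quotient.mk (cls r s) b = c), φ b true) := by
  have h1 : ∀ c : Quotient (cls r s),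
      (∏ b ∈ univ.filter (fun b => Quotient.mk (cls r s) b = c), φ b false +
          ∏ b ∈ univ.filter (fun b => Quotient.mk (cls r s) b = c), φ b true) =
      ∑ β : Bool, ∏ b ∈ univ.filter (fun b => Quotient.mk (cls r s) b = c), φ b β := by
    intro c; rw [Fintype.sum_bool, add_comm]
  simp_rw [h1]
  rw [Fintype.prod_sum]
  symm
  refine Finset.sum_bij (fun τ _ => fun b => τ (Quotient.mk (cls r s) b)) ?_ ?_ ?_ ?_
  · intro τ _
    simp only [mem_filter, mem_univ, true_and]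
    intro b b' e
    have : Quotient.mk (cls r s) b = Quotient.mk (cls r s) b' :=
      Quotient.sound (fun t ht => ht b b' e)
    simp only [this]
  · intro τ _ τ' _ e
    funext c
    obtain ⟨b, rfl⟩ := Quotient.exists_rep c
    exact congrFun e b
  · intro t ht
    simp only [mem_filter, mem_univ, true_and] at ht
    refine ⟨Quotient.lift t (fun b b' h => h t ht), mem_univ _, ?_⟩
    funext b; rfl
  · intro τ _
    rw [← Finset.prod_fiberwise univ (fun b => Quotient.mk (cls r s) b)]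
    refine Finset.prod_congr rfl fun c _ => Finset.prod_congr rfl fun b hb => ?_
    simp only [mem_filter, mem_univ, true_and] at hb
    simp only [hb]

open Classical in
/-- averaging over flips -/
theorem sum_avg [Fintype ι] [DecidableEq ι] [Fintype Φ] (A : ι → Φ → Prop)
    (f : (ι → Φ) → (ι → Φ) → ℂ) :
    ∑ p ∈ univ.filter (fun p : (ι → Φ) × (ι → Φ) => Pair A p.1 p.2), f p.1 p.2 =
    ∑ p ∈ univ.filter (fun p : (ι → Φ) × (ι → Φ) => Pair A p.1 p.2),
      ((univ.filter (Inv p.1 p.2)).card : ℂ)⁻¹ *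
        ∑ t ∈ univ.filter (Inv p.1 p.2), f (fl t p.1 p.2) (fl t p.2 p.1) := by
  have hN : ∀ p : (ι → Φ) × (ι → Φ), ((univ.filter (Inv p.1 p.2)).card : ℂ) ≠ 0 := by
    intro p
    rw [Nat.cast_ne_zero, ← Nat.pos_iff_ne_zero, Finset.card_pos]
    exact ⟨fun _ => false, by simp [Inv]⟩
  have h1 : ∀ p : (ι → Φ) × (ι → Φ), f p.1 p.2 =
      ∑ t ∈ univ.filter (Inv p.1 p.2), ((univ.filter (Inv p.1 p.2)).card : ℂ)⁻¹ * f p.1 p.2 := by
    intro p
    rw [Finset.sum_const, nsmul_eq_mul, ← mul_assoc, mul_inv_cancel₀ (hN p), one_mul]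
  rw [Finset.sum_congr rfl (fun p _ => h1 p)]
  simp_rw [Finset.mul_sum]
  rw [Finset.sum_sigma', Finset.sum_sigma']
  refine Finset.sum_bij' (fun q _ => ⟨(fl q.2 q.1.1 q.1.2, fl q.2 q.1.2 q.1.1), q.2⟩)
    (fun q _ => ⟨(fl q.2 q.1.1 q.1.2, fl q.2 q.1.2 q.1.1), q.2⟩) ?_ ?_ ?_ ?_ ?_
  · rintro ⟨⟨r, s⟩, t⟩ hq
    simp only [mem_sigma, mem_filter, mem_univ, true_and] at hq ⊢
    exact ⟨hq.1.fl hq.2, Inv.fl_of hq.1 hq.2⟩
  · rintro ⟨⟨r, s⟩, t⟩ hq
    simp only [mem_sigma, mem_filter, mem_univ, true_and] at hq ⊢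
    exact ⟨hq.1.fl hq.2, Inv.fl_of hq.1 hq.2⟩
  · rintro ⟨⟨r, s⟩, t⟩ _
    simp only [fl_fl]
  · rintro ⟨⟨r, s⟩, t⟩ _
    simp only [fl_fl]
  · rintro ⟨⟨r, s⟩, t⟩ hq
    simp only [mem_sigma, mem_filter, mem_univ, true_and] at hq
    simp only [fl_fl]
    congr 4
    ext u
    simp only [mem_filter, mem_univ, true_and]
    exact (inv_fl_iff hq.1 hq.2 u).symm

theorem exp_eps (e : ℤ) (he : e = 1 ∨ e = -1) :
    Complex.exp (-(Complex.I * ((Real.pi / 2 * e : ℝ) : ℂ))) = -Complex.I * e := by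
  rcases he with rfl | rfl
  · have : -(Complex.I * ((Real.pi / 2 * ((1 : ℤ) : ℝ) : ℝ) : ℂ)) = -(Real.pi / 2 * Complex.I) := by
      push_cast; ring
    rw [this, Complex.exp_neg, Complex.exp_pi_div_two_mul_I]; simp
  · have : -(Complex.I * ((Real.pi / 2 * ((-1 : ℤ) : ℝ) : ℝ) : ℂ)) = Real.pi / 2 * Complex.I := by
      push_cast; ring
    rw [this, Complex.exp_pi_div_two_mul_I]; simp

theorem two_terms (α m : ℝ) :
    Complex.exp (-(Complex.I * ((α + m : ℝ) : ℂ))) + Complex.exp (-(Complex.I * ((-α + m : ℝ) : ℂ)))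
      = ((2 * Real.cos α : ℝ) : ℂ) * Complex.exp (-(Complex.I * (m : ℂ))) := by
  push_cast
  rw [Complex.two_cos, add_mul, ← Complex.exp_add, ← Complex.exp_add, add_comm]
  congr 2 <;> ring

theorem cos_pos_aux (g : ℤ) (hg : g = 1 ∨ g = -1) (u : ℝ) (hu : 0 < g * u) (hu1 : |u| ≤ 1) :
    0 < Real.cos (Real.pi / 2 * (3 * g) + u) := by
  have hpi := Real.pi_gt_three
  rw [abs_le] at hu1
  rcases hg with rfl | rfl
  · have : Real.pi / 2 * (3 * ((1 : ℤ) : ℝ)) + u = (u - Real.pi / 2) + 2 * Real.pi := by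
      push_cast; ring
    rw [this, Real.cos_add_two_pi, Real.cos_sub_pi_div_two]
    simp only [Int.cast_one, one_mul] at hu
    exact Real.sin_pos_of_pos_of_lt_pi hu (by linarith)
  · have : Real.pi / 2 * (3 * ((-1 : ℤ) : ℝ)) + u = (u + Real.pi / 2) - 2 * Real.pi := by
      push_cast; ring
    rw [this, Real.cos_sub_two_pi, Real.cos_add_pi_div_two, ← Real.sin_neg]
    have : 0 < -u := by simpa using hu
    exact Real.sin_pos_of_pos_of_lt_pi this (by linarith)

open Classical in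
theorem flip_sum0 [Fintype ι] [DecidableEq ι] [Fintype Φ] (A : ι → Φ → Prop)
    (ep : ι → Φ → Φ → ℤ)
    (hep : ∀ b x y, A b x → A b y → x ≠ y → ep b x y = 1 ∨ ep b x y = -1)
    (hanti : ∀ b x y, A b x → A b y → x ≠ y → ep b y x = - ep b x y) (a : ι → Φ → ℝ)
    (horb : ∀ r s : ι → Φ, Pair A r s → ∀ C : Finset ι, C.Nonempty →
      (∀ b ∈ C, ∀ b', r b = s b' → b' ∈ C) →
      (∀ D ⊆ C, D.Nonempty → (∀ b ∈ D, ∀ b', r b = s b' → b' ∈ D) → D = C) →
      ∃ g : ℤ, (g = 1 ∨ g = -1) ∧ ∑ b ∈ C, ep b (r b) (s b) = 3 * g ∧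
        0 < (g : ℝ) * ∑ b ∈ C, (a b (r b) - a b (s b)))
    (hne : ∃ r s, Pair A r s) :
    ∃ r, ∑ s ∈ univ.filter (Pair A r), ∏ b, ep b (r b) (s b) ≠ 0 := by
  by_contra hcon
  push Not at hcon
  set K : ℝ := ∑ b, ∑ x, |a b x| + 1 with hK
  have hK0 : 0 < K := by positivity
  have hbd : ∀ (C : Finset ι) (r : ι → Φ), |∑ b ∈ C, a b (r b)| ≤ K := by
    intro C r
    calc |∑ b ∈ C, a b (r b)| ≤ ∑ b ∈ C, |a b (r b)| := Finset.abs_sum_le_sum_abs _ _
      _ ≤ ∑ b, |a b (r b)| :=
          Finset.sum_le_sum_of_subset_of_nonneg (subset_univ _) fun _ _ _ => abs_nonneg _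
      _ ≤ ∑ b, ∑ x, |a b x| := Finset.sum_le_sum fun b _ =>
          Finset.single_le_sum (f := fun x => |a b x|) (fun _ _ => abs_nonneg _) (mem_univ _)
      _ ≤ K := by linarith
  set φ : ι → Φ → Φ → ℂ := fun b x y =>
    Complex.exp (-(Complex.I * ((Real.pi / 2 * ep b x y + K⁻¹ * a b x : ℝ) : ℂ))) with hφ
  have hzero : ∑ p ∈ univ.filter (fun p : (ι → Φ) × (ι → Φ) => Pair A p.1 p.2),
      ∏ b, φ b (p.1 b) (p.2 b) = 0 := by
    rw [Finset.sum_filter, Fintype.sum_prod_type]
    refine Finset.sum_eq_zero fun r _ => ?_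
    rw [← Finset.sum_filter]
    have : ∀ s ∈ univ.filter (fun s => Pair A r s), ∏ b, φ b (r b) (s b) =
        (∏ b, (-Complex.I * Complex.exp (-(Complex.I * ((K⁻¹ * a b (r b) : ℝ) : ℂ))))) *
          ((∏ b, ep b (r b) (s b) : ℤ) : ℂ) := by
      intro s hs
      simp only [mem_filter, mem_univ, true_and] at hs
      rw [Int.cast_prod, ← Finset.prod_mul_distrib]
      refine Finset.prod_congr rfl fun b _ => ?_
      obtain ⟨h1, h2, h3⟩ := hs.2.2 b
      have := exp_eps _ (hep b _ _ h1 h2 h3)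
      simp only [hφ]
      rw [Complex.ofReal_add, mul_add, neg_add, Complex.exp_add, this]
      ring
    rw [Finset.sum_congr rfl this, ← Finset.mul_sum, ← Int.cast_sum, hcon r]
    simp
  rw [sum_avg A (fun r s => ∏ b, φ b (r b) (s b))] at hzero
  have hre := congrArg Complex.re hzero
  rw [Complex.re_sum, Complex.zero_re] at hre
  refine absurd hre (ne_of_gt (Finset.sum_pos ?_ ?_))
  swap
  · obtain ⟨r, s, h⟩ := hne
    exact ⟨(r, s), by simpa using h⟩
  rintro ⟨r, s⟩ hp
  simp only [mem_filter, mem_univ, true_and] at hp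
  dsimp only
  have h1 : ∀ t : ι → Bool, ∏ b, φ b (fl t r s b) (fl t s r b) =
      ∏ b, (fun b (β : Bool) => if β then φ b (s b) (r b) else φ b (r b) (s b)) b (t b) := by
    intro t
    refine Finset.prod_congr rfl fun b _ => ?_
    unfold fl
    cases t b <;> simp
  rw [Finset.sum_congr rfl (fun t _ => h1 t), sum_inv r s
    (fun b (β : Bool) => if β then φ b (s b) (r b) else φ b (r b) (s b))]
  have h2 : ∀ c : Quotient (cls r s), ∃ κ : ℝ, 0 < κ ∧
      (∏ b ∈ univ.filter (fun b => Quotient.mk (cls r s) b = c), φ b (r b) (s b) +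
        ∏ b ∈ univ.filter (fun b => Quotient.mk (cls r s) b = c), φ b (s b) (r b)) =
      (κ : ℂ) * Complex.exp (-(Complex.I * ((∑ b ∈ univ.filter
        (fun b => Quotient.mk (cls r s) b = c), K⁻¹ * ((a b (r b) + a b (s b)) / 2) : ℝ) : ℂ))) := by
    intro c
    set C := univ.filter (fun b => Quotient.mk (cls r s) b = c) with hC
    have hmem : ∀ b, b ∈ C ↔ Quotient.mk (cls r s) b = c := by intro b; simp [hC]
    obtain ⟨g, hg, hsum, hpos⟩ := horb r s hp C
      (by obtain ⟨b, hb⟩ := Quotient.exists_rep c; exact ⟨b, (hmem b).2 hb⟩)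
      (by
        intro b hb b' e
        rw [hmem] at hb ⊢
        rw [← hb]
        exact Quotient.sound (fun t ht => (ht b b' e).symm))
      (by
        intro D hD hDne hDcl
        refine Finset.Subset.antisymm hD fun b hb => ?_
        obtain ⟨b0, hb0⟩ := hDne
        have himg : D.image r = D.image s := by
          refine Finset.eq_of_subset_of_card_le ?_ ?_
          · intro x hx
            obtain ⟨d, hd, rfl⟩ := Finset.mem_image.1 hx
            obtain ⟨d', hd'⟩ := hp.2.1.2 (r d)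
            exact Finset.mem_image.2 ⟨d', hDcl d hd d' hd'.symm, hd'⟩
          · rw [Finset.card_image_of_injective _ hp.1.1, Finset.card_image_of_injective _ hp.2.1.1]
        have hinv : Inv r s (fun b => decide (b ∈ D)) := by
          intro d d' e
          simp only [decide_eq_decide]
          refine ⟨fun h => hDcl d h d' e, fun h => ?_⟩
          have : r d ∈ D.image r := by rw [himg, e]; exact Finset.mem_image_of_mem _ h
          obtain ⟨d'', h'', e''⟩ := Finset.mem_image.1 this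
          rwa [← hp.1.1 e'']
        have hrel : (cls r s).r b0 b :=
          Quotient.exact (((hmem b0).1 (hD hb0)).trans ((hmem b).1 hb).symm)
        have := hrel _ hinv
        simpa [hb0] using this)
    set u : ℝ := K⁻¹ * (∑ b ∈ C, (a b (r b) - a b (s b))) / 2 with hu
    have hKi : 0 < K⁻¹ := inv_pos.2 hK0
    refine ⟨2 * Real.cos (Real.pi / 2 * (3 * g) + u), ?_, ?_⟩
    · refine mul_pos two_pos (cos_pos_aux g hg u ?_ ?_)
      · have : (g : ℝ) * u = K⁻¹ * ((g : ℝ) * ∑ b ∈ C, (a b (r b) - a b (s b))) / 2 := by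
          rw [hu]; ring
        rw [this]; positivity
      · rw [hu, Finset.sum_sub_distrib, abs_div, abs_mul, abs_of_pos hKi, abs_two]
        have h3 := hbd C r
        have h4 := hbd C s
        have h5 := abs_sub (∑ b ∈ C, a b (r b)) (∑ b ∈ C, a b (s b))
        have h6 : K⁻¹ * K = 1 := inv_mul_cancel₀ hK0.ne'
        nlinarith
    · rw [← two_terms]
      simp only [hφ]
      rw [← Complex.exp_sum, ← Complex.exp_sum]
      have hs1 : (∑ b ∈ C, (ep b (r b) (s b) : ℝ)) = 3 * g := by exact_mod_cast hsum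
      have hs2 : (∑ b ∈ C, (ep b (s b) (r b) : ℝ)) = -(3 * g) := by
        rw [← hs1, ← Finset.sum_neg_distrib]
        refine Finset.sum_congr rfl fun b _ => ?_
        obtain ⟨h1, h2, h3⟩ := hp.2.2 b
        rw [hanti b _ _ h1 h2 h3]; push_cast; ring
      congr 2
      · rw [Finset.sum_neg_distrib, ← Finset.mul_sum, ← Complex.ofReal_sum]
        congr 3
        rw [Finset.sum_add_distrib, ← Finset.mul_sum, hs1, hu, add_assoc, Finset.mul_sum,
          Finset.sum_div, ← Finset.sum_add_distrib]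
        congr 1
        exact Finset.sum_congr rfl fun b _ => by ring
      · rw [Finset.sum_neg_distrib, ← Finset.mul_sum, ← Complex.ofReal_sum]
        congr 3
        rw [Finset.sum_add_distrib, ← Finset.mul_sum, hs2, hu, neg_add, add_assoc, Finset.mul_sum,
          Finset.sum_div, ← Finset.sum_neg_distrib, ← Finset.sum_add_distrib]
        congr 1
        · ring
        · exact Finset.sum_congr rfl fun b _ => by ring
  choose κ hκ hκ' using h2
  simp only [Bool.false_eq_true, if_false, if_true]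
  rw [Finset.prod_congr rfl (fun c _ => hκ' c), Finset.prod_mul_distrib, ← Complex.exp_sum,
    Finset.sum_neg_distrib, ← Finset.mul_sum, ← Complex.ofReal_sum,
    Finset.sum_fiberwise univ (fun b => Quotient.mk (cls r s) b), ← Complex.ofReal_prod,
    ← Complex.ofReal_natCast, ← Complex.ofReal_inv, Complex.re_ofReal_mul, Complex.re_ofReal_mul]
  set m : ℝ := ∑ b, K⁻¹ * ((a b (r b) + a b (s b)) / 2) with hm
  have hm1 : |m| ≤ 1 := by
    have : m = K⁻¹ * ((∑ b, a b (r b) + ∑ b, a b (s b)) / 2) := by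
      rw [hm, ← Finset.mul_sum, ← Finset.sum_div, Finset.sum_add_distrib]
    have hKi : 0 < K⁻¹ := inv_pos.2 hK0
    rw [this, abs_mul, abs_of_pos hKi, abs_div, abs_two]
    have h3 := hbd univ r
    have h4 := hbd univ s
    have h5 := abs_add_le (∑ b, a b (r b)) (∑ b, a b (s b))
    have h6 : K⁻¹ * K = 1 := inv_mul_cancel₀ hK0.ne'
    nlinarith
  have hcos : 0 < (Complex.exp (-(Complex.I * (m : ℂ)))).re := by
    have : -(Complex.I * (m : ℂ)) = ((-m : ℝ) : ℂ) * Complex.I := by push_cast; ring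
    rw [this, Complex.exp_ofReal_mul_I_re, Real.cos_neg]
    have hpi := Real.pi_gt_three
    rw [abs_le] at hm1
    exact Real.cos_pos_of_mem_Ioo ⟨by linarith, by linarith⟩
  refine mul_pos (inv_pos.2 ?_) (mul_pos (Finset.prod_pos fun c _ => hκ c) hcos)
  rw [Nat.cast_pos, Finset.card_pos]
  exact ⟨fun _ => false, by simp [Inv]⟩

/-- if every minimal invariant set of a permutation has odd size, the permutation is even -/
theorem sign_eq_one [Fintype ι] [DecidableEq ι] (π : Equiv.Perm ι)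
    (h : ∀ C : Finset ι, C.Nonempty → (∀ b ∈ C, π b ∈ C) →
      (∀ D ⊆ C, D.Nonempty → (∀ b ∈ D, π b ∈ D) → D = C) → Odd C.card) :
    Equiv.Perm.sign π = 1 := by
  classical
  rw [← π.cycleFactorsFinset_noncommProd, Finset.map_noncommProd, Finset.noncommProd_eq_prod]
  refine Finset.prod_eq_one fun c hc => ?_
  have hc' := Equiv.Perm.mem_cycleFactorsFinset_iff.1 hc
  rw [id, hc'.1.sign]
  have hodd : Odd c.support.card := by
    refine h _ hc'.1.nonempty_support ?_ ?_
    · intro b hb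
      rw [← hc'.2 b hb]
      exact Equiv.Perm.apply_mem_support.2 hb
    · intro D hD hDne hcl
      refine Finset.Subset.antisymm hD fun b hb => ?_
      obtain ⟨d, hd⟩ := hDne
      obtain ⟨n, hn⟩ := hc'.1.exists_pow_eq (Equiv.Perm.mem_support.1 (hD hd))
        (Equiv.Perm.mem_support.1 hb)
      rw [← hn]
      clear hn
      induction n with
      | zero => simpa using hd
      | succ n ih =>
        rw [pow_succ', Equiv.Perm.mul_apply, hc'.2 _ (hD ih)]
        exact hcl _ ih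
  rw [hodd.neg_one_pow]; simp

theorem odd_card_of_sum (C : Finset ι) (e : ι → ℤ) (he : ∀ b ∈ C, e b = 1 ∨ e b = -1) (g : ℤ)
    (hg : g = 1 ∨ g = -1) (hs : ∑ b ∈ C, e b = 3 * g) : Odd C.card := by
  have h1 : (2 : ℤ) ∣ ∑ b ∈ C, (e b - 1) :=
    Finset.dvd_sum fun b hb => by rcases he b hb with h | h <;> rw [h] <;> norm_num
  rw [Finset.sum_sub_distrib, hs] at h1
  simp only [Finset.sum_const, nsmul_eq_mul, mul_one] at h1
  rw [Nat.odd_iff]
  rcases hg with rfl | rfl <;> omega

end Crest.Agent.R39.Flip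

namespace Crest.Agent.R39

open Classical in
/-- Equiv version with the permutation sign (the sum is `± det`). -/
theorem flip_sum {ι Φ : Type*} [Fintype ι] [DecidableEq ι] [Fintype Φ] [DecidableEq Φ]
    (A : ι → Φ → Prop) (ep : ι → Φ → Φ → ℤ)
    (hep : ∀ b x y, A b x → A b y → x ≠ y → ep b x y = 1 ∨ ep b x y = -1)
    (hanti : ∀ b x y, A b x → A b y → x ≠ y → ep b y x = - ep b x y) (a : ι → Φ → ℝ)
    (horb : ∀ r s : ι ≃ Φ, (∀ b, A b (r b) ∧ A b (s b) ∧ r b ≠ s b) → ∀ C : Finset ι, C.Nonempty →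
      (∀ b ∈ C, s.symm (r b) ∈ C) →
      (∀ D ⊆ C, D.Nonempty → (∀ b ∈ D, s.symm (r b) ∈ D) → D = C) →
      ∃ g : ℤ, (g = 1 ∨ g = -1) ∧ ∑ b ∈ C, ep b (r b) (s b) = 3 * g ∧
        0 < (g : ℝ) * ∑ b ∈ C, (a b (r b) - a b (s b)))
    (hne : ∃ r s : ι ≃ Φ, ∀ b, A b (r b) ∧ A b (s b) ∧ r b ≠ s b) :
    ∃ r : ι ≃ Φ, (∑ s ∈ univ.filter (fun s : ι ≃ Φ => ∀ b, A b (r b) ∧ A b (s b) ∧ r b ≠ s b),
        ∏ b, ep b (r b) (s b) ≠ 0) ∧
      ∑ s ∈ univ.filter (fun s : ι ≃ Φ => ∀ b, A b (r b) ∧ A b (s b) ∧ r b ≠ s b),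
        ((Equiv.Perm.sign (r.trans s.symm) : ℤˣ) : ℤ) * ∏ b, ep b (r b) (s b) ≠ 0 := by
  obtain ⟨r, hr⟩ := Flip.flip_sum0 A ep hep hanti a (by
    intro r s hp C hC hcl hmin
    refine horb (Equiv.ofBijective r hp.1) (Equiv.ofBijective s hp.2.1) hp.2.2 C hC ?_ ?_
    · intro b hb
      refine hcl b hb _ ?_
      exact ((Equiv.ofBijective s hp.2.1).apply_symm_apply _).symm
    · intro D hD hDne hDcl
      refine hmin D hD hDne fun b hb b' e => ?_
      have := hDcl b hb
      have h2 : (Equiv.ofBijective s hp.2.1).symm (Equiv.ofBijective r hp.1 b) = b' := by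
        rw [Equiv.symm_apply_eq]; exact e
      rwa [h2] at this) (by
    obtain ⟨r, s, h⟩ := hne
    exact ⟨r, s, r.bijective, s.bijective, h⟩)
  obtain ⟨s0, hs0, -⟩ := Finset.exists_ne_zero_of_sum_ne_zero hr
  have hrb : Function.Bijective r := (Finset.mem_filter.1 hs0).2.1
  have key : ∑ s ∈ univ.filter (fun s : ι ≃ Φ => ∀ b, A b (Equiv.ofBijective r hrb b) ∧ A b (s b) ∧
        Equiv.ofBijective r hrb b ≠ s b), ∏ b, ep b (Equiv.ofBijective r hrb b) (s b) =
      ∑ s ∈ univ.filter (Flip.Pair A r), ∏ b, ep b (r b) (s b) := by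
    refine Finset.sum_bij (fun s _ => (s : ι → Φ)) ?_ ?_ ?_ ?_
    · intro s hs
      simp only [mem_filter, mem_univ, true_and] at hs ⊢
      exact ⟨hrb, s.bijective, hs⟩
    · intro s _ s' _ e
      exact DFunLike.coe_injective e
    · intro s hs
      simp only [mem_filter, mem_univ, true_and] at hs
      refine ⟨Equiv.ofBijective s hs.2.1, ?_, rfl⟩
      simp only [mem_filter, mem_univ, true_and]
      exact hs.2.2
    · intro s _; rfl
  refine ⟨Equiv.ofBijective r hrb, by rwa [key], ?_⟩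
  rw [← key] at hr
  convert hr using 1
  refine Finset.sum_congr rfl fun s hs => ?_
  simp only [mem_filter, mem_univ, true_and] at hs
  rw [Flip.sign_eq_one, Units.val_one, one_mul]
  intro C hC hcl hmin
  obtain ⟨g, hg, hsum, -⟩ := horb _ s hs C hC hcl hmin
  exact Flip.odd_card_of_sum C _ (fun b _ => hep b _ _ (hs b).1 (hs b).2.1 (hs b).2.2) g hg hsum

end Crest.Agent.R39
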