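import Crest.Agent.R39.Defs
import Crest.Agent.R39.FlipSum
import Crest.Agent.R39.FlipSum2

set_option autoImplicit false
set_option linter.unusedSectionVars false
open Finset

namespace Crest.Agent.R39
variable {ι κ : Type} [Fintype ι] [DecidableEq ι] [Fintype κ] [DecidableEq κ]

theorem B4_min_eq_orb (π : Equiv.Perm ι) (C : Finset ι) (hcl : ∀ b ∈ C, π b ∈ C)
    (hmin : ∀ D ⊆ C, D.Nonempty → (∀ b ∈ D, π b ∈ D) → D = C) (b1 : ι) (hb1 : b1 ∈ C) :
    orb π b1 = C := by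
  refine hmin _ ?_ ⟨b1, by simp [orb, Equiv.Perm.SameCycle.refl]⟩ ?_
  · intro b hb
    simp only [orb, mem_filter, mem_univ, true_and] at hb
    obtain ⟨n, -, hn⟩ := hb.exists_pow_eq'
    rw [← hn]
    clear hn
    induction n with
    | zero => simpa using hb1
    | succ n ih => rw [pow_succ', Equiv.Perm.mul_apply]; exact hcl _ ih
  · intro b hb
    simp only [orb, mem_filter, mem_univ, true_and] at hb ⊢
    exact Equiv.Perm.sameCycle_apply_right.2 hb

theorem B4_orb_inv (π : Equiv.Perm ι) (b1 : ι) : orb π⁻¹ b1 = orb π b1 := by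
  ext b; simp [orb, Equiv.Perm.sameCycle_inv]

theorem B4 (J : ι → κ → κ → ℤ) (a : ι → κ → ℚ)
    (hJ : ∀ b w w', J b w w' = 0 ∨ J b w w' = 1 ∨ J b w w' = -1)
    (hanti : ∀ b w w', J b w' w = - J b w w')
    (hex : ∃ r s : ι ≃ κ, ∀ b, J b (r b) (s b) ≠ 0)
    (horb : ∀ r s : ι ≃ κ, (∀ b, J b (r b) (s b) ≠ 0) → ∀ b1, ∃ (γ : ℤ) (N : ℚ),
      (γ = 1 ∨ γ = -1) ∧ 0 < N ∧ ∑ b ∈ orb (s.trans r.symm) b1, J b (r b) (s b) = 3 * γ ∧
        ∑ b ∈ orb (s.trans r.symm) b1, (a b (r b) - a b (s b)) = γ * N) :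
    ∃ r : ι ≃ κ, (Matrix.of fun b b' => J b (r b) (r b')).det ≠ 0 := by
  classical
  have hJ' : ∀ b x y, J b x y ≠ 0 → J b x y = 1 ∨ J b x y = -1 := fun b x y h =>
    (hJ b x y).resolve_left h
  obtain ⟨r, hr⟩ := Flip2.flip_sum0 (fun b x y => J b x y ≠ 0) J hJ' (fun b x y => hanti b x y)
    (fun b x => (a b x : ℝ)) (by
    intro r s hp C hC hcl hmin
    obtain ⟨b1, hb1⟩ := hC
    obtain ⟨γ, N, hγ, hN, h1, h2⟩ := horb (Equiv.ofBijective r hp.1) (Equiv.ofBijective s hp.2.1)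
      (fun b => (hp.2.2 b).1) b1
    set σ : Equiv.Perm ι := (Equiv.ofBijective s hp.2.1).trans (Equiv.ofBijective r hp.1).symm
      with hσ
    have hσ' : ∀ b b', r b = s b' ↔ σ⁻¹ b = b' := by
      intro b b'
      rw [Equiv.Perm.inv_eq_iff_eq, hσ, Equiv.trans_apply, Equiv.eq_symm_apply]
      rfl
    have hCo : orb σ b1 = C := by
      rw [← B4_orb_inv]
      refine B4_min_eq_orb _ C (fun b hb => hcl b hb _ ((hσ' _ _).2 rfl)) ?_ b1 hb1
      intro D hD hDne hDcl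
      refine hmin D hD hDne fun b hb b' e => ?_
      rw [← (hσ' _ _).1 e]
      exact hDcl b hb
    rw [hCo] at h1 h2
    refine ⟨γ, hγ, h1, ?_⟩
    have h3 : (∑ b ∈ C, ((a b (r b) : ℝ) - (a b (s b) : ℝ))) = (γ : ℝ) * (N : ℝ) := by
      have := congrArg (fun q : ℚ => (q : ℝ)) h2
      simpa using this
    rw [h3]
    have hN' : (0 : ℝ) < N := by exact_mod_cast hN
    rcases hγ with rfl | rfl <;> simpa using hN') (by
    obtain ⟨r, s, h⟩ := hex
    refine ⟨r, s, r.bijective, s.bijective, fun b => ⟨h b, ?_⟩⟩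
    exact (hanti b (r b) (s b)).trans_ne (neg_ne_zero.2 (h b)))
  obtain ⟨s0, hs0, -⟩ := Finset.exists_ne_zero_of_sum_ne_zero hr
  have hrb : Function.Bijective r := (Finset.mem_filter.1 hs0).2.1
  refine ⟨Equiv.ofBijective r hrb, ?_⟩
  set r' : ι ≃ κ := Equiv.ofBijective r hrb with hr'
  have hrr : ∀ b, r' b = r b := fun b => rfl
  rw [← Matrix.det_transpose, Matrix.det_apply']
  simp only [Matrix.transpose_apply, Matrix.of_apply, Int.cast_id]
  convert hr using 1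
  rw [← Finset.sum_filter_of_ne (p := fun σ : Equiv.Perm ι => ∀ b, J b (r' b) (r' (σ b)) ≠ 0)
    (fun σ _ h => fun b => Finset.prod_ne_zero_iff.1 (right_ne_zero_of_mul h) b (mem_univ _))]
  refine Finset.sum_bij (fun σ _ => fun b => r' (σ b)) ?_ ?_ ?_ ?_
  · intro σ hσ
    simp only [mem_filter, mem_univ, true_and] at hσ ⊢
    refine ⟨hrb, r'.bijective.comp σ.bijective, fun b => ⟨hσ b, ?_⟩⟩
    exact (hanti b (r' b) (r' (σ b))).trans_ne (neg_ne_zero.2 (hσ b))
  · intro σ _ σ' _ e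
    ext b
    exact r'.injective (congrFun e b)
  · intro s hs
    simp only [mem_filter, mem_univ, true_and] at hs
    refine ⟨(Equiv.ofBijective s hs.2.1).trans r'.symm, ?_, ?_⟩
    · simp only [mem_filter, mem_univ, true_and, Equiv.trans_apply, Equiv.apply_symm_apply]
      exact fun b => (hs.2.2 b).1
    · funext b
      simp only [Equiv.trans_apply, Equiv.apply_symm_apply]
      rfl
  · intro σ hσ
    simp only [mem_filter, mem_univ, true_and] at hσ
    rw [Flip.sign_eq_one, Units.val_one, one_mul]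
    · rfl
    intro C hC hcl hmin
    obtain ⟨b1, hb1⟩ := hC
    obtain ⟨γ, N, hγ, -, h1, -⟩ := horb r' (σ.trans r') hσ b1
    have he : (σ.trans r').trans r'.symm = σ := by ext b; simp
    rw [he, B4_min_eq_orb σ C hcl hmin b1 hb1] at h1
    exact Flip.odd_card_of_sum C _ (fun b _ => hJ' b _ _ (hσ b)) γ hγ h1

end Crest.Agent.R39
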