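import Crest.Agent.R39.Defs
import Crest.Agent.R39.W20

set_option autoImplicit false
set_option linter.unusedSectionVars false
open Finset

namespace Crest.Agent.R39
namespace Mp
variable {E B W F : Type} [Fintype E] [DecidableEq E] [Fintype B] [DecidableEq B]
  [Fintype W] [DecidableEq W] [Fintype F] [DecidableEq F]

theorem card_fib18 {V : Type} [Fintype V] [DecidableEq V] (p : E → V)
    (h : ∀ v, (univ.filter fun e => p e = v).card = 3) (Y : Finset V) :
    (univ.filter fun e => p e ∈ Y).card = 3 * Y.card := by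
  rw [Finset.card_eq_sum_card_fiberwise (f := p) (t := Y)
    (fun e he => mem_coe.2 (mem_filter.1 (mem_coe.1 he)).2)]
  rw [Finset.sum_congr rfl (g := fun _ => 3), sum_const, smul_eq_mul, mul_comm]
  intro v hv
  rw [← h v]
  congr 1
  ext e
  simp only [mem_filter, mem_univ, true_and]
  exact ⟨fun hh => hh.2, fun hh => ⟨hh ▸ hv, hh⟩⟩

/-- degree count of a vertex set -/
theorem cutcount {G : Mp E B W F} (h : G.Good0) (YB : Finset B) (YW : Finset W) :
    3 * YB.card = (G.ins YB YW).card + G.pc YB YW ∧
      3 * YW.card = (G.ins YB YW).card + G.qc YB YW := by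
  constructor
  · rw [← card_fib18 G.bl h.degB YB, ← Finset.card_filter_add_card_filter_not
      (s := univ.filter fun e => G.bl e ∈ YB) (fun e => G.wh e ∈ YW), filter_filter,
      filter_filter]
    rfl
  · rw [← card_fib18 G.wh h.degW YW, ← Finset.card_filter_add_card_filter_not
      (s := univ.filter fun e => G.wh e ∈ YW) (fun e => G.bl e ∈ YB), filter_filter,
      filter_filter]
    simp only [ins, qc, and_comm]

theorem cardW {G : Mp E B W F} (h : G.Good0) : Fintype.card W = Fintype.card B :=
  W20.cardW h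

theorem cardE {G : Mp E B W F} (h : G.Good0) : Fintype.card E = 3 * Fintype.card B :=
  W20.cardE_B h

theorem conn {G : Mp E B W F} (h : G.Good0) : G.ConnOn univ univ univ := by
  intro gB gW hg
  obtain ⟨b0⟩ := h.ne
  have := W20.connP h (fun a => Sum.elim gB gW a = gB b0) (fun e => by
    simp only [Sum.elim_inl, Sum.elim_inr, hg e (mem_univ e)])
  exact ⟨gB b0, fun b _ => this (Sum.inl b0) (Sum.inl b) rfl,
    fun t _ => this (Sum.inl b0) (Sum.inr t) rfl⟩

theorem closed_d {G : Mp E B W F} (h : G.Good0) (gB : B → ℚ) (gW : W → ℚ) :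
    G.Closed fun e => gW (G.wh e) - gB (G.bl e) := fun w =>
  W20.closed_d h (Sum.elim gB gW) w

theorem swap_good0 {G : Mp E B W F} (h : G.Good0) : G.swap.Good0 := by
  refine ⟨h.degW, h.degB, h.surj, h.clW, h.clB, fun YW YB h1 h2 => ?_, ?_⟩
  · have := h.cut3 YB YW h1.symm h2.symm
    have e1 : G.swap.pc YW YB = G.qc YB YW := by simp only [pc, qc, swap, and_comm]
    have e2 : G.swap.qc YW YB = G.pc YB YW := by simp only [pc, qc, swap, and_comm]
    omega
  · have := h.ne
    have h1 : 0 < Fintype.card B := Fintype.card_pos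
    exact Fintype.card_pos_iff.1 (by rw [cardW h]; exact h1)

theorem swap_good {G : Mp E B W F} (h : G.Good) : G.swap.Good :=
  ⟨⟨swap_good0 h.toGood0, h.dconn⟩, by rw [cardW h.toGood0]; exact h.euler⟩

theorem pc_swap (G : Mp E B W F) (YB : Finset B) (YW : Finset W) :
    G.swap.pc YWᶜ YBᶜ = G.pc YB YW ∧ G.swap.qc YWᶜ YBᶜ = G.qc YB YW := by
  constructor
  · simp only [pc, swap, mem_compl, not_not, and_comm]
  · simp only [qc, swap, mem_compl, not_not, and_comm]

end Mp
end Crest.Agent.R39
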