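import Crest.Agent.R39.Defs

set_option autoImplicit false
set_option linter.unusedSectionVars false
open Finset

namespace Crest.Agent.R39
namespace Mp
variable {E B W F : Type} [Fintype E] [DecidableEq E] [Fintype B] [DecidableEq B]
  [Fintype W] [DecidableEq W] [Fintype F] [DecidableEq F]

theorem six' (x0 x1 x2 y0 y1 y2 : F)
    (key : ∀ w, ((if x0 = w then 1 else 0) + (if x1 = w then 1 else 0) + (if x2 = w then 1 else 0) : ℕ)
      = (if y0 = w then 1 else 0) + (if y1 = w then 1 else 0) + (if y2 = w then 1 else 0))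
    (h0 : x0 ≠ y0) (h1 : x1 ≠ y1) (h2 : x2 ≠ y2) :
    (x0 = y1 ∧ x1 = y2 ∧ x2 = y0 ∧ x0 ≠ x1 ∧ x0 ≠ x2 ∧ x1 ≠ x2) ∨
      (x0 = y2 ∧ x2 = y1 ∧ x1 = y0 ∧ x0 ≠ x2 ∧ x0 ≠ x1 ∧ x2 ≠ x1) := by
  have k0 := key x0
  have k1 := key x1
  have k2 := key x2
  have k3 := key y0
  have k4 := key y1
  have k5 := key y2
  clear key
  grind

theorem loc3' (L R : E → F) (S : Finset E) (hS : S.card = 3)
    (hcl : ∀ w, (S.filter fun e => L e = w).card = (S.filter fun e => R e = w).card)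
    (hLR : ∀ e ∈ S, L e ≠ R e) (e0 : E) (he0 : e0 ∈ S) :
    ∃ e1 e2, e0 ≠ e1 ∧ e0 ≠ e2 ∧ e1 ≠ e2 ∧ S = {e0, e1, e2} ∧
      L e0 = R e1 ∧ L e1 = R e2 ∧ L e2 = R e0 ∧ L e0 ≠ L e1 ∧ L e0 ≠ L e2 ∧ L e1 ≠ L e2 := by
  have h2 : (S.erase e0).card = 2 := by rw [card_erase_of_mem he0, hS]
  obtain ⟨a, b, hab, hE⟩ := card_eq_two.1 h2
  have ha : a ∈ S.erase e0 := by rw [hE]; simp
  have hb : b ∈ S.erase e0 := by rw [hE]; simp
  have ha0 : e0 ≠ a := (ne_of_mem_erase ha).symm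
  have hb0 : e0 ≠ b := (ne_of_mem_erase hb).symm
  have hSe : S = {e0, a, b} := by rw [← insert_erase he0, hE]
  have hsum : ∀ (P : E → F) (w : F), (S.filter fun e => P e = w).card =
      ((if P e0 = w then 1 else 0) + (if P a = w then 1 else 0) + (if P b = w then 1 else 0) : ℕ) := by
    intro P w
    rw [card_filter, hSe, sum_insert (by simp [ha0, hb0]), sum_pair hab, add_assoc]
  have := six' (L e0) (L a) (L b) (R e0) (R a) (R b)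
    (fun w => by rw [← hsum L w, ← hsum R w]; exact hcl w)
    (hLR _ he0) (hLR _ (mem_of_mem_erase ha)) (hLR _ (mem_of_mem_erase hb))
  rcases this with h | h
  · exact ⟨a, b, ha0, hb0, hab, hSe, h⟩
  · exact ⟨b, a, hb0, ha0, hab.symm, by rw [hSe, pair_comm a b], h⟩

theorem locP' (p : E → B) (L R : E → F) (hdeg : ∀ b, (univ.filter fun e => p e = b).card = 3)
    (hcl : ∀ b w, (univ.filter fun e => p e = b ∧ L e = w).card =
      (univ.filter fun e => p e = b ∧ R e = w).card)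
    (hLR : ∀ e, L e ≠ R e) (e0 : E) :
    ∃ e1 e2, e0 ≠ e1 ∧ e0 ≠ e2 ∧ e1 ≠ e2 ∧ (∀ e, p e = p e0 ↔ e = e0 ∨ e = e1 ∨ e = e2) ∧
      L e0 = R e1 ∧ L e1 = R e2 ∧ L e2 = R e0 ∧
      L e0 ≠ L e1 ∧ L e0 ≠ L e2 ∧ L e1 ≠ L e2 := by
  obtain ⟨e1, e2, h1, h2, h3, hS, h4⟩ := loc3' L R (univ.filter fun e => p e = p e0) (hdeg _)
    (fun w => by rw [filter_filter, filter_filter]; exact hcl _ w) (fun e _ => hLR e) e0 (by simp)
  refine ⟨e1, e2, h1, h2, h3, fun e => ?_, h4⟩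
  have : e ∈ (univ.filter fun e => p e = p e0) ↔ e ∈ ({e0, e1, e2} : Finset E) := by rw [hS]
  simpa using this

theorem locB' {G : Mp E B W F} (h : G.Good0) (hLR : ∀ e, G.L e ≠ G.R e) (e0 : E) :
    ∃ e1 e2, e0 ≠ e1 ∧ e0 ≠ e2 ∧ e1 ≠ e2 ∧ (∀ e, G.bl e = G.bl e0 ↔ e = e0 ∨ e = e1 ∨ e = e2) ∧
      G.L e0 = G.R e1 ∧ G.L e1 = G.R e2 ∧ G.L e2 = G.R e0 ∧
      G.L e0 ≠ G.L e1 ∧ G.L e0 ≠ G.L e2 ∧ G.L e1 ≠ G.L e2 :=
  locP' G.bl G.L G.R h.degB h.clB hLR e0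

theorem locW' {G : Mp E B W F} (h : G.Good0) (hLR : ∀ e, G.L e ≠ G.R e) (e0 : E) :
    ∃ e1 e2, e0 ≠ e1 ∧ e0 ≠ e2 ∧ e1 ≠ e2 ∧ (∀ e, G.wh e = G.wh e0 ↔ e = e0 ∨ e = e1 ∨ e = e2) ∧
      G.L e0 = G.R e1 ∧ G.L e1 = G.R e2 ∧ G.L e2 = G.R e0 ∧
      G.L e0 ≠ G.L e1 ∧ G.L e0 ≠ G.L e2 ∧ G.L e1 ≠ G.L e2 :=
  locP' G.wh G.L G.R h.degW h.clW hLR e0

theorem bl_surj' {G : Mp E B W F} (h : G.Good0) (b : B) : ∃ e, G.bl e = b := by
  obtain ⟨e, he⟩ := card_pos.1 (by rw [h.degB b]; norm_num :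
    0 < (univ.filter fun e => G.bl e = b).card)
  exact ⟨e, (mem_filter.1 he).2⟩

theorem wh_surj' {G : Mp E B W F} (h : G.Good0) (t : W) : ∃ e, G.wh e = t := by
  obtain ⟨e, he⟩ := card_pos.1 (by rw [h.degW t]; norm_num :
    0 < (univ.filter fun e => G.wh e = t).card)
  exact ⟨e, (mem_filter.1 he).2⟩

theorem mem_RF' {G : Mp E B W F} (h : G.Good0) (b : B) (w : F) :
    w ∈ G.RF b ↔ ∃ e, G.bl e = b ∧ (G.L e = w ∨ G.R e = w) := by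
  simp only [RF, mem_image, mem_filter, mem_univ, true_and]
  constructor
  · rintro ⟨e, h1, h2⟩
    exact ⟨e, h1, Or.inl h2⟩
  · rintro ⟨e, h1, h2 | h2⟩
    · exact ⟨e, h1, h2⟩
    · have hpos : 0 < (univ.filter fun e => G.bl e = b ∧ G.L e = w).card := by
        rw [h.clB b w]
        exact card_pos.2 ⟨e, by simp [h1, h2]⟩
      obtain ⟨e', he'⟩ := card_pos.1 hpos
      exact ⟨e', (mem_filter.1 he').2⟩

theorem card_RF' {G : Mp E B W F} (h : G.Good0) (hLR : ∀ e, G.L e ≠ G.R e) (b : B) :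
    (G.RF b).card = 3 := by
  obtain ⟨e0, rfl⟩ := bl_surj' h b
  obtain ⟨e1, e2, -, -, -, hS, -, -, -, h1, h2, h3⟩ := locB' h hLR e0
  have : G.RF (G.bl e0) = {G.L e0, G.L e1, G.L e2} := by
    ext w
    simp only [RF, mem_image, mem_filter, mem_univ, true_and, hS, mem_insert, mem_singleton]
    constructor
    · rintro ⟨e, rfl | rfl | rfl, rfl⟩ <;> simp
    · rintro (rfl | rfl | rfl)
      · exact ⟨e0, by simp, rfl⟩
      · exact ⟨e1, by simp, rfl⟩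
      · exact ⟨e2, by simp, rfl⟩
  rw [this]
  exact card_eq_three.2 ⟨_, _, _, h1, h2, h3, rfl⟩

end Mp
end Crest.Agent.R39
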