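import Crest.Agent.R39.Basic1
import Crest.Agent.R39.Basic2a

set_option autoImplicit false
set_option linter.unusedSectionVars false
open Finset

namespace Crest.Agent.R39
namespace Mp
variable {E B W F : Type} [Fintype E] [DecidableEq E] [Fintype B] [DecidableEq B]
  [Fintype W] [DecidableEq W] [Fintype F] [DecidableEq F]

/-- three edges with equal `L`- and `R`-multisets and `L e ≠ R e` form a 3-cycle -/
theorem loc3 (L R : E → F) (S : Finset E) (hS : S.card = 3)
    (hcl : ∀ w, (S.filter fun e => L e = w).card = (S.filter fun e => R e = w).card)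
    (hLR : ∀ e ∈ S, L e ≠ R e) (e0 : E) (he0 : e0 ∈ S) :
    ∃ e1 e2, e0 ≠ e1 ∧ e0 ≠ e2 ∧ e1 ≠ e2 ∧ S = {e0, e1, e2} ∧
      L e0 = R e1 ∧ L e1 = R e2 ∧ L e2 = R e0 ∧ L e0 ≠ L e1 ∧ L e0 ≠ L e2 ∧ L e1 ≠ L e2 :=
  loc3' L R S hS hcl hLR e0 he0

theorem locB {G : Mp E B W F} (h : G.Good0) (hLR : ∀ e, G.L e ≠ G.R e) (e0 : E) :
    ∃ e1 e2, e0 ≠ e1 ∧ e0 ≠ e2 ∧ e1 ≠ e2 ∧ (∀ e, G.bl e = G.bl e0 ↔ e = e0 ∨ e = e1 ∨ e = e2) ∧
      G.L e0 = G.R e1 ∧ G.L e1 = G.R e2 ∧ G.L e2 = G.R e0 ∧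
      G.L e0 ≠ G.L e1 ∧ G.L e0 ≠ G.L e2 ∧ G.L e1 ≠ G.L e2 :=
  locB' h hLR e0

theorem locW {G : Mp E B W F} (h : G.Good0) (hLR : ∀ e, G.L e ≠ G.R e) (e0 : E) :
    ∃ e1 e2, e0 ≠ e1 ∧ e0 ≠ e2 ∧ e1 ≠ e2 ∧ (∀ e, G.wh e = G.wh e0 ↔ e = e0 ∨ e = e1 ∨ e = e2) ∧
      G.L e0 = G.R e1 ∧ G.L e1 = G.R e2 ∧ G.L e2 = G.R e0 ∧
      G.L e0 ≠ G.L e1 ∧ G.L e0 ≠ G.L e2 ∧ G.L e1 ≠ G.L e2 :=
  locW' h hLR e0

theorem bl_surj {G : Mp E B W F} (h : G.Good0) (b : B) : ∃ e, G.bl e = b :=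
  bl_surj' h b

theorem wh_surj {G : Mp E B W F} (h : G.Good0) (t : W) : ∃ e, G.wh e = t :=
  wh_surj' h t

theorem mem_RF {G : Mp E B W F} (h : G.Good0) (b : B) (w : F) :
    w ∈ G.RF b ↔ ∃ e, G.bl e = b ∧ (G.L e = w ∨ G.R e = w) :=
  mem_RF' h b w

theorem card_RF {G : Mp E B W F} (h : G.Good0) (hLR : ∀ e, G.L e ≠ G.R e) (b : B) :
    (G.RF b).card = 3 :=
  card_RF' h hLR b

theorem good1_of_LR {G : Mp E B W F} (h : G.Good0) (hLR : ∀ e, G.L e ≠ G.R e) : G.Good1 := by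
  refine ⟨h, ?_⟩
  intro y hy w w'
  have kB : ∀ e e', G.bl e' = G.bl e → y (G.L e') = y (G.L e) := by
    intro e e' he
    obtain ⟨e1, e2, -, -, -, hall, h1, h2, -⟩ := locB h hLR e
    have a1 : y (G.L e1) = y (G.L e) := by rw [h1, hy e1]
    have a2 : y (G.L e2) = y (G.L e) := by rw [← a1, h2, hy e2]
    rcases (hall e').1 he with rfl | rfl | rfl
    · rfl
    · exact a1
    · exact a2
  have kW : ∀ e e', G.wh e' = G.wh e → y (G.L e') = y (G.L e) := by
    intro e e' he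
    obtain ⟨e1, e2, -, -, -, hall, h1, h2, -⟩ := locW h hLR e
    have a1 : y (G.L e1) = y (G.L e) := by rw [h1, hy e1]
    have a2 : y (G.L e2) = y (G.L e) := by rw [← a1, h2, hy e2]
    rcases (hall e').1 he with rfl | rfl | rfl
    · rfl
    · exact a1
    · exact a2
  choose sB hsB using bl_surj h
  choose sW hsW using wh_surj h
  obtain ⟨c, hc, -⟩ := conn h (fun b => y (G.L (sB b))) (fun t => y (G.L (sW t))) (by
    intro e _
    show y (G.L (sB (G.bl e))) = y (G.L (sW (G.wh e)))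
    rw [kB e _ (hsB _), kW e _ (hsW _)])
  have hall : ∀ e, y (G.L e) = c := by
    intro e
    rw [← kB e _ (hsB _)]
    exact hc _ (mem_univ _)
  obtain ⟨e, rfl⟩ := h.surj w
  obtain ⟨e', rfl⟩ := h.surj w'
  rw [hall, hall]

theorem J_anti (G : Mp E B W F) (b : B) (w w' : F) : G.J b w' w = - G.J b w w' := by
  unfold J
  have h1 : (univ.filter fun e => G.bl e = b ∧ G.L e = w' ∧ G.R e = w) =
      (univ.filter fun e => G.bl e = b ∧ G.R e = w ∧ G.L e = w') := by
    ext e; simp only [mem_filter, mem_univ, true_and]; tauto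
  have h2 : (univ.filter fun e => G.bl e = b ∧ G.R e = w' ∧ G.L e = w) =
      (univ.filter fun e => G.bl e = b ∧ G.L e = w ∧ G.R e = w') := by
    ext e; simp only [mem_filter, mem_univ, true_and]; tauto
  rw [h1, h2]; ring

/-- counting over a three element fibre -/
theorem card_fib3 (Q P : E → Prop) [DecidablePred Q] [DecidablePred P] (e0 e1 e2 : E)
    (h01 : e0 ≠ e1) (h02 : e0 ≠ e2) (h12 : e1 ≠ e2) (hQ : ∀ e, Q e ↔ e = e0 ∨ e = e1 ∨ e = e2) :
    ((univ.filter fun e => Q e ∧ P e).card : ℤ) =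
      (if P e0 then 1 else 0) + (if P e1 then 1 else 0) + (if P e2 then 1 else 0) := by
  have h1 : (univ.filter fun e => Q e ∧ P e) = ({e0, e1, e2} : Finset E).filter P := by
    ext e; simp only [mem_filter, mem_univ, true_and, hQ, mem_insert, mem_singleton]
  rw [h1, card_filter, sum_insert (by simp [h01, h02]), sum_insert (by simp [h12]), sum_singleton]
  push_cast
  ring

/-- explicit form of `J` and `RF` at a black vertex -/
theorem J_form {G : Mp E B W F} (h : G.Good0) (hLR : ∀ e, G.L e ≠ G.R e) (b : B) :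
    ∃ x y z : F, x ≠ y ∧ x ≠ z ∧ y ≠ z ∧ (∀ w, w ∈ G.RF b ↔ w = x ∨ w = y ∨ w = z) ∧
      ∀ w w', G.J b w w' =
        ((if x = w ∧ z = w' then 1 else 0) + (if y = w ∧ x = w' then 1 else 0) +
          (if z = w ∧ y = w' then 1 else 0)) -
        ((if z = w ∧ x = w' then 1 else 0) + (if x = w ∧ y = w' then 1 else 0) +
          (if y = w ∧ z = w' then 1 else 0)) := by
  obtain ⟨e0, rfl⟩ := bl_surj h b
  obtain ⟨e1, e2, h01, h02, h12, hall, h1, h2, h3, d1, d2, d3⟩ := locB h hLR e0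
  refine ⟨G.L e0, G.L e1, G.L e2, d1, d2, d3, ?_, ?_⟩
  · intro w
    simp only [RF, mem_image, mem_filter, mem_univ, true_and, hall]
    constructor
    · rintro ⟨e, rfl | rfl | rfl, rfl⟩ <;> simp
    · rintro (rfl | rfl | rfl)
      · exact ⟨e0, by simp, rfl⟩
      · exact ⟨e1, by simp, rfl⟩
      · exact ⟨e2, by simp, rfl⟩
  · intro w w'
    unfold J
    rw [card_fib3 (fun e => G.bl e = G.bl e0) (fun e => G.L e = w ∧ G.R e = w') e0 e1 e2
      h01 h02 h12 hall,
      card_fib3 (fun e => G.bl e = G.bl e0) (fun e => G.R e = w ∧ G.L e = w') e0 e1 e2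
      h01 h02 h12 hall, ← h1, ← h2, ← h3]

theorem J_val {G : Mp E B W F} (h : G.Good0) (hLR : ∀ e, G.L e ≠ G.R e) (b : B) (w w' : F) :
    G.J b w w' = 0 ∨ G.J b w w' = 1 ∨ G.J b w w' = -1 := by
  obtain ⟨x, y, z, d1, d2, d3, -, hJ⟩ := J_form h hLR b
  rw [hJ]
  have d1' := d1.symm
  have d2' := d2.symm
  have d3' := d3.symm
  by_cases a1 : x = w
  · subst a1
    by_cases b2 : y = w'
    · subst b2; simp [d1, d2, d3, d1', d2', d3']
    · by_cases b3 : z = w'
      · subst b3; simp [d1, d2, d3, d1', d2', d3']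
      · simp [b2, b3, d1', d2']
  · by_cases a2 : y = w
    · subst a2
      by_cases b1 : x = w'
      · subst b1; simp [d1, d2, d3, d1', d2', d3']
      · by_cases b3 : z = w'
        · subst b3; simp [d1, d2, d3, d1', d2', d3']
        · simp [b1, b3, d1, d3']
    · by_cases a3 : z = w
      · subst a3
        by_cases b1 : x = w'
        · subst b1; simp [d1, d2, d3, d1', d2', d3']
        · by_cases b2 : y = w'
          · subst b2; simp [d1, d2, d3, d1', d2', d3']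
          · simp [b1, b2, d2, d3]
      · simp [a1, a2, a3]

theorem J_ne_iff {G : Mp E B W F} (h : G.Good0) (hLR : ∀ e, G.L e ≠ G.R e) (b : B) (w w' : F) :
    G.J b w w' ≠ 0 ↔ w ∈ G.RF b ∧ w' ∈ G.RF b ∧ w ≠ w' := by
  obtain ⟨x, y, z, d1, d2, d3, hR, hJ⟩ := J_form h hLR b
  rw [hJ, hR, hR]
  have d1' := d1.symm
  have d2' := d2.symm
  have d3' := d3.symm
  constructor
  · intro hne
    by_contra hcon
    apply hne
    by_cases a1 : x = w
    · subst a1
      by_cases b2 : y = w'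
      · subst b2; exact absurd ⟨by simp, by simp, d1⟩ hcon
      · by_cases b3 : z = w'
        · subst b3; exact absurd ⟨by simp, by simp, d2⟩ hcon
        · simp [b2, b3, d1', d2']
    · by_cases a2 : y = w
      · subst a2
        by_cases b1 : x = w'
        · subst b1; exact absurd ⟨by simp, by simp, d1'⟩ hcon
        · by_cases b3 : z = w'
          · subst b3; exact absurd ⟨by simp, by simp, d3⟩ hcon
          · simp [b1, b3, d1, d3']
      · by_cases a3 : z = w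
        · subst a3
          by_cases b1 : x = w'
          · subst b1; exact absurd ⟨by simp, by simp, d2'⟩ hcon
          · by_cases b2 : y = w'
            · subst b2; exact absurd ⟨by simp, by simp, d3'⟩ hcon
            · simp [b1, b2, d2, d3]
        · simp [a1, a2, a3]
  · rintro ⟨rfl | rfl | rfl, rfl | rfl | rfl, hne⟩ <;>
      first
        | exact absurd rfl hne
        | simp [d1, d2, d3, d1', d2', d3']

end Mp
end Crest.Agent.R39
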