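import Crest.Prelude.Def_PlanarMap
/-! Row 39: from a rotation system of a cubic bipartite graph to the permutation-free map data. -/
set_option autoImplicit false
set_option linter.unusedSectionVars false
set_option linter.deprecated false
open Finset
open Crest.CombinatoricsR.PlanarMap

namespace Crest.Agent.R39.Br

variable {V : Type} [Fintype V] [DecidableEq V] {G : SimpleGraph V} [DecidableRel G.Adj]

theorem fin2_ne {a b : Fin 2} (h : a ≠ b) (ha : a = 0) : b = 1 := by
  subst ha; fin_cases b
  · exact absurd rfl h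
  · rfl

theorem fin2_ne' {a b : Fin 2} (h : a ≠ b) (ha : a = 1) : b = 0 := by
  subst ha; fin_cases b
  · rfl
  · exact absurd rfl h

theorem fin2_cases (a : Fin 2) : a = 0 ∨ a = 1 := by
  fin_cases a
  · exact Or.inl rfl
  · exact Or.inr rfl

/-- darts from black to white -/
abbrev E (c : G.Coloring (Fin 2)) : Type := {d : G.Dart // c d.fst = 0}
/-- black vertices -/
abbrev B (c : G.Coloring (Fin 2)) : Type := {v : V // c v = 0}
/-- white vertices -/
abbrev W (c : G.Coloring (Fin 2)) : Type := {v : V // c v = 1}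
/-- faces -/
abbrev F (Ro : RotationSystem G) : Type :=
  Quotient (Equiv.Perm.SameCycle.setoid ((dartSwap G).trans Ro.rot))

def bl (c : G.Coloring (Fin 2)) (e : E c) : B c := ⟨e.1.fst, e.2⟩
def wh (c : G.Coloring (Fin 2)) (e : E c) : W c := ⟨e.1.snd, fin2_ne (c.valid e.1.adj) e.2⟩
/-- the face of a dart -/
def fc (Ro : RotationSystem G) (d : G.Dart) : F Ro := Quotient.mk _ d
def L (c : G.Coloring (Fin 2)) (Ro : RotationSystem G) (e : E c) : F Ro := fc Ro e.1
def R (c : G.Coloring (Fin 2)) (Ro : RotationSystem G) (e : E c) : F Ro := fc Ro e.1.symm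

theorem fc_rot (Ro : RotationSystem G) (d : G.Dart) : fc Ro (Ro.rot d) = fc Ro d.symm := by
  apply Quotient.sound
  have : Ro.rot d = ((dartSwap G).trans Ro.rot) d.symm := by
    simp [dartSwap]
  rw [this]
  exact Equiv.Perm.SameCycle.symm ⟨1, by simp⟩

theorem card_fst (hc : G.IsRegularOfDegree 3) (v : V) :
    (univ.filter fun d : G.Dart => d.fst = v).card = 3 := by
  rw [G.dart_fst_fiber_card_eq_degree v]; exact hc v

theorem bl_card (hc : G.IsRegularOfDegree 3) (c : G.Coloring (Fin 2)) (b : B c) :
    (univ.filter fun e : E c => bl c e = b).card = 3 := by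
  rw [← card_fst hc b.1]
  refine card_bij (fun e _ => e.1) ?_ ?_ ?_
  · intro e he
    simp only [mem_filter, mem_univ, true_and] at he ⊢
    rw [← he]; rfl
  · intro e _ e' _ h; exact Subtype.ext h
  · intro d hd
    simp only [mem_filter, mem_univ, true_and] at hd
    refine ⟨⟨d, by rw [hd]; exact b.2⟩, ?_, rfl⟩
    simp only [mem_filter, mem_univ, true_and]
    exact Subtype.ext hd

theorem wh_card (hc : G.IsRegularOfDegree 3) (c : G.Coloring (Fin 2)) (w : W c) :
    (univ.filter fun e : E c => wh c e = w).card = 3 := by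
  rw [← card_fst hc w.1]
  refine card_bij (fun e _ => e.1.symm) ?_ ?_ ?_
  · intro e he
    simp only [mem_filter, mem_univ, true_and] at he ⊢
    rw [← he]; rfl
  · intro e _ e' _ h; exact Subtype.ext (SimpleGraph.Dart.symm_involutive.injective h)
  · intro d hd
    simp only [mem_filter, mem_univ, true_and] at hd
    refine ⟨⟨d.symm, fin2_ne' (c.valid d.adj) (by rw [hd]; exact w.2)⟩, ?_, by simp⟩
    simp only [mem_filter, mem_univ, true_and]
    exact Subtype.ext hd

theorem L_surj (c : G.Coloring (Fin 2)) (Ro : RotationSystem G) :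
    Function.Surjective (L c Ro) := by
  intro f
  obtain ⟨d, rfl⟩ := Quotient.exists_rep f
  rcases fin2_cases (c d.fst) with h | h
  · exact ⟨⟨d, h⟩, rfl⟩
  · refine ⟨⟨Ro.rot d.symm, ?_⟩, ?_⟩
    · rw [Ro.rot_fst]; exact fin2_ne' (c.valid d.adj) h
    · show fc Ro (Ro.rot d.symm) = fc Ro d
      rw [fc_rot]; simp

/-- rotation on the black-to-white darts at the black end -/
def rotB (c : G.Coloring (Fin 2)) (Ro : RotationSystem G) : Equiv.Perm (E c) :=
  Ro.rot.subtypePerm (fun d => by rw [Ro.rot_fst])

theorem closed_bl (c : G.Coloring (Fin 2)) (Ro : RotationSystem G) [DecidableEq (F Ro)]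
    (b : B c) (f : F Ro) :
    (univ.filter fun e : E c => bl c e = b ∧ L c Ro e = f).card =
      (univ.filter fun e : E c => bl c e = b ∧ R c Ro e = f).card := by
  symm
  refine card_bij (fun e _ => rotB c Ro e) ?_ ?_ ?_
  · intro e he
    simp only [mem_filter, mem_univ, true_and] at he ⊢
    refine ⟨?_, ?_⟩
    · rw [← he.1]; exact Subtype.ext (Ro.rot_fst e.1)
    · rw [← he.2]; exact fc_rot Ro e.1
  · intro e _ e' _ h; exact (rotB c Ro).injective h
  · intro e he
    simp only [mem_filter, mem_univ, true_and] at he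
    refine ⟨(rotB c Ro).symm e, ?_, by simp⟩
    simp only [mem_filter, mem_univ, true_and]
    have h1 : Ro.rot ((rotB c Ro).symm e).1 = e.1 := by
      have := (rotB c Ro).apply_symm_apply e
      exact congrArg Subtype.val this
    refine ⟨?_, ?_⟩
    · rw [← he.1]; apply Subtype.ext
      show ((rotB c Ro).symm e).1.fst = e.1.fst
      rw [← h1, Ro.rot_fst]
    · rw [← he.2]
      show fc Ro ((rotB c Ro).symm e).1.symm = fc Ro e.1
      rw [← fc_rot, h1]

theorem closed_wh (c : G.Coloring (Fin 2)) (Ro : RotationSystem G) [DecidableEq (F Ro)]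
    (w : W c) (f : F Ro) :
    (univ.filter fun e : E c => wh c e = w ∧ L c Ro e = f).card =
      (univ.filter fun e : E c => wh c e = w ∧ R c Ro e = f).card := by
  have key : ∀ e : E c, c (Ro.rot e.1.symm).symm.fst = 0 := by
    intro e
    refine fin2_ne' (c.valid (Ro.rot e.1.symm).adj) ?_
    rw [Ro.rot_fst]; exact (wh c e).2
  have key' : ∀ e : E c, c (Ro.rot.symm e.1.symm).symm.fst = 0 := by
    intro e
    refine fin2_ne' (c.valid (Ro.rot.symm e.1.symm).adj) ?_
    rw [← Ro.rot_fst, Equiv.apply_symm_apply]; exact (wh c e).2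
  refine card_bij (fun e _ => (⟨(Ro.rot e.1.symm).symm, key e⟩ : E c)) ?_ ?_ ?_
  · intro e he
    simp only [mem_filter, mem_univ, true_and] at he ⊢
    refine ⟨?_, ?_⟩
    · rw [← he.1]; exact Subtype.ext (Ro.rot_fst e.1.symm)
    · rw [← he.2]
      show fc Ro (Ro.rot e.1.symm).symm.symm = fc Ro e.1
      rw [SimpleGraph.Dart.symm_symm, fc_rot, SimpleGraph.Dart.symm_symm]
  · intro e _ e' _ h
    have h1 := congrArg Subtype.val h
    exact Subtype.ext (SimpleGraph.Dart.symm_involutive.injective (Ro.rot.injective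
      (SimpleGraph.Dart.symm_involutive.injective h1)))
  · intro e he
    simp only [mem_filter, mem_univ, true_and] at he
    refine ⟨⟨(Ro.rot.symm e.1.symm).symm, key' e⟩, ?_, by apply Subtype.ext; simp⟩
    simp only [mem_filter, mem_univ, true_and]
    refine ⟨?_, ?_⟩
    · rw [← he.1]; apply Subtype.ext
      show (Ro.rot.symm e.1.symm).fst = e.1.symm.fst
      rw [← Ro.rot_fst, Equiv.apply_symm_apply]
    · rw [← he.2]
      show fc Ro (Ro.rot.symm e.1.symm).symm = fc Ro e.1.symm
      rw [← fc_rot, Equiv.apply_symm_apply]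

theorem card_E_B (hc : G.IsRegularOfDegree 3) (c : G.Coloring (Fin 2)) :
    Fintype.card (E c) = 3 * Fintype.card (B c) := by
  rw [← card_univ, card_eq_sum_card_fiberwise (f := bl c) (t := univ) (fun _ _ => mem_univ _)]
  simp only [bl_card hc c]
  simp [mul_comm]

theorem card_E_W (hc : G.IsRegularOfDegree 3) (c : G.Coloring (Fin 2)) :
    Fintype.card (E c) = 3 * Fintype.card (W c) := by
  rw [← card_univ, card_eq_sum_card_fiberwise (f := wh c) (t := univ) (fun _ _ => mem_univ _)]
  simp only [wh_card hc c]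
  simp [mul_comm]

theorem card_V (c : G.Coloring (Fin 2)) :
    Fintype.card V = Fintype.card (B c) + Fintype.card (W c) := by
  rw [Fintype.card_subtype, Fintype.card_subtype, ← card_union_of_disjoint]
  · rw [← card_univ]; congr 1
    ext v; simp [fin2_cases]
  · rw [disjoint_filter]; intro v _ h0 h1; rw [h0] at h1; exact absurd h1 (by decide)

theorem card_F (hc : G.IsRegularOfDegree 3) (c : G.Coloring (Fin 2)) (Ro : RotationSystem G)
    [Fintype (F Ro)]
    (h : (Fintype.card V : ℤ) - (Nat.card G.edgeSet : ℤ) + (Ro.numFaces : ℤ) = 2) :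
    Fintype.card (F Ro) = Fintype.card (B c) + 2 := by
  have h1 : Ro.numFaces = Fintype.card (F Ro) := by
    unfold RotationSystem.numFaces; exact Nat.card_eq_fintype_card
  have h2 : Nat.card G.edgeSet = G.edgeFinset.card := by
    rw [Nat.card_eq_fintype_card, SimpleGraph.edgeFinset_card]
  have h3 := G.sum_degrees_eq_twice_card_edges
  have h4 : ∑ v, G.degree v = 3 * Fintype.card V := by
    simp only [hc.degree_eq]; simp [mul_comm]
  have h5 := card_E_B hc c
  have h6 := card_E_W hc c
  have h7 := card_V c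
  omega

/-- a cubic three-connected graph has no small edge cut -/
theorem cut3V (hc : G.IsRegularOfDegree 3) (h3 : IsThreeConnected G) (X : Finset V)
    (x : V) (hx : x ∈ X) (y : V) (hy : y ∉ X) :
    3 ≤ (univ.filter fun d : G.Dart => d.fst ∈ X ∧ d.snd ∉ X).card := by
  by_contra hlt
  push_neg at hlt
  set D := univ.filter fun d : G.Dart => d.fst ∈ X ∧ d.snd ∉ X with hD
  set S := D.image fun d => d.fst with hS
  have hS2 : S.card ≤ 2 := le_trans card_image_le (by omega)
  -- some vertex of `X` is outside `S`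
  have hex : ∃ z ∈ X, z ∉ S := by
    by_contra hno
    push_neg at hno
    have hX2 : X.card ≤ 2 := le_trans (card_le_card hno) hS2
    -- every vertex of `X` sends at least two darts out of `X`
    have hout : ∀ z ∈ X, 4 ≤ (D.filter fun d => d.fst = z).card + X.card := by
      intro z hz
      have h1 := card_fst hc z
      have h2 : (univ.filter fun d : G.Dart => d.fst = z) ⊆
          (D.filter fun d => d.fst = z) ∪ (univ.filter fun d : G.Dart => d.fst = z ∧ d.snd ∈ X) := by
        intro d hd
        simp only [hD, mem_filter, mem_univ, true_and, mem_union] at hd ⊢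
        by_cases h : d.snd ∈ X
        · exact Or.inr ⟨hd, h⟩
        · exact Or.inl ⟨⟨hd ▸ hz, h⟩, hd⟩
      have h4 : (univ.filter fun d : G.Dart => d.fst = z ∧ d.snd ∈ X).card ≤ (X.erase z).card := by
        refine card_le_card_of_injOn (fun d => d.snd) ?_ ?_
        · intro d hd
          simp only [coe_filter, mem_univ, true_and, Set.mem_setOf_eq] at hd
          simp only [coe_erase, Set.mem_diff, mem_coe, Set.mem_singleton_iff]
          exact ⟨hd.2, fun h => d.fst_ne_snd (hd.1.trans h.symm)⟩
        · intro d hd d' hd' h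
          simp only [coe_filter, mem_univ, true_and, Set.mem_setOf_eq] at hd hd'
          exact SimpleGraph.Dart.ext _ _ (Prod.ext (hd.1.trans hd'.1.symm) h)
      have h5 := card_le_card h2
      have h6 := card_union_le (D.filter fun d => d.fst = z)
        (univ.filter fun d : G.Dart => d.fst = z ∧ d.snd ∈ X)
      rw [card_erase_of_mem hz] at h4
      have : 1 ≤ X.card := card_pos.2 ⟨z, hz⟩
      omega
    have hsum : D.card = ∑ z ∈ X, (D.filter fun d => d.fst = z).card :=
      card_eq_sum_card_fiberwise (fun d hd => by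
        simp only [hD, coe_filter, mem_univ, true_and, Set.mem_setOf_eq] at hd
        exact hd.1)
    have h1 : 1 ≤ X.card := card_pos.2 ⟨x, hx⟩
    have h7 : X.card * (4 - X.card) ≤ D.card := by
      rw [hsum, ← smul_eq_mul]
      exact card_nsmul_le_sum _ _ _ (fun z hz => by have := hout z hz; omega)
    have : X.card = 1 ∨ X.card = 2 := by omega
    rcases this with h | h <;> rw [h] at h7 <;> omega
  obtain ⟨z, hz, hzS⟩ := hex
  have hyS : y ∉ S := by
    intro h
    obtain ⟨d, hd, rfl⟩ := mem_image.1 h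
    exact hy (mem_filter.1 hd).2.1
  have hcon := h3.2 S hS2
  obtain ⟨p⟩ := hcon.preconnected ⟨z, by simpa using hzS⟩ ⟨y, by simpa using hyS⟩
  have : ∀ (a b : ((↑S : Set V)ᶜ : Set V)) (p : (G.induce ((↑S : Set V)ᶜ)).Walk a b),
      a.1 ∈ X → b.1 ∈ X := by
    intro a b p
    induction p with
    | nil => exact id
    | @cons a b c hab p ih =>
      intro ha
      apply ih
      by_contra hb
      have hadj : G.Adj a.1 b.1 := hab
      apply a.2
      exact mem_coe.2 (mem_image.2 ⟨⟨(a.1, b.1), hadj⟩, mem_filter.2 ⟨mem_univ _, ha, hb⟩, rfl⟩)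
  exact hy (this _ _ p hz)

/-- the dual map is connected -/
theorem dconn (hG : G.Connected) (c : G.Coloring (Fin 2)) (Ro : RotationSystem G) {α : Sort*}
    (y : F Ro → α) (hy : ∀ e : E c, y (L c Ro e) = y (R c Ro e)) (f f' : F Ro) : y f = y f' := by
  have h1 : ∀ d : G.Dart, y (fc Ro d) = y (fc Ro d.symm) := by
    intro d
    rcases fin2_cases (c d.fst) with h | h
    · exact hy ⟨d, h⟩
    · have := hy ⟨d.symm, fin2_ne' (c.valid d.adj) h⟩
      exact this.symm
  have h2 : ∀ d : G.Dart, y (fc Ro (Ro.rot d)) = y (fc Ro d) := by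
    intro d; rw [fc_rot, ← h1]
  have h3 : ∀ (n : ℕ) (d : G.Dart), y (fc Ro ((Ro.rot ^ n) d)) = y (fc Ro d) := by
    intro n
    induction n with
    | zero => intro d; rfl
    | succ n ih => intro d; rw [pow_succ', Equiv.Perm.mul_apply, h2, ih]
  have h4 : ∀ d d' : G.Dart, d.fst = d'.fst → y (fc Ro d) = y (fc Ro d') := by
    intro d d' h
    obtain ⟨n, hn⟩ := (Ro.rot_sameCycle d d' h).exists_nat_pow_eq
    rw [← hn, h3]
  have h5 : ∀ (a b : V) (p : G.Walk a b) (d d' : G.Dart), d.fst = a → d'.fst = b →
      y (fc Ro d) = y (fc Ro d') := by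
    intro a b p
    induction p with
    | nil => intro d d' h h'; exact h4 d d' (h.trans h'.symm)
    | @cons a b c hab p ih =>
      intro d d' h h'
      rw [h4 d ⟨(a, b), hab⟩ h, h1]
      exact ih _ d' rfl h'
  obtain ⟨d, rfl⟩ := Quotient.exists_rep f
  obtain ⟨d', rfl⟩ := Quotient.exists_rep f'
  obtain ⟨p⟩ := hG.preconnected d.fst d'.fst
  exact h5 _ _ p d d' rfl rfl

/-- the vertex of the map attached to a vertex of the graph -/
def toBW (c : G.Coloring (Fin 2)) (v : V) : B c ⊕ W c :=
  if h : c v = 0 then Sum.inl ⟨v, h⟩ else Sum.inr ⟨v, (fin2_cases (c v)).resolve_left h⟩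

def ofBW (c : G.Coloring (Fin 2)) : B c ⊕ W c → V := Sum.elim Subtype.val Subtype.val

theorem toBW_bl (c : G.Coloring (Fin 2)) (b : B c) : toBW c b.1 = Sum.inl b := by
  unfold toBW; rw [dif_pos b.2]

theorem toBW_wh (c : G.Coloring (Fin 2)) (w : W c) : toBW c w.1 = Sum.inr w := by
  unfold toBW; rw [dif_neg (by rw [w.2]; decide)]

theorem toBW_ofBW (c : G.Coloring (Fin 2)) (p : B c ⊕ W c) : toBW c (ofBW c p) = p := by
  rcases p with b | w
  · exact toBW_bl c b
  · exact toBW_wh c w

theorem ofBW_toBW (c : G.Coloring (Fin 2)) (v : V) : ofBW c (toBW c v) = v := by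
  unfold toBW; split_ifs <;> rfl

/-- three-edge-connectivity in the map form -/
theorem cut3 (hc : G.IsRegularOfDegree 3) (h3 : IsThreeConnected G) (c : G.Coloring (Fin 2))
    (X : B c ⊕ W c → Prop) [DecidablePred X] (p q : B c ⊕ W c) (hp : X p) (hq : ¬ X q) :
    3 ≤ (univ.filter fun e : E c =>
      ¬ (X (Sum.inl (bl c e)) ↔ X (Sum.inr (wh c e)))).card := by
  have h := cut3V hc h3 (univ.filter fun v => X (toBW c v)) (ofBW c p)
    (by simp [toBW_ofBW, hp]) (ofBW c q) (by simp [toBW_ofBW, hq])
  refine le_trans h ?_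
  refine card_le_card_of_injOn (fun d => if h : c d.fst = 0 then (⟨d, h⟩ : E c) else
    ⟨d.symm, fin2_ne' (c.valid d.adj) ((fin2_cases _).resolve_left h)⟩) ?_ ?_
  · intro d hd
    simp only [coe_filter, mem_filter, mem_univ, true_and, Set.mem_setOf_eq] at hd ⊢
    split_ifs with h0
    · rw [← toBW_bl, ← toBW_wh]
      show ¬ (X (toBW c d.fst) ↔ X (toBW c d.snd))
      tauto
    · rw [← toBW_bl, ← toBW_wh]
      show ¬ (X (toBW c d.snd) ↔ X (toBW c d.fst))
      tauto
  · intro d hd d' hd' h
    simp only [coe_filter, mem_filter, mem_univ, true_and, Set.mem_setOf_eq] at hd hd'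
    simp only at h
    split_ifs at h with h0 h1 h1
    · exact congrArg Subtype.val h
    · have e : d = d'.symm := congrArg Subtype.val h
      subst e; exact absurd hd.1 hd'.2
    · have e : d.symm = d' := congrArg Subtype.val h
      subst e; exact absurd hd'.1 hd.2
    · exact SimpleGraph.Dart.symm_involutive.injective (congrArg Subtype.val h)

end Crest.Agent.R39.Br
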