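import Mathlib

set_option autoImplicit false

namespace Crest.Agent.R39

open SimpleGraph

/-- A connected spanning 2-regular subgraph gives a Hamiltonian cycle. -/
theorem ham_of_two_regular {V : Type} [Fintype V] [DecidableEq V] (G H : SimpleGraph V)
    (hle : H ≤ G) (hdeg : ∀ v, (H.neighborSet v).ncard = 2) (hconn : H.Connected) :
    G.IsHamiltonian := by
  refine SimpleGraph.IsHamiltonian.mono hle ?_
  intro _
  obtain ⟨v⟩ := hconn.nonempty
  have hcyc : H.IsCycles := fun v _ => hdeg v
  have hne : (H.neighborSet v).Nonempty := Set.nonempty_of_ncard_ne_zero (by rw [hdeg v]; norm_num)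
  obtain ⟨p, hp, hv⟩ := hcyc.exists_cycle_toSubgraph_verts_eq_connectedComponentSupp
    (c := H.connectedComponentMk v) (v := v) (by simp) hne
  refine ⟨v, p, hp, ?_⟩
  refine hp.isPath_tail.isHamiltonian_of_mem ?_
  intro w
  have hw : w ∈ p.toSubgraph.verts := by
    rw [hv]
    simp only [ConnectedComponent.mem_supp_iff, ConnectedComponent.eq]
    exact hconn.preconnected w v
  rw [Walk.mem_verts_toSubgraph] at hw
  rw [Walk.support_tail_of_not_nil _ hp.not_nil]
  by_cases hwv : w = v
  · subst hwv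
    have h1 : w ∈ p.tail.support := Walk.end_mem_support _
    rwa [Walk.support_tail_of_not_nil _ hp.not_nil] at h1
  · rw [← Walk.cons_tail_support] at hw
    rcases List.mem_cons.1 hw with h | h
    · exact absurd h hwv
    · exact h

/-- A graph in which every adjacency-closed predicate is constant is connected. -/
theorem connected_of_closed {V : Type} [Nonempty V] (H : SimpleGraph V)
    (h : ∀ S : V → Prop, (∀ u v, H.Adj u v → (S u ↔ S v)) → ∀ u v, S u → S v) :
    H.Connected := by
  refine Connected.mk ?_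
  intro u v
  refine h (fun w => H.Reachable u w) ?_ u v (Reachable.refl u)
  intro a b hab
  exact ⟨fun ha => ha.trans hab.reachable, fun hb => hb.trans hab.symm.reachable⟩

/-- Removing a perfect matching (given by a symmetric predicate on adjacent pairs) from a cubic
graph: if the rest is connected, the graph is Hamiltonian. -/
theorem ham_of_matching {V : Type} [Fintype V] [DecidableEq V] (G : SimpleGraph V)
    [DecidableRel G.Adj] [Nonempty V] (hcubic : G.IsRegularOfDegree 3)
    (M : V → V → Prop) (hsymm : ∀ u v, G.Adj u v → M u v → M v u)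
    (hM : ∀ v, ∃! w, G.Adj v w ∧ M v w)
    (hconn : ∀ S : V → Prop, (∀ u v, G.Adj u v → ¬ M u v → (S u ↔ S v)) → ∀ u v, S u → S v) :
    G.IsHamiltonian := by
  classical
  let H : SimpleGraph V :=
    { Adj := fun u v => G.Adj u v ∧ ¬ M u v
      symm := ⟨fun u v h => ⟨h.1.symm, fun h' => h.2 (hsymm _ _ h.1.symm h')⟩⟩
      loopless := ⟨fun u h => G.irrefl h.1⟩ }
  refine ham_of_two_regular G H (fun u v h => h.1) ?_ ?_
  · intro v
    obtain ⟨w, ⟨hw1, hw2⟩, huniq⟩ := hM v
    have hset : H.neighborSet v = G.neighborSet v \ {w} := by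
      ext u
      simp only [mem_neighborSet, Set.mem_sdiff, Set.mem_singleton_iff]
      constructor
      · rintro ⟨h1, h2⟩
        refine ⟨h1, ?_⟩
        rintro rfl
        exact h2 hw2
      · rintro ⟨h1, h2⟩
        exact ⟨h1, fun h3 => h2 (huniq u ⟨h1, h3⟩)⟩
    have h3 : (G.neighborSet v).ncard = 3 := by
      rw [← coe_neighborFinset, Set.ncard_coe_finset, card_neighborFinset_eq_degree,
        hcubic.degree_eq v]
    rw [hset, Set.ncard_sdiff_singleton_of_mem (by simpa using hw1), h3]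
  · refine connected_of_closed H ?_
    intro S hS
    exact hconn S (fun u v h1 h2 => hS u v ⟨h1, h2⟩)

/-- Dart form: edges are the darts whose tail has colour `0`. -/
theorem ham_of_darts {V : Type} [Fintype V] [DecidableEq V] (G : SimpleGraph V)
    [DecidableRel G.Adj] [Nonempty V] (hcubic : G.IsRegularOfDegree 3)
    (c : G.Coloring (Fin 2)) (M : {d : G.Dart // c d.fst = 0} → Prop)
    (hB : ∀ v, c v = 0 → ∃! e : {d : G.Dart // c d.fst = 0}, e.1.fst = v ∧ M e)
    (hW : ∀ v, c v ≠ 0 → ∃! e : {d : G.Dart // c d.fst = 0}, e.1.snd = v ∧ M e)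
    (hconn : ∀ S : V → Prop,
      (∀ e : {d : G.Dart // c d.fst = 0}, ¬ M e → (S e.1.fst ↔ S e.1.snd)) → ∀ u v, S u → S v) :
    G.IsHamiltonian := by
  classical
  have hcol : ∀ u v, G.Adj u v → c u ≠ 0 → c v = 0 := by
    intro u v h hu
    have := c.valid h
    revert this hu
    generalize c u = a
    generalize c v = b
    revert a b
    decide
  have hcol' : ∀ u v, G.Adj u v → c u = 0 → c v ≠ 0 := by
    intro u v h hu hv
    exact c.valid h (hu.trans hv.symm)
  refine ham_of_matching G hcubic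
    (fun u v => ∃ e : {d : G.Dart // c d.fst = 0}, M e ∧
      ((e.1.fst = u ∧ e.1.snd = v) ∨ (e.1.fst = v ∧ e.1.snd = u))) ?_ ?_ ?_
  · rintro u v _ ⟨e, he, h⟩
    exact ⟨e, he, h.symm⟩
  · intro v
    by_cases hv : c v = 0
    · obtain ⟨e, ⟨he1, he2⟩, huniq⟩ := hB v hv
      refine ⟨e.1.snd, ⟨he1 ▸ e.1.adj, e, he2, Or.inl ⟨he1, rfl⟩⟩, ?_⟩
      rintro w ⟨hw, e', he', h | h⟩
      · rw [← huniq e' ⟨h.1, he'⟩, h.2]
      · exact absurd (h.1 ▸ e'.2) (hcol' v w hw hv)
    · obtain ⟨e, ⟨he1, he2⟩, huniq⟩ := hW v hv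
      refine ⟨e.1.fst, ⟨he1 ▸ e.1.adj.symm, e, he2, Or.inr ⟨rfl, he1⟩⟩, ?_⟩
      rintro w ⟨hw, e', he', h | h⟩
      · exact absurd (h.1 ▸ e'.2) hv
      · rw [← huniq e' ⟨h.2, he'⟩, h.1]
  · intro S hS
    refine hconn S ?_
    intro e he
    refine hS _ _ e.1.adj ?_
    rintro ⟨e', he', h | h⟩
    · have : e' = e := Subtype.ext (Dart.ext _ _ (Prod.ext h.1 h.2))
      exact he (this ▸ he')
    · exact hcol' _ _ e.1.adj e.2 (h.1 ▸ e'.2)

end Crest.Agent.R39
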