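import Crest.Agent.R39.BridgeA
import Crest.Agent.R39.Ham
/-! Row 39: a perfect matching of the map with connected complement gives a Hamiltonian cycle. -/
set_option autoImplicit false
set_option linter.unusedSectionVars false
open Finset
open Crest.CombinatoricsR.PlanarMap

namespace Crest.Agent.R39.Br

variable {V : Type} [Fintype V] [DecidableEq V] {G : SimpleGraph V} [DecidableRel G.Adj]

theorem E_nonempty (hc : G.IsRegularOfDegree 3) [Nonempty V] (c : G.Coloring (Fin 2)) :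
    Nonempty (E c) := by
  obtain ⟨v⟩ := ‹Nonempty V›
  have h := card_fst hc v
  obtain ⟨d, -⟩ := card_pos.1 (by rw [h]; norm_num :
    0 < (univ.filter fun d : G.Dart => d.fst = v).card)
  rcases fin2_cases (c d.fst) with h0 | h1
  · exact ⟨⟨d, h0⟩⟩
  · exact ⟨⟨d.symm, fin2_ne' (c.valid d.adj) h1⟩⟩

theorem ham_of_map (hc : G.IsRegularOfDegree 3) [Nonempty V] (c : G.Coloring (Fin 2))
    (M : E c → Prop) (hB : ∀ b : B c, ∃! e, bl c e = b ∧ M e)
    (hW : ∀ w : W c, ∃! e, wh c e = w ∧ M e)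
    (hconn : ∀ X : B c ⊕ W c → Prop,
      (∀ e, ¬ M e → (X (Sum.inl (bl c e)) ↔ X (Sum.inr (wh c e)))) → ∀ p q, X p → X q) :
    G.IsHamiltonian := by
  refine ham_of_darts G hc c M ?_ ?_ ?_
  · intro v hv
    obtain ⟨e, he, hu⟩ := hB ⟨v, hv⟩
    exact ⟨e, ⟨congrArg Subtype.val he.1, he.2⟩, fun e' he' => hu e' ⟨Subtype.ext he'.1, he'.2⟩⟩
  · intro v hv
    obtain ⟨e, he, hu⟩ := hW ⟨v, (fin2_cases _).resolve_left hv⟩
    exact ⟨e, ⟨congrArg Subtype.val he.1, he.2⟩, fun e' he' => hu e' ⟨Subtype.ext he'.1, he'.2⟩⟩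
  · intro S hS u v hu
    have := hconn (fun p => S (ofBW c p)) (fun e he => hS e he) (toBW c u) (toBW c v)
      (by simpa [ofBW_toBW] using hu)
    simpa [ofBW_toBW] using this

end Crest.Agent.R39.Br
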