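import Mathlib

set_option autoImplicit false
set_option linter.unusedSectionVars false
open Finset

namespace Crest.Agent.R39

/-- Perm-free cubic bipartite plane map: edges `E`, black `B`, white `W`, faces `F`. -/
structure Mp (E B W F : Type) where
  bl : E → B
  wh : E → W
  L : E → F
  R : E → F

/-- non-root black vertices -/
abbrev B' {B : Type} (b0 : B) := {b : B // b ≠ b0}

/-- orbit of `b1` under `κ` -/
def orb {ι : Type} [Fintype ι] [DecidableEq ι] (κ : Equiv.Perm ι) (b1 : ι) : Finset ι :=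
  univ.filter fun b => κ.SameCycle b1 b

namespace Mp
variable {E B W F : Type} [Fintype E] [DecidableEq E] [Fintype B] [DecidableEq B]
  [Fintype W] [DecidableEq W] [Fintype F] [DecidableEq F]

def pc (G : Mp E B W F) (YB : Finset B) (YW : Finset W) : ℕ :=
  (univ.filter fun e => G.bl e ∈ YB ∧ G.wh e ∉ YW).card

def qc (G : Mp E B W F) (YB : Finset B) (YW : Finset W) : ℕ :=
  (univ.filter fun e => G.bl e ∉ YB ∧ G.wh e ∈ YW).card

structure Good0 (G : Mp E B W F) : Prop where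
  degB : ∀ b, (univ.filter fun e => G.bl e = b).card = 3
  degW : ∀ t, (univ.filter fun e => G.wh e = t).card = 3
  surj : Function.Surjective G.L
  clB : ∀ b w, (univ.filter fun e => G.bl e = b ∧ G.L e = w).card =
    (univ.filter fun e => G.bl e = b ∧ G.R e = w).card
  clW : ∀ t w, (univ.filter fun e => G.wh e = t ∧ G.L e = w).card =
    (univ.filter fun e => G.wh e = t ∧ G.R e = w).card
  cut3 : ∀ (YB : Finset B) (YW : Finset W), (YB.Nonempty ∨ YW.Nonempty) →
    (YB ≠ univ ∨ YW ≠ univ) → 3 ≤ G.pc YB YW + G.qc YB YW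
  ne : Nonempty B

structure Good1 (G : Mp E B W F) : Prop extends G.Good0 where
  dconn : ∀ h : F → ℚ, (∀ e, h (G.L e) = h (G.R e)) → ∀ w w', h w = h w'

structure Good (G : Mp E B W F) : Prop extends G.Good1 where
  euler : Fintype.card F = Fintype.card B + 2

def Closed (G : Mp E B W F) (x : E → ℚ) : Prop :=
  ∀ w, ∑ e ∈ univ.filter (fun e => G.L e = w), x e = ∑ e ∈ univ.filter (fun e => G.R e = w), x e

def Ham (G : Mp E B W F) (e0 : E) : Prop :=
  ∃ M : Finset E, e0 ∈ M ∧ (∀ b, (M.filter fun e => G.bl e = b).card = 1) ∧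
    (∀ t, (M.filter fun e => G.wh e = t).card = 1) ∧
    ∀ (YB : Finset B) (YW : Finset W), (∀ e, e ∉ M → (G.bl e ∈ YB ↔ G.wh e ∈ YW)) →
      (YB = ∅ ∧ YW = ∅) ∨ (YB = univ ∧ YW = univ)

def J (G : Mp E B W F) (b : B) (w w' : F) : ℤ :=
  ((univ.filter fun e => G.bl e = b ∧ G.L e = w ∧ G.R e = w').card : ℤ) -
    ((univ.filter fun e => G.bl e = b ∧ G.R e = w ∧ G.L e = w').card : ℤ)

/-- the faces at the black vertex `b` -/
def RF (G : Mp E B W F) (b : B) : Finset F := (univ.filter fun e => G.bl e = b).image G.L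

/-- non-root faces -/
abbrev F' (G : Mp E B W F) (b0 : B) := {w : F // w ∉ G.RF b0}

def NoBad (G : Mp E B W F) (b0 : B) : Prop :=
  ∀ (YB : Finset B) (YW : Finset W), b0 ∉ YB → YW.Nonempty → ¬ (G.pc YB YW = 3 ∧ G.qc YB YW = 0)

def swap (G : Mp E B W F) : Mp E W B F := ⟨G.wh, G.bl, G.L, G.R⟩

/-- contract `(YB, YW)` to one new black vertex `none` -/
def con (G : Mp E B W F) (YB : Finset B) (YW : Finset W) :
    Mp {e // G.wh e ∉ YW} (Option {b // b ∉ YB}) {t // t ∉ YW}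
      {w // ∃ e, G.wh e ∉ YW ∧ (G.L e = w ∨ G.R e = w)} where
  bl e := if h : G.bl e.1 ∈ YB then none else some ⟨G.bl e.1, h⟩
  wh e := ⟨G.wh e.1, e.2⟩
  L e := ⟨G.L e.1, e.1, e.2, Or.inl rfl⟩
  R e := ⟨G.R e.1, e.1, e.2, Or.inr rfl⟩

/-- the cochain of a set `C` of non-root blacks for the pair `(r, s)` -/
def xC (G : Mp E B W F) (b0 : B) (r s : B' b0 ≃ G.F' b0) (C : Finset (B' b0)) (e : E) : ℚ :=
  ∑ b ∈ C, ((if G.bl e = b.1 ∧ G.L e = (r b).1 ∧ G.R e = (s b).1 then (1 : ℚ) else 0) -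
    (if G.bl e = b.1 ∧ G.R e = (r b).1 ∧ G.L e = (s b).1 then (1 : ℚ) else 0))

/-- functions constant along the edges of `E1` are constant on `(YB, YW)` -/
def ConnOn (G : Mp E B W F) (YB : Finset B) (YW : Finset W) (E1 : Finset E) : Prop :=
  ∀ (gB : B → ℚ) (gW : W → ℚ), (∀ e ∈ E1, gB (G.bl e) = gW (G.wh e)) →
    ∃ c, (∀ b ∈ YB, gB b = c) ∧ (∀ t ∈ YW, gW t = c)

/-- edges inside `(YB, YW)` -/
def ins (G : Mp E B W F) (YB : Finset B) (YW : Finset W) : Finset E :=
  univ.filter fun e => G.bl e ∈ YB ∧ G.wh e ∈ YW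

end Mp
end Crest.Agent.R39
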