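import Crest.Agent.R39.BridgeB
import Crest.Agent.R39.Defs
/-! Row 39: from the map theorem to the graph statement. -/
set_option autoImplicit false
set_option linter.unusedSectionVars false
open Finset
open Crest.CombinatoricsR.PlanarMap

namespace Crest.Agent.R39.Br

variable {V : Type} [Fintype V] [DecidableEq V] {G : SimpleGraph V} [DecidableRel G.Adj]

/-- the map of a coloured graph with a rotation system -/
def mp (c : G.Coloring (Fin 2)) (Ro : RotationSystem G) : Mp (E c) (B c) (W c) (F Ro) :=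
  ⟨bl c, wh c, L c Ro, R c Ro⟩

theorem mp_good (hc : G.IsRegularOfDegree 3) (h3 : IsThreeConnected G) (hG : G.Connected)
    (c : G.Coloring (Fin 2)) (Ro : RotationSystem G) [Fintype (F Ro)] [DecidableEq (F Ro)]
    (h : (Fintype.card V : ℤ) - (Nat.card G.edgeSet : ℤ) + (Ro.numFaces : ℤ) = 2) :
    (mp c Ro).Good := by
  haveI : Nonempty V := hG.nonempty
  refine ⟨⟨⟨bl_card hc c, wh_card hc c, L_surj c Ro, closed_bl c Ro, closed_wh c Ro, ?_, ?_⟩,
    fun y hy w w' => dconn hG c Ro y hy w w'⟩, card_F hc c Ro h⟩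
  · intro YB YW h1 h2
    let X : B c ⊕ W c → Prop := Sum.elim (fun b => b ∈ YB) (fun t => t ∈ YW)
    haveI : DecidablePred X := Classical.decPred _
    obtain ⟨p, hp⟩ : ∃ p, X p := by
      rcases h1 with ⟨b, hb⟩ | ⟨t, ht⟩
      · exact ⟨Sum.inl b, hb⟩
      · exact ⟨Sum.inr t, ht⟩
    obtain ⟨q, hq⟩ : ∃ q, ¬ X q := by
      rcases h2 with h2 | h2
      · obtain ⟨b, hb⟩ := not_forall.1 (fun hh => h2 (eq_univ_iff_forall.2 hh))
        exact ⟨Sum.inl b, hb⟩
      · obtain ⟨b, hb⟩ := not_forall.1 (fun hh => h2 (eq_univ_iff_forall.2 hh))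
        exact ⟨Sum.inr b, hb⟩
    refine le_trans (cut3 hc h3 c X p q hp hq) ?_
    unfold Mp.pc Mp.qc
    refine le_trans (card_le_card ?_) (card_union_le _ _)
    intro e he
    simp only [mem_filter, mem_univ, true_and, mem_union, X, Sum.elim_inl, Sum.elim_inr, mp] at he ⊢
    tauto
  · obtain ⟨e⟩ := E_nonempty hc c
    exact ⟨bl c e⟩

theorem ham_of_Ham (hc : G.IsRegularOfDegree 3) [Nonempty V] (c : G.Coloring (Fin 2))
    (Ro : RotationSystem G) [Fintype (F Ro)] [DecidableEq (F Ro)] (e0 : E c)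
    (h : (mp c Ro).Ham e0) : G.IsHamiltonian := by
  obtain ⟨M, -, hB, hW, hX⟩ := h
  refine ham_of_map hc c (fun e => e ∈ M) ?_ ?_ ?_
  · intro b
    obtain ⟨e, he⟩ := card_eq_one.1 (hB b)
    have h1 : e ∈ M.filter fun e => (mp c Ro).bl e = b := by rw [he]; exact mem_singleton_self e
    rw [mem_filter] at h1
    refine ⟨e, ⟨h1.2, h1.1⟩, fun e' he' => ?_⟩
    have h2 : e' ∈ M.filter fun e => (mp c Ro).bl e = b := mem_filter.2 ⟨he'.2, he'.1⟩
    rw [he] at h2; exact mem_singleton.1 h2
  · intro b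
    obtain ⟨e, he⟩ := card_eq_one.1 (hW b)
    have h1 : e ∈ M.filter fun e => (mp c Ro).wh e = b := by rw [he]; exact mem_singleton_self e
    rw [mem_filter] at h1
    refine ⟨e, ⟨h1.2, h1.1⟩, fun e' he' => ?_⟩
    have h2 : e' ∈ M.filter fun e => (mp c Ro).wh e = b := mem_filter.2 ⟨he'.2, he'.1⟩
    rw [he] at h2; exact mem_singleton.1 h2
  · intro X hXe p q hp
    haveI : DecidablePred X := Classical.decPred _
    have := hX (univ.filter fun b => X (Sum.inl b)) (univ.filter fun t => X (Sum.inr t))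
      (fun e he => by simpa [mp] using hXe e he)
    rcases this with ⟨h1, h2⟩ | ⟨h1, h2⟩
    · exfalso
      rcases p with b | t
      · exact (filter_eq_empty_iff.1 h1 (mem_univ b)) hp
      · exact (filter_eq_empty_iff.1 h2 (mem_univ t)) hp
    · rcases q with b | t
      · have : b ∈ univ.filter fun b => X (Sum.inl b) := by rw [h1]; exact mem_univ _
        exact (mem_filter.1 this).2
      · have : t ∈ univ.filter fun t => X (Sum.inr t) := by rw [h2]; exact mem_univ _
        exact (mem_filter.1 this).2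

/-- the graph statement from the map theorem -/
theorem final_of_main
    (main : ∀ (E B W F : Type) [Fintype E] [DecidableEq E] [Fintype B] [DecidableEq B]
      [Fintype W] [DecidableEq W] [Fintype F] [DecidableEq F] (M : Mp E B W F),
      M.Good → ∀ e0 : E, M.Ham e0)
    (hc : G.IsRegularOfDegree 3) (hbip : G.Colorable 2) (hplanar : IsPlanarMap G)
    (h3 : IsThreeConnected G) : G.IsHamiltonian := by
  obtain ⟨c⟩ := hbip
  obtain ⟨hG, Ro, hE⟩ := hplanar
  haveI : Nonempty V := hG.nonempty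
  haveI : Fintype (F Ro) := Fintype.ofFinite _
  haveI : DecidableEq (F Ro) := Classical.decEq _
  obtain ⟨e0⟩ := E_nonempty hc c
  exact ham_of_Ham hc c Ro e0 (main _ _ _ _ _ (mp_good hc h3 hG c Ro hE) e0)

end Crest.Agent.R39.Br
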