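import Mathlib
/-! Row 39, part (C): rank inequality and region count. -/
set_option autoImplicit false
open Finset
namespace Crest.Agent.R39.HallX
variable {E B W F : Type} [Fintype E] [Fintype B] [Fintype W] [Fintype F]
  [DecidableEq E] [DecidableEq B] [DecidableEq W] [DecidableEq F]

theorem sum_closed {A : Type} [Fintype A] [DecidableEq A] (a : E → A) (L R : E → F)
    (c : ∀ t f, (univ.filter fun e => a e = t ∧ L e = f).card =
      (univ.filter fun e => a e = t ∧ R e = f).card) (H : A → F → ℚ) :
    ∑ e, H (a e) (L e) = ∑ e, H (a e) (R e) := by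
  have key : ∀ M : E → F, ∑ e, H (a e) (M e) =
      ∑ t, ∑ f, ((univ.filter fun e => a e = t ∧ M e = f).card : ℚ) * H t f := by
    intro M
    have h1 : ∀ e, H (a e) (M e) = ∑ t, ∑ f, if a e = t ∧ M e = f then H t f else 0 := by
      intro e
      rw [Finset.sum_eq_single (a e), Finset.sum_eq_single (M e)]
      · simp
      · intro f _ hf; simp [Ne.symm hf]
      · simp
      · intro t _ ht; simp [Ne.symm ht]
      · simp
    rw [Finset.sum_congr rfl fun e _ => h1 e, Finset.sum_comm]
    refine Finset.sum_congr rfl fun t _ => ?_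
    rw [Finset.sum_comm]
    refine Finset.sum_congr rfl fun f _ => ?_
    rw [← Finset.sum_filter, Finset.sum_const, nsmul_eq_mul]
  rw [key L, key R]
  simp only [c]

/-- rank inequality -/
theorem rank_ineq (bl : E → B) (wh : E → W) (L R : E → F)
    (cB : ∀ t f, (univ.filter fun e => bl e = t ∧ L e = f).card =
      (univ.filter fun e => bl e = t ∧ R e = f).card)
    (cW : ∀ t f, (univ.filter fun e => wh e = t ∧ L e = f).card =
      (univ.filter fun e => wh e = t ∧ R e = f).card)
    (dconn : ∀ y : F → Prop, (∀ e, y (L e) ↔ y (R e)) → ∀ f g, y f → y g)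
    (p : E → Prop) [DecidablePred p] (U : Finset F) (f0 : F) (hf0 : f0 ∉ U)
    (hU : ∀ e, L e ∈ U ∨ R e ∈ U → p e)
    {Q : Type} [Fintype Q] (mk : B ⊕ W → Q)
    (hmk : ∀ g : B ⊕ W → ℚ, (∀ e, p e → g (.inl (bl e)) = g (.inr (wh e))) →
      ∃ g' : Q → ℚ, ∀ v, g v = g' (mk v)) :
    Fintype.card B + Fintype.card W + U.card ≤ (univ.filter p).card + Fintype.card Q := by
  classical
  let D : (B ⊕ W → ℚ) →ₗ[ℚ] ({e // p e} → ℚ) :=
    { toFun := fun g e => g (.inr (wh e.1)) - g (.inl (bl e.1))
      map_add' := fun g g' => by funext e; simp only [Pi.add_apply]; ring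
      map_smul' := fun c g => by funext e; simp only [Pi.smul_apply, smul_eq_mul, RingHom.id_apply]; ring }
  let ex : (U → ℚ) → F → ℚ := fun y f => if h : f ∈ U then y ⟨f, h⟩ else 0
  let P : (U → ℚ) →ₗ[ℚ] ({e // p e} → ℚ) :=
    { toFun := fun y e => ex y (L e.1) - ex y (R e.1)
      map_add' := fun y y' => by
        funext e; simp only [ex, Pi.add_apply]; split_ifs <;> ring
      map_smul' := fun c y => by
        funext e; simp only [ex, Pi.smul_apply, smul_eq_mul, RingHom.id_apply]; split_ifs <;> ring }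
  have hex0 : ∀ y e, ¬ p e → ex y (L e) = 0 ∧ ex y (R e) = 0 := by
    intro y e he
    constructor
    · simp only [ex]; rw [dif_neg fun h => he (hU e (Or.inl h))]
    · simp only [ex]; rw [dif_neg fun h => he (hU e (Or.inr h))]
  have hPinj : Function.Injective P := by
    rw [← LinearMap.ker_eq_bot, LinearMap.ker_eq_bot']
    intro y hy
    have h1 : ∀ e, ex y (L e) = ex y (R e) := by
      intro e
      by_cases he : p e
      · exact sub_eq_zero.1 (congrFun hy ⟨e, he⟩)
      · rw [(hex0 y e he).1, (hex0 y e he).2]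
    have h2 := dconn (fun f => ex y f = 0) (fun e => by rw [h1 e]) f0
    funext f
    have h3 := h2 f.1 (by simp only [ex]; rw [dif_neg hf0])
    simpa [ex] using h3
  have horth : ∀ y g, ∑ e, P y e * D g e = 0 := by
    intro y g
    have h1 : ∑ e : {e // p e}, P y e * D g e =
        ∑ e, (ex y (L e) - ex y (R e)) * (g (.inr (wh e)) - g (.inl (bl e))) := by
      rw [← Finset.sum_filter_of_ne (s := univ) (p := p) (f := fun e =>
          (ex y (L e) - ex y (R e)) * (g (.inr (wh e)) - g (.inl (bl e)))) (by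
            intro e _ hne
            by_contra he
            apply hne
            rw [(hex0 y e he).1, (hex0 y e he).2]; simp)]
      exact (Finset.sum_subtype (univ.filter p) (by simp) (fun e =>
          (ex y (L e) - ex y (R e)) * (g (.inr (wh e)) - g (.inl (bl e))))).symm
    rw [h1]
    have a1 := sum_closed wh L R cW (fun w f => ex y f * g (.inr w))
    have a2 := sum_closed bl L R cB (fun w f => ex y f * g (.inl w))
    have : ∀ e, (ex y (L e) - ex y (R e)) * (g (.inr (wh e)) - g (.inl (bl e))) =
        (ex y (L e) * g (.inr (wh e)) - ex y (R e) * g (.inr (wh e))) -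
        (ex y (L e) * g (.inl (bl e)) - ex y (R e) * g (.inl (bl e))) := fun e => by ring
    simp only [this, Finset.sum_sub_distrib]
    rw [a1, a2]; ring
  have hdisj : Disjoint (LinearMap.range P) (LinearMap.range D) := by
    rw [Submodule.disjoint_def]
    rintro x ⟨y, hy⟩ ⟨g, hg⟩
    have h1 := horth y g
    rw [hy, hg] at h1
    funext e
    have h2 := (Finset.sum_eq_zero_iff_of_nonneg fun e _ => mul_self_nonneg (x e)).1 h1 e (mem_univ _)
    exact mul_self_eq_zero.1 h2
  have h1 := Submodule.finrank_add_finrank_le_of_disjoint hdisj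
  have h2 : Module.finrank ℚ (LinearMap.range P) = U.card := by
    rw [LinearMap.finrank_range_of_inj hPinj]; simp
  have h3 := LinearMap.finrank_range_add_finrank_ker D
  have h4 : Module.finrank ℚ (LinearMap.ker D) ≤ Fintype.card Q := by
    have hle : LinearMap.ker D ≤ LinearMap.range (LinearMap.funLeft ℚ ℚ mk) := by
      intro g hg
      obtain ⟨g', hg'⟩ := hmk g fun e he => (sub_eq_zero.1 (congrFun hg ⟨e, he⟩)).symm
      exact ⟨g', funext fun v => (hg' v).symm⟩
    refine (Submodule.finrank_mono hle).trans ?_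
    refine (LinearMap.finrank_range_le _).trans ?_
    simp
  have h5 : Fintype.card {e // p e} = (univ.filter p).card := by
    rw [Fintype.card_subtype]
  rw [Module.finrank_fintype_fun_eq_card] at h1 h3
  rw [Fintype.card_sum] at h3
  omega

theorem card_fib {A : Type} [Fintype A] [DecidableEq A] (a : E → A)
    (h : ∀ t, (univ.filter fun e => a e = t).card = 3) (S : A → Prop) [DecidablePred S] :
    (univ.filter fun e => S (a e)).card = 3 * (univ.filter S).card := by
  rw [Finset.card_eq_sum_card_fiberwise (f := a) (t := univ.filter S) (by intro e he; simpa using he)]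
  rw [Finset.sum_congr rfl (g := fun _ => 3)]
  · simp [mul_comm]
  · intro t ht
    rw [← h t]
    congr 1
    ext e
    simp only [mem_filter, mem_univ, true_and] at ht ⊢
    constructor
    · exact fun h => h.2
    · rintro rfl; exact ⟨ht, rfl⟩

/-- number of regions -/
theorem regions (bl : E → B) (wh : E → W)
    (hB : ∀ t, (univ.filter fun e => bl e = t).card = 3)
    (hW : ∀ t, (univ.filter fun e => wh e = t).card = 3)
    (cut3 : ∀ (X : B ⊕ W → Prop) [DecidablePred X] (u v : B ⊕ W), X u → ¬ X v →
      3 ≤ (univ.filter fun e => ¬ (X (.inl (bl e)) ↔ X (.inr (wh e)))).card)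
    (b0 : B)
    (nobad : ∀ (X : B ⊕ W → Prop) [DecidablePred X], ¬ X (.inl b0) →
      (univ.filter fun e => ¬ (X (.inl (bl e)) ↔ X (.inr (wh e)))).card = 3 →
      (∀ e, X (.inr (wh e)) → X (.inl (bl e))) → ∀ w, ¬ X (.inr w))
    (p : E → Prop) [DecidablePred p] (h0 : ∀ e, bl e = b0 → ¬ p e)
    {Q : Type} [Fintype Q] [DecidableEq Q] (mk : B ⊕ W → Q) (hsurj : Function.Surjective mk)
    (hmk : ∀ e, p e → mk (.inl (bl e)) = mk (.inr (wh e))) :
    2 * Fintype.card Q ≤ (univ.filter fun e => ¬ p e).card +
      (univ.filter fun t => ∀ e, bl e = t → ¬ p e).card := by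
  classical
  have key : ∀ Y : Q, 6 ≤ 2 * (univ.filter fun e => ¬ p e ∧ mk (.inr (wh e)) = Y).card +
      (univ.filter fun e => ¬ p e ∧ mk (.inl (bl e)) = Y).card +
      3 * (univ.filter fun t => (∀ e, bl e = t → ¬ p e) ∧ mk (.inl t) = Y).card := by
    intro Y
    by_cases hA : ∃ t, (∀ e, bl e = t → ¬ p e) ∧ mk (.inl t) = Y
    · obtain ⟨t, ht, hY⟩ := hA
      have h1 : 1 ≤ (univ.filter fun t => (∀ e, bl e = t → ¬ p e) ∧ mk (.inl t) = Y).card :=
        Finset.card_pos.2 ⟨t, by simp only [mem_filter, mem_univ, true_and]; exact ⟨ht, hY⟩⟩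
      have h2 : 3 ≤ (univ.filter fun e => ¬ p e ∧ mk (.inl (bl e)) = Y).card := by
        rw [← hB t]
        refine Finset.card_le_card fun e he => ?_
        simp only [mem_filter, mem_univ, true_and] at he ⊢
        exact ⟨ht e he, by rw [he, hY]⟩
      omega
    · have hb0 : ¬ mk (.inl b0) = Y := fun h => hA ⟨b0, h0, h⟩
      obtain ⟨u, hu⟩ := hsurj Y
      have hc := cut3 (fun v => mk v = Y) u (.inl b0) hu hb0
      have e1 := card_fib bl hB (fun t => mk (.inl t) = Y)
      have e2 := card_fib wh hW (fun t => mk (.inr t) = Y)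
      have s1 := Finset.card_filter_add_card_filter_not (s := univ.filter fun e => mk (.inl (bl e)) = Y) p
      have s2 := Finset.card_filter_add_card_filter_not (s := univ.filter fun e => mk (.inr (wh e)) = Y) p
      rw [Finset.filter_filter, Finset.filter_filter] at s1 s2
      have q1 : (univ.filter fun e => mk (.inl (bl e)) = Y ∧ p e) =
          (univ.filter fun e => mk (.inr (wh e)) = Y ∧ p e) := by
        ext e
        simp only [mem_filter, mem_univ, true_and]
        constructor
        · rintro ⟨h1, h2⟩; exact ⟨by rw [← hmk e h2, h1], h2⟩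
        · rintro ⟨h1, h2⟩; exact ⟨by rw [hmk e h2, h1], h2⟩
      have q2 : (univ.filter fun e => mk (.inl (bl e)) = Y ∧ ¬ p e) =
          (univ.filter fun e => ¬ p e ∧ mk (.inl (bl e)) = Y) := by
        ext e; simp only [mem_filter, mem_univ, true_and]; exact and_comm
      have q3 : (univ.filter fun e => mk (.inr (wh e)) = Y ∧ ¬ p e) =
          (univ.filter fun e => ¬ p e ∧ mk (.inr (wh e)) = Y) := by
        ext e; simp only [mem_filter, mem_univ, true_and]; exact and_comm
      rw [q1, q2] at s1
      rw [q3] at s2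
      have hsub : (univ.filter fun e => ¬ (mk (.inl (bl e)) = Y ↔ mk (.inr (wh e)) = Y)) ⊆
          (univ.filter fun e => ¬ p e ∧ mk (.inr (wh e)) = Y) ∪
          (univ.filter fun e => ¬ p e ∧ mk (.inl (bl e)) = Y) := by
        intro e he
        simp only [mem_filter, mem_univ, true_and, mem_union] at he ⊢
        have hp : ¬ p e := fun h => he (by rw [hmk e h])
        tauto
      have hc2 := (Finset.card_le_card hsub).trans (Finset.card_union_le _ _)
      by_contra hlt
      have hw0 : (univ.filter fun e => ¬ p e ∧ mk (.inr (wh e)) = Y).card = 0 := by omega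
      have hb3 : (univ.filter fun e => ¬ p e ∧ mk (.inl (bl e)) = Y).card = 3 := by omega
      have hcl : ∀ e, mk (.inr (wh e)) = Y → mk (.inl (bl e)) = Y := by
        intro e he
        by_cases hp : p e
        · rw [hmk e hp, he]
        · exfalso
          have : e ∈ (univ.filter fun e => ¬ p e ∧ mk (.inr (wh e)) = Y) := by
            simp only [mem_filter, mem_univ, true_and]; exact ⟨hp, he⟩
          rw [Finset.card_eq_zero.1 hw0] at this
          simp at this
      have hno := nobad (fun v => mk v = Y) hb0 (by omega) hcl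
      rcases u with t | w
      · exact hA ⟨t, fun e he hp => hno (wh e) (by rw [← hmk e hp, he, hu]), hu⟩
      · exact hno w hu
  have t1 : ∑ Y : Q, (univ.filter fun e => ¬ p e ∧ mk (.inr (wh e)) = Y).card =
      (univ.filter fun e => ¬ p e).card := by
    rw [Finset.card_eq_sum_card_fiberwise (f := fun e => mk (.inr (wh e))) (t := univ) (by simp)]
    simp only [Finset.filter_filter]
  have t2 : ∑ Y : Q, (univ.filter fun e => ¬ p e ∧ mk (.inl (bl e)) = Y).card =
      (univ.filter fun e => ¬ p e).card := by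
    rw [Finset.card_eq_sum_card_fiberwise (f := fun e => mk (.inl (bl e))) (t := univ) (by simp)]
    simp only [Finset.filter_filter]
  have t3 : ∑ Y : Q, (univ.filter fun t => (∀ e, bl e = t → ¬ p e) ∧ mk (.inl t) = Y).card =
      (univ.filter fun t => ∀ e, bl e = t → ¬ p e).card := by
    rw [Finset.card_eq_sum_card_fiberwise (f := fun t => mk (.inl t)) (t := univ) (by simp)]
    simp only [Finset.filter_filter]
  have := Finset.sum_le_sum (s := univ) fun Y _ => key Y
  simp only [Finset.sum_add_distrib, ← Finset.mul_sum, t1, t2, t3, Finset.sum_const, card_univ,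
    smul_eq_mul] at this
  omega

theorem card_LR (bl : E → B) (L R : E → F)
    (cB : ∀ t f, (univ.filter fun e => bl e = t ∧ L e = f).card =
      (univ.filter fun e => bl e = t ∧ R e = f).card) (t : B) (U : Finset F) :
    (univ.filter fun e => bl e = t ∧ L e ∈ U).card = (univ.filter fun e => bl e = t ∧ R e ∈ U).card := by
  have key : ∀ M : E → F, (univ.filter fun e => bl e = t ∧ M e ∈ U).card =
      ∑ f ∈ U, (univ.filter fun e => bl e = t ∧ M e = f).card := by
    intro M
    rw [Finset.card_eq_sum_card_fiberwise (f := M) (t := U) (by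
      intro e he; simp only [coe_filter, mem_univ, true_and, Set.mem_setOf_eq] at he; exact he.2)]
    refine Finset.sum_congr rfl fun f hf => ?_
    congr 1
    ext e
    simp only [mem_filter, mem_univ, true_and]
    constructor
    · rintro ⟨⟨h1, _⟩, h2⟩; exact ⟨h1, h2⟩
    · rintro ⟨h1, h2⟩; exact ⟨⟨h1, h2 ▸ hf⟩, h2⟩
  rw [key L, key R]
  exact Finset.sum_congr rfl fun f _ => cB t f

/-- the Euler inequality for a face set containing the root faces -/
theorem euler_ineq (bl : E → B) (wh : E → W) (L R : E → F)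
    (hB : ∀ t, (univ.filter fun e => bl e = t).card = 3)
    (hW : ∀ t, (univ.filter fun e => wh e = t).card = 3)
    (cB : ∀ t f, (univ.filter fun e => bl e = t ∧ L e = f).card =
      (univ.filter fun e => bl e = t ∧ R e = f).card)
    (cW : ∀ t f, (univ.filter fun e => wh e = t ∧ L e = f).card =
      (univ.filter fun e => wh e = t ∧ R e = f).card)
    (dconn : ∀ y : F → Prop, (∀ e, y (L e) ↔ y (R e)) → ∀ f g, y f → y g)
    (cut3 : ∀ (X : B ⊕ W → Prop) [DecidablePred X] (u v : B ⊕ W), X u → ¬ X v →
      3 ≤ (univ.filter fun e => ¬ (X (.inl (bl e)) ↔ X (.inr (wh e)))).card)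
    (hF : Fintype.card F = Fintype.card B + 2) (b0 : B)
    (nobad : ∀ (X : B ⊕ W → Prop) [DecidablePred X], ¬ X (.inl b0) →
      (univ.filter fun e => ¬ (X (.inl (bl e)) ↔ X (.inr (wh e)))).card = 3 →
      (∀ e, X (.inr (wh e)) → X (.inl (bl e))) → ∀ w, ¬ X (.inr w))
    (U : Finset F) (hU : ∀ e, bl e = b0 → L e ∈ U ∧ R e ∈ U) :
    (univ.filter fun e => L e ∈ U ∧ R e ∈ U).card + 4 ≤
      (univ.filter fun t => ∀ e, bl e = t → L e ∈ U ∧ R e ∈ U).card + 2 * U.card := by
  classical
  let s : Setoid (B ⊕ W) := Relation.EqvGen.setoid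
    (fun u v => ∃ e, ¬ (L e ∈ U ∧ R e ∈ U) ∧ u = .inl (bl e) ∧ v = .inr (wh e))
  obtain ⟨e0, he0⟩ : (univ.filter fun e => bl e = b0).Nonempty := by
    rw [← Finset.card_pos, hB]; omega
  have he0' : bl e0 = b0 := by simpa using he0
  have r1 := rank_ineq bl wh L R cB cW dconn (fun e => ¬ (L e ∈ U ∧ R e ∈ U)) Uᶜ (L e0)
    (by simpa using (hU e0 he0').1) (by intro e he; simp only [mem_compl] at he; tauto)
    (Q := Quotient s) (Quotient.mk s) (by
      intro g hg
      refine ⟨Quotient.lift g ?_, fun v => rfl⟩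
      intro a b hab
      induction hab with
      | rel a b h => obtain ⟨e, he, rfl, rfl⟩ := h; exact hg e he
      | refl => rfl
      | symm _ _ _ ih => exact ih.symm
      | trans _ _ _ _ _ ih1 ih2 => exact ih1.trans ih2)
  have r2 := regions bl wh hB hW cut3 b0 nobad (fun e => ¬ (L e ∈ U ∧ R e ∈ U))
    (fun e he h => h (hU e he)) (Q := Quotient s) (Quotient.mk s) Quotient.mk_surjective
    (fun e he => Quotient.sound (Relation.EqvGen.rel _ _ ⟨e, he, rfl, rfl⟩))
  simp only [not_not] at r2
  have e1 := card_fib bl hB (fun _ => True)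
  have e2 := card_fib wh hW (fun _ => True)
  simp only [Finset.filter_true, card_univ] at e1 e2
  have e3 := Finset.card_filter_add_card_filter_not (s := (univ : Finset E)) (fun e => L e ∈ U ∧ R e ∈ U)
  have e4 := Finset.card_add_card_compl U
  rw [card_univ] at e3
  omega

/-- local inequality at a black vertex -/
theorem local_ineq (bl : E → B) (L R : E → F)
    (hB : ∀ t, (univ.filter fun e => bl e = t).card = 3)
    (cB : ∀ t f, (univ.filter fun e => bl e = t ∧ L e = f).card =
      (univ.filter fun e => bl e = t ∧ R e = f).card) (U : Finset F) (t : B) :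
    (univ.filter fun e => bl e = t ∧ L e ∈ U).card + (if ∀ e, bl e = t → L e ∈ U ∧ R e ∈ U then 1 else 0) ≤
      1 + (univ.filter fun e => bl e = t ∧ (L e ∈ U ∧ R e ∈ U)).card := by
  have a1 := card_LR bl L R cB t U
  have a2 := Finset.card_filter_add_card_filter_not (s := univ.filter fun e => bl e = t) (fun e => R e ∈ U)
  have a3 := Finset.card_filter_add_card_filter_not (s := univ.filter fun e => bl e = t ∧ L e ∈ U)
    (fun e => R e ∈ U)
  have a4 := Finset.card_filter_add_card_filter_not (s := univ.filter fun e => bl e = t) (fun e => L e ∈ U)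
  simp only [Finset.filter_filter, and_assoc] at a2 a3 a4
  rw [hB t] at a2 a4
  have a5 : (univ.filter fun e => bl e = t ∧ L e ∈ U ∧ R e ∉ U).card ≤
      (univ.filter fun e => bl e = t ∧ R e ∉ U).card :=
    Finset.card_le_card fun e he => by
      simp only [mem_filter, mem_univ, true_and] at he ⊢; exact ⟨he.1, he.2.2⟩
  split_ifs with h
  · have : (univ.filter fun e => bl e = t ∧ L e ∈ U ∧ R e ∉ U).card = 0 := by
      rw [Finset.card_eq_zero, Finset.filter_eq_empty_iff]
      rintro e _ ⟨h1, _, h3⟩; exact h3 (h e h1).2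
    omega
  · omega

/-- first Hall step: two chosen corners at each black vertex, at most two at each face -/
theorem exists_D (bl : E → B) (L R : E → F)
    (hB : ∀ t, (univ.filter fun e => bl e = t).card = 3)
    (cB : ∀ t f, (univ.filter fun e => bl e = t ∧ L e = f).card =
      (univ.filter fun e => bl e = t ∧ R e = f).card) (b0 : B)
    (hE : ∀ U : Finset F, (∀ e, bl e = b0 → L e ∈ U ∧ R e ∈ U) →
      (univ.filter fun e => L e ∈ U ∧ R e ∈ U).card + 4 ≤
      (univ.filter fun t => ∀ e, bl e = t → L e ∈ U ∧ R e ∈ U).card + 2 * U.card) :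
    ∃ D : Finset E, (∀ t, t ≠ b0 → 2 ≤ (D.filter fun e => bl e = t).card) ∧
      (∀ f, (D.filter fun e => L e = f).card ≤ 2) ∧ ∀ e ∈ D, ∀ e', bl e' = b0 → L e' ≠ L e := by
  classical
  let Root : Finset F := (univ.filter fun e => bl e = b0).image L
  have hRc : Root.card ≤ 3 := Finset.card_image_le.trans (hB b0).le
  have hLR : ∀ e, bl e = b0 → L e ∈ Root := fun e he => Finset.mem_image_of_mem _ (by simpa using he)
  have hRR : ∀ e, bl e = b0 → R e ∈ Root := by
    intro e he
    have h1 : 0 < (univ.filter fun e' => bl e' = b0 ∧ R e' = R e).card :=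
      Finset.card_pos.2 ⟨e, by simp [he]⟩
    rw [← cB] at h1
    obtain ⟨e', he'⟩ := Finset.card_pos.1 h1
    simp only [mem_filter, mem_univ, true_and] at he'
    rw [← he'.2]; exact hLR e' he'.1
  let nb : {e // bl e ≠ b0} → Finset (B ⊕ F × Bool) := fun e =>
    ({bl e.1} : Finset B).disjSum ((({L e.1} : Finset F) \ Root) ×ˢ univ)
  have hall : ∀ C : Finset {e // bl e ≠ b0}, C.card ≤ (C.biUnion nb).card := by
    intro C
    let T : Finset B := C.image fun e => bl e.1
    let V : Finset F := (C.image fun e => L e.1) \ Root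
    have h1 : T.disjSum (V ×ˢ (univ : Finset Bool)) ⊆ C.biUnion nb := by
      intro x hx
      rcases x with t | ⟨f, j⟩
      · simp only [T, Finset.inl_mem_disjSum, mem_image] at hx
        obtain ⟨e, he, rfl⟩ := hx
        exact Finset.mem_biUnion.2 ⟨e, he, by simp [nb]⟩
      · simp only [V, Finset.inr_mem_disjSum, mem_product, mem_sdiff, mem_image, mem_univ, and_true] at hx
        obtain ⟨⟨e, he, rfl⟩, hn⟩ := hx
        exact Finset.mem_biUnion.2 ⟨e, he, by simp [nb, hn]⟩
    have h2 := Finset.card_le_card h1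
    rw [Finset.card_disjSum, Finset.card_product, card_univ, Fintype.card_bool] at h2
    let U : Finset F := V ∪ Root
    have hUc : U.card ≤ V.card + 3 := (Finset.card_union_le _ _).trans (by omega)
    have hU0 : ∀ e, bl e = b0 → L e ∈ U ∧ R e ∈ U := fun e he =>
      ⟨Finset.mem_union_right _ (hLR e he), Finset.mem_union_right _ (hRR e he)⟩
    have h3 := hE U hU0
    have h4 : C.card ≤ ∑ t ∈ T, (univ.filter fun e => bl e = t ∧ L e ∈ U).card := by
      rw [Finset.card_eq_sum_card_fiberwise (f := fun e => bl e.1) (t := T)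
        (fun e he => Finset.mem_image_of_mem _ he)]
      refine Finset.sum_le_sum fun t _ => ?_
      refine Finset.card_le_card_of_injOn (fun e => e.1) ?_ (fun a _ b _ h => Subtype.ext h)
      intro e he
      simp only [coe_filter, mem_univ, true_and, Set.mem_setOf_eq] at he ⊢
      refine ⟨he.2, ?_⟩
      by_cases hr : L e.1 ∈ Root
      · exact Finset.mem_union_right _ hr
      · exact Finset.mem_union_left _ (Finset.mem_sdiff.2 ⟨Finset.mem_image_of_mem _ he.1, hr⟩)
    have h5 := Finset.sum_le_sum (s := T) fun t _ => local_ineq bl L R hB cB U t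
    simp only [Finset.sum_add_distrib, Finset.sum_const, smul_eq_mul, mul_one] at h5
    have h6 : (univ.filter fun e => L e ∈ U ∧ R e ∈ U).card =
        ∑ t, (univ.filter fun e => bl e = t ∧ (L e ∈ U ∧ R e ∈ U)).card := by
      rw [Finset.card_eq_sum_card_fiberwise (f := bl) (t := univ) (by simp)]
      refine Finset.sum_congr rfl fun t _ => ?_
      rw [Finset.filter_filter]
      congr 1; ext e; simp only [mem_filter, mem_univ, true_and]; tauto
    have h7 : (univ.filter fun t => ∀ e, bl e = t → L e ∈ U ∧ R e ∈ U).card =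
        ∑ t, (if ∀ e, bl e = t → L e ∈ U ∧ R e ∈ U then 1 else 0) := by
      rw [Finset.card_filter]
    rw [← Finset.sum_add_sum_compl T] at h6 h7
    have hb : b0 ∈ Tᶜ := by
      simp only [T, mem_compl, mem_image, not_exists, not_and]
      intro e _; exact e.2
    have hfull : ∀ t, (∀ e, bl e = t → L e ∈ U ∧ R e ∈ U) →
        (univ.filter fun e => bl e = t ∧ (L e ∈ U ∧ R e ∈ U)).card = 3 := by
      intro t ht
      rw [← hB t]; congr 1; ext e; simp only [mem_filter, mem_univ, true_and]
      exact ⟨fun h => h.1, fun h => ⟨h, ht e h⟩⟩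
    have h8 : ∑ t ∈ Tᶜ, (if ∀ e, bl e = t → L e ∈ U ∧ R e ∈ U then 1 else 0) + 2 ≤
        ∑ t ∈ Tᶜ, (univ.filter fun e => bl e = t ∧ (L e ∈ U ∧ R e ∈ U)).card := by
      rw [← Finset.add_sum_erase _ _ hb, ← Finset.add_sum_erase _ _ hb, if_pos hU0, hfull b0 hU0]
      have : ∑ t ∈ Tᶜ.erase b0, (if ∀ e, bl e = t → L e ∈ U ∧ R e ∈ U then 1 else 0) ≤
          ∑ t ∈ Tᶜ.erase b0, (univ.filter fun e => bl e = t ∧ (L e ∈ U ∧ R e ∈ U)).card := by
        refine Finset.sum_le_sum fun t _ => ?_
        split_ifs with h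
        · rw [hfull t h]; omega
        · omega
      omega
    omega
  obtain ⟨g, hg, hgm⟩ := (Finset.all_card_le_biUnion_card_iff_exists_injective nb).1 hall
  have hcase : ∀ e, g e = .inl (bl e.1) ∨ (L e.1 ∉ Root ∧ ∃ j, g e = .inr (L e.1, j)) := by
    intro e
    have h := hgm e
    rcases hx : g e with t | ⟨f, j⟩
    · rw [hx] at h; simp only [nb, Finset.inl_mem_disjSum, mem_singleton] at h
      exact Or.inl (by rw [h])
    · rw [hx] at h
      simp only [nb, Finset.inr_mem_disjSum, mem_product, mem_sdiff, mem_singleton, mem_univ, and_true] at h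
      obtain ⟨rfl, h2⟩ := h
      exact Or.inr ⟨h2, j, rfl⟩
  let D : Finset E := univ.filter fun e => ∃ h : bl e ≠ b0, g ⟨e, h⟩ ≠ .inl (bl e)
  refine ⟨D, ?_, ?_, ?_⟩
  · intro t ht
    have a1 := Finset.card_filter_add_card_filter_not (s := univ.filter fun e => bl e = t) (fun e => e ∈ D)
    have a2 : ((univ.filter fun e => bl e = t).filter fun e => e ∉ D).card ≤ 1 := by
      rw [Finset.card_le_one]
      intro a ha b hb
      simp only [D, mem_filter, mem_univ, true_and, not_exists, not_not] at ha hb
      have h1 := ha.2 (by rw [ha.1]; exact ht)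
      have h2 := hb.2 (by rw [hb.1]; exact ht)
      have := hg (h1.trans (by rw [ha.1, ← hb.1]) |>.trans h2.symm)
      exact congrArg Subtype.val this
    have a3 : ((univ.filter fun e => bl e = t).filter fun e => e ∈ D) = D.filter fun e => bl e = t := by
      ext e; simp only [mem_filter, mem_univ, true_and]; exact and_comm
    rw [hB t, a3] at a1
    omega
  · intro f
    have : (D.filter fun e => L e = f).card ≤ (({f} : Finset F) ×ˢ (univ : Finset Bool)).card := by
      rw [← Finset.card_map (s := ({f} : Finset F) ×ˢ (univ : Finset Bool))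
        ⟨Sum.inr (α := B), Sum.inr_injective⟩]
      refine Finset.card_le_card_of_injOn
        (fun e => if h : bl e ≠ b0 then g ⟨e, h⟩ else .inl b0) ?_ ?_
      · intro e he
        simp only [D, coe_filter, mem_filter, mem_univ, true_and, Set.mem_setOf_eq] at he
        obtain ⟨⟨h, h1⟩, rfl⟩ := he
        rcases hcase ⟨e, h⟩ with h2 | ⟨_, j, h2⟩
        · exact absurd h2 h1
        · simp only [dif_pos h, h2]; simp
      · intro a ha b hb hab
        simp only [D, coe_filter, mem_filter, mem_univ, true_and, Set.mem_setOf_eq] at ha hb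
        obtain ⟨⟨h1, _⟩, _⟩ := ha
        obtain ⟨⟨h2, _⟩, _⟩ := hb
        simp only [dif_pos h1, dif_pos h2] at hab
        exact congrArg Subtype.val (hg hab)
    simpa using this
  · intro e he e' he' hLL
    simp only [D, mem_filter, mem_univ, true_and] at he
    obtain ⟨h, h1⟩ := he
    rcases hcase ⟨e, h⟩ with h2 | ⟨h2, _⟩
    · exact h1 h2
    · exact h2 (hLL ▸ hLR e' he')

/-- second Hall step -/
theorem split_D {I P : Type} [Fintype I] [Fintype P] [DecidableEq I] [DecidableEq P]
    (A : I → P → Prop) [∀ t f, Decidable (A t f)] (hcard : Fintype.card I = Fintype.card P)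
    (h1 : ∀ t, 2 ≤ (univ.filter fun f => A t f).card)
    (h2 : ∀ f, (univ.filter fun t => A t f).card ≤ 2) :
    ∃ r s : I ≃ P, ∀ t, A t (r t) ∧ A t (s t) ∧ r t ≠ s t := by
  classical
  have hall : ∀ Z : Finset I, Z.card ≤ (Z.biUnion fun t => univ.filter fun f => A t f).card := by
    intro Z
    have := Finset.card_mul_le_card_mul (s := Z) (t := Z.biUnion fun t => univ.filter fun f => A t f)
      (m := 2) (n := 2) A (by
        intro t ht
        refine (h1 t).trans (Finset.card_le_card fun f hf => ?_)
        simp only [mem_filter, mem_univ, true_and] at hf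
        simp only [Finset.mem_bipartiteAbove, mem_biUnion, mem_filter, mem_univ, true_and]
        exact ⟨⟨t, ht, hf⟩, hf⟩) (by
        intro f _
        refine (Finset.card_le_card fun t ht => ?_).trans (h2 f)
        simp only [Finset.mem_bipartiteBelow] at ht
        simp only [mem_filter, mem_univ, true_and]
        exact ht.2)
    omega
  obtain ⟨r, hr, hrm⟩ := (Finset.all_card_le_biUnion_card_iff_exists_injective _).1 hall
  have hrA : ∀ t, A t (r t) := fun t => by simpa using hrm t
  have hrb : Function.Bijective r := (Fintype.bijective_iff_injective_and_card r).2 ⟨hr, hcard⟩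
  have hs : ∀ t, ∃ f, A t f ∧ f ≠ r t := by
    intro t
    obtain ⟨f, hf, hne⟩ := Finset.exists_mem_ne (s := univ.filter fun f => A t f) (h1 t) (r t)
    exact ⟨f, by simpa using hf, hne⟩
  choose s hsA hsr using hs
  have hsi : Function.Injective s := by
    intro a b hab
    by_contra hne
    obtain ⟨c, hc⟩ := hrb.2 (s a)
    have hca : c ≠ a := by rintro rfl; exact hsr c hc.symm
    have hcb : c ≠ b := by rintro rfl; exact hsr c (hab.symm.trans hc.symm)
    have : ({a, b, c} : Finset I) ⊆ univ.filter fun t => A t (s a) := by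
      intro t ht
      simp only [mem_insert, mem_singleton] at ht
      simp only [mem_filter, mem_univ, true_and]
      rcases ht with rfl | rfl | rfl
      · exact hsA _
      · rw [hab]; exact hsA _
      · rw [← hc]; exact hrA _
    have h3 := (Finset.card_le_card this).trans (h2 (s a))
    rw [Finset.card_eq_three.2 ⟨a, b, c, hne, hca.symm, hcb.symm, rfl⟩] at h3
    omega
  have hsb : Function.Bijective s := (Fintype.bijective_iff_injective_and_card s).2 ⟨hsi, hcard⟩
  exact ⟨Equiv.ofBijective r hrb, Equiv.ofBijective s hsb, fun t => ⟨hrA t, hsA t, (hsr t).symm⟩⟩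

theorem L_inj (bl : E → B) (L R : E → F)
    (hB : ∀ t, (univ.filter fun e => bl e = t).card = 3)
    (cB : ∀ t f, (univ.filter fun e => bl e = t ∧ L e = f).card =
      (univ.filter fun e => bl e = t ∧ R e = f).card) (hLR : ∀ e, L e ≠ R e)
    (a b : E) (hab : bl a = bl b) (hL : L a = L b) : a = b := by
  by_contra hne
  have h1 : 2 ≤ (univ.filter fun e => bl e = bl a ∧ L e = L a).card := by
    rw [← Finset.card_pair hne]
    refine Finset.card_le_card fun e he => ?_
    simp only [mem_insert, mem_singleton] at he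
    rcases he with rfl | rfl <;> simp [hab, hL]
  have h2 : Disjoint (univ.filter fun e => bl e = bl a ∧ L e = L a)
      (univ.filter fun e => bl e = bl a ∧ R e = L a) := by
    rw [Finset.disjoint_filter]
    rintro e _ ⟨_, h3⟩ ⟨_, h4⟩
    exact hLR e (h3.trans h4.symm)
  have h3 : ((univ.filter fun e => bl e = bl a ∧ L e = L a) ∪
      (univ.filter fun e => bl e = bl a ∧ R e = L a)).card ≤ 3 := by
    rw [← hB (bl a)]
    refine Finset.card_le_card fun e he => ?_
    simp only [mem_union, mem_filter, mem_univ, true_and] at he ⊢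
    rcases he with h | h <;> exact h.1
  rw [Finset.card_union_of_disjoint h2, ← cB] at h3
  omega

/-- part (C): a pair exists -/
theorem pair_exists (bl : E → B) (wh : E → W) (L R : E → F)
    (hB : ∀ t, (univ.filter fun e => bl e = t).card = 3)
    (hW : ∀ t, (univ.filter fun e => wh e = t).card = 3)
    (cB : ∀ t f, (univ.filter fun e => bl e = t ∧ L e = f).card =
      (univ.filter fun e => bl e = t ∧ R e = f).card)
    (cW : ∀ t f, (univ.filter fun e => wh e = t ∧ L e = f).card =
      (univ.filter fun e => wh e = t ∧ R e = f).card)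
    (dconn : ∀ y : F → Prop, (∀ e, y (L e) ↔ y (R e)) → ∀ f g, y f → y g)
    (cut3 : ∀ (X : B ⊕ W → Prop) [DecidablePred X] (u v : B ⊕ W), X u → ¬ X v →
      3 ≤ (univ.filter fun e => ¬ (X (.inl (bl e)) ↔ X (.inr (wh e)))).card)
    (hF : Fintype.card F = Fintype.card B + 2) (hLR : ∀ e, L e ≠ R e) (b0 : B)
    (nobad : ∀ (X : B ⊕ W → Prop) [DecidablePred X], ¬ X (.inl b0) →
      (univ.filter fun e => ¬ (X (.inl (bl e)) ↔ X (.inr (wh e)))).card = 3 →
      (∀ e, X (.inr (wh e)) → X (.inl (bl e))) → ∀ w, ¬ X (.inr w)) :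
    ∃ r s : {b // b ≠ b0} ≃ {f // ¬ ∃ e, bl e = b0 ∧ L e = f}, ∀ b,
      (∃ e, bl e = b.1 ∧ L e = (r b).1) ∧ (∃ e, bl e = b.1 ∧ L e = (s b).1) ∧ r b ≠ s b := by
  classical
  obtain ⟨D, d1, d2, d3⟩ := exists_D bl L R hB cB b0
    (euler_ineq bl wh L R hB hW cB cW dconn cut3 hF b0 nobad)
  have hinj := L_inj bl L R hB cB hLR
  have hcard : Fintype.card {b // b ≠ b0} = Fintype.card {f // ¬ ∃ e, bl e = b0 ∧ L e = f} := by
    rw [Fintype.card_subtype_compl, Fintype.card_subtype_compl, Fintype.card_subtype_eq]
    have : Fintype.card {f // ∃ e, bl e = b0 ∧ L e = f} = 3 := by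
      rw [Fintype.card_subtype, ← hB b0, ← Finset.card_image_of_injOn (f := L)
        (s := univ.filter fun e => bl e = b0) (by
          intro a ha b hb hab
          simp only [coe_filter, mem_univ, true_and, Set.mem_setOf_eq] at ha hb
          exact hinj a b (ha.trans hb.symm) hab)]
      congr 1; ext f; simp
    rw [this, hF]
    have : 0 < Fintype.card B := Fintype.card_pos_iff.2 ⟨b0⟩
    omega
  obtain ⟨r, s, hrs⟩ := split_D (I := {b // b ≠ b0}) (P := {f // ¬ ∃ e, bl e = b0 ∧ L e = f})
    (fun b f => ∃ e ∈ D, bl e = b.1 ∧ L e = f.1) hcard (by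
      intro t
      obtain ⟨a, ha, b, hb, hab⟩ := Finset.one_lt_card.1 (d1 t.1 t.2)
      simp only [mem_filter] at ha hb
      refine Finset.one_lt_card.2 ⟨⟨L a, fun ⟨e, h1, h2⟩ => d3 a ha.1 e h1 h2⟩, ?_,
        ⟨L b, fun ⟨e, h1, h2⟩ => d3 b hb.1 e h1 h2⟩, ?_, ?_⟩
      · simp only [mem_filter, mem_univ, true_and]; exact ⟨a, ha.1, ha.2, rfl⟩
      · simp only [mem_filter, mem_univ, true_and]; exact ⟨b, hb.1, hb.2, rfl⟩
      · intro h
        exact hab (hinj a b (ha.2.trans hb.2.symm) (congrArg Subtype.val h))) (by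
      intro f
      refine le_trans ?_ (d2 f.1)
      rw [← Finset.card_map (s := univ.filter fun t : {b // b ≠ b0} => ∃ e ∈ D, bl e = t.1 ∧ L e = f.1)
        ⟨Subtype.val, Subtype.val_injective⟩]
      refine le_trans (Finset.card_le_card (t := (D.filter fun e => L e = f.1).image bl) ?_)
        Finset.card_image_le
      intro t ht
      simp only [mem_map, mem_filter, mem_univ, true_and, Function.Embedding.coeFn_mk] at ht
      obtain ⟨t', ⟨e, h1, h2, h3⟩, rfl⟩ := ht
      exact Finset.mem_image.2 ⟨e, Finset.mem_filter.2 ⟨h1, h3⟩, h2⟩)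
  exact ⟨r, s, fun b => ⟨(hrs b).1.imp fun e h => h.2, (hrs b).2.1.imp fun e h => h.2, (hrs b).2.2⟩⟩

end Crest.Agent.R39.HallX
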