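import Crest.Agent.R39.Defs
import Crest.Agent.R39.HallX
/-! Row 39, part (C) for `Mp`. -/
set_option autoImplicit false
set_option linter.unusedSectionVars false
open Finset
namespace Crest.Agent.R39.HallW
variable {E B W F : Type} [Fintype E] [DecidableEq E] [Fintype B] [DecidableEq B]
  [Fintype W] [DecidableEq W] [Fintype F] [DecidableEq F]

theorem mem_RF (G : Mp E B W F) (b : B) (f : F) : f ∈ G.RF b ↔ ∃ e, G.bl e = b ∧ G.L e = f := by
  simp [Mp.RF]

theorem cut_eq (G : Mp E B W F) (X : B ⊕ W → Prop) [DecidablePred X] :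
    (univ.filter fun e => ¬ (X (.inl (G.bl e)) ↔ X (.inr (G.wh e)))).card =
      G.pc (univ.filter fun b => X (.inl b)) (univ.filter fun w => X (.inr w)) +
      G.qc (univ.filter fun b => X (.inl b)) (univ.filter fun w => X (.inr w)) := by
  unfold Mp.pc Mp.qc
  rw [← Finset.card_union_of_disjoint]
  · congr 1; ext e
    simp only [mem_filter, mem_univ, true_and, mem_union]; tauto
  · rw [Finset.disjoint_filter]
    intro e _ h1 h2; exact h2.1 h1.1

theorem dconnP (G : Mp E B W F) (hG : G.Good1) (y : F → Prop) (hy : ∀ e, y (G.L e) ↔ y (G.R e))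
    (f g : F) (hf : y f) : y g := by
  classical
  have := hG.dconn (fun f => if y f then 1 else 0) (fun e => by simp only [hy e]) f g
  by_contra hg
  simp [hf, hg] at this

theorem cut3P (G : Mp E B W F) (hG : G.Good0) (X : B ⊕ W → Prop) [DecidablePred X] (u v : B ⊕ W)
    (hu : X u) (hv : ¬ X v) :
    3 ≤ (univ.filter fun e => ¬ (X (.inl (G.bl e)) ↔ X (.inr (G.wh e)))).card := by
  rw [cut_eq]
  refine hG.cut3 _ _ ?_ ?_
  · rcases u with b | w
    · exact Or.inl ⟨b, by simpa using hu⟩
    · exact Or.inr ⟨w, by simpa using hu⟩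
  · rcases v with b | w
    · left; intro h; have := h ▸ mem_univ b; exact hv (by simpa using this)
    · right; intro h; have := h ▸ mem_univ w; exact hv (by simpa using this)

theorem pair_of_noBad (G : Mp E B W F) (hG : G.Good) (hLR : ∀ e, G.L e ≠ G.R e) (b0 : B)
    (hn : G.NoBad b0) : ∃ r s : B' b0 ≃ G.F' b0, ∀ b,
      (r b).1 ∈ G.RF b.1 ∧ (s b).1 ∈ G.RF b.1 ∧ r b ≠ s b := by
  obtain ⟨r, s, h⟩ := HallX.pair_exists G.bl G.wh G.L G.R hG.degB hG.degW hG.clB hG.clW
    (dconnP G hG.toGood1) (fun X _ u v hu hv => cut3P G hG.toGood0 X u v hu hv) hG.euler hLR b0 (by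
      intro X _ h0 h3 hcl w hw
      refine hn (univ.filter fun b => X (.inl b)) (univ.filter fun w => X (.inr w)) (by simpa using h0)
        ⟨w, by simpa using hw⟩ ?_
      rw [cut_eq] at h3
      have : G.qc (univ.filter fun b => X (.inl b)) (univ.filter fun w => X (.inr w)) = 0 := by
        unfold Mp.qc
        rw [Finset.card_eq_zero, Finset.filter_eq_empty_iff]
        intro e _
        simp only [mem_filter, mem_univ, true_and, not_and]
        exact fun h1 h2 => h1 (hcl e h2)
      omega)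
  let q : {f // ¬ ∃ e, G.bl e = b0 ∧ G.L e = f} ≃ G.F' b0 :=
    Equiv.subtypeEquivRight fun f => by rw [mem_RF]
  refine ⟨r.trans q, s.trans q, fun b => ⟨(mem_RF G _ _).2 (h b).1, (mem_RF G _ _).2 (h b).2.1, ?_⟩⟩
  exact fun hh => (h b).2.2 (q.injective hh)

end Crest.Agent.R39.HallW
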