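import Crest.Agent.R39.Basic2
import Crest.Agent.R39.ExactM
import Crest.Agent.R39.HallW

set_option autoImplicit false
set_option linter.unusedSectionVars false
open Finset

namespace Crest.Agent.R39
namespace Mp
variable {E B W F : Type} [Fintype E] [DecidableEq E] [Fintype B] [DecidableEq B]
  [Fintype W] [DecidableEq W] [Fintype F] [DecidableEq F]

/-- part (C) in one step: replaces `C2 h b0 (C1 h b0 hnb)` -/
theorem CC {G : Mp E B W F} (h : G.Good) (b0 : B) (hnb : G.NoBad b0) :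
    ∃ r s : B' b0 ≃ G.F' b0, ∀ b : B' b0, G.J b.1 (r b).1 (s b).1 ≠ 0 := by
  obtain ⟨r, s, hrs⟩ := HallW.pair_of_noBad G h (LR h) b0 hnb
  refine ⟨r, s, fun b => (J_ne_iff h.toGood0 (LR h) _ _ _).2 ⟨(hrs b).1, (hrs b).2.1, ?_⟩⟩
  exact fun hh => (hrs b).2.2 (Subtype.ext hh)

end Mp
end Crest.Agent.R39
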