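import Crest.Agent.R39.Basic2
import Crest.Agent.R39.RL
import Crest.Agent.R39.ExactM

set_option autoImplicit false
set_option linter.unusedSectionVars false
open Finset

namespace Crest.Agent.R39
namespace Mp
variable {E B W F : Type} [Fintype E] [DecidableEq E] [Fintype B] [DecidableEq B]
  [Fintype W] [DecidableEq W] [Fintype F] [DecidableEq F]

theorem d1_card_sub {p : E → Prop} [Fintype {e // p e}] (Q : {e // p e} → Prop) [DecidablePred Q]
    (Q' : E → Prop) [DecidablePred Q'] (h1 : ∀ e, Q' e → p e)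
    (h2 : ∀ e (h : p e), Q ⟨e, h⟩ ↔ Q' e) :
    (univ.filter Q).card = (univ.filter Q').card := by
  refine Finset.card_bij (fun e _ => e.1) ?_ ?_ ?_
  · intro a ha
    simp only [mem_filter, mem_univ, true_and] at ha ⊢
    exact (h2 a.1 a.2).1 ha
  · intro a _ b _ hab
    exact Subtype.ext hab
  · intro b hb
    simp only [mem_filter, mem_univ, true_and] at hb
    refine ⟨⟨b, h1 b hb⟩, ?_, rfl⟩
    simp only [mem_filter, mem_univ, true_and]
    exact (h2 b _).2 hb

theorem d1_q0 {G : Mp E B W F} {YB : Finset B} {YW : Finset W} (hq : G.qc YB YW = 0) (e : E)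
    (he : G.wh e ∈ YW) : G.bl e ∈ YB := by
  by_contra hb
  have : e ∈ (univ.filter fun e => G.bl e ∉ YB ∧ G.wh e ∈ YW) := by simp [hb, he]
  rw [Finset.card_eq_zero.mp hq] at this
  simp at this

theorem d1_cl {G : Mp E B W F} (h : G.Good0) {YB : Finset B} {YW : Finset W}
    (hq : G.qc YB YW = 0) (w : F) :
    (univ.filter fun e => (G.bl e ∈ YB ∧ G.wh e ∉ YW) ∧ G.L e = w).card =
      (univ.filter fun e => (G.bl e ∈ YB ∧ G.wh e ∉ YW) ∧ G.R e = w).card := by
  have hc := closed_d h (fun b => if b ∈ YB then (-1 : ℚ) else 0)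
    (fun t => if t ∈ YW then (-1 : ℚ) else 0) w
  have hx : ∀ e, ((if G.wh e ∈ YW then (-1 : ℚ) else 0) - (if G.bl e ∈ YB then (-1 : ℚ) else 0)) =
      if (G.bl e ∈ YB ∧ G.wh e ∉ YW) then (1 : ℚ) else 0 := by
    intro e
    have := d1_q0 hq e
    by_cases h1 : G.wh e ∈ YW
    · simp [h1, this h1]
    · by_cases h2 : G.bl e ∈ YB <;> simp [h1, h2]
  simp only [hx, Finset.sum_boole, Finset.filter_filter] at hc
  have hc' := Nat.cast_injective (R := ℚ) hc
  simpa only [and_comm] using hc'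

theorem d1_bl_none (G : Mp E B W F) (YB : Finset B) (YW : Finset W) (e : E) (he : G.wh e ∉ YW) :
    (G.con YB YW).bl ⟨e, he⟩ = none ↔ G.bl e ∈ YB := by
  by_cases hb : G.bl e ∈ YB <;> simp [con, hb]

theorem d1_bl_some (G : Mp E B W F) (YB : Finset B) (YW : Finset W) (e : E) (he : G.wh e ∉ YW)
    (b : {b // b ∉ YB}) :
    (G.con YB YW).bl ⟨e, he⟩ = some b ↔ G.bl e = b.1 := by
  by_cases hb : G.bl e ∈ YB
  · simp only [con, hb, dif_pos]
    constructor
    · intro h; cases h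
    · intro h; exact absurd (h ▸ hb) b.2
  · simp [con, hb, Subtype.ext_iff]

theorem d1_good0 {G : Mp E B W F} (h : G.Good0) (YB : Finset B) (YW : Finset W)
    (hp : G.pc YB YW = 3) (hq : G.qc YB YW = 0) : (G.con YB YW).Good0 := by
  have hq' : ∀ e, G.bl e ∉ YB → G.wh e ∉ YW := fun e h1 h2 => h1 (d1_q0 hq e h2)
  have hL : ∀ e (he : G.wh e ∉ YW) w, (G.con YB YW).L ⟨e, he⟩ = w ↔ G.L e = w.1 :=
    fun e he w => Subtype.ext_iff
  have hR : ∀ e (he : G.wh e ∉ YW) w, (G.con YB YW).R ⟨e, he⟩ = w ↔ G.R e = w.1 :=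
    fun e he w => Subtype.ext_iff
  have hW : ∀ e (he : G.wh e ∉ YW) t, (G.con YB YW).wh ⟨e, he⟩ = t ↔ G.wh e = t.1 :=
    fun e he w => Subtype.ext_iff
  obtain ⟨c0, hc0⟩ : ∃ e, G.bl e ∈ YB ∧ G.wh e ∉ YW := by
    have : (univ.filter fun e => G.bl e ∈ YB ∧ G.wh e ∉ YW).Nonempty := by
      rw [← Finset.card_pos]
      unfold pc at hp
      omega
    obtain ⟨e, he⟩ := this
    exact ⟨e, by simpa using he⟩
  refine ⟨?_, ?_, ?_, ?_, ?_, ?_, inferInstance⟩
  · rintro (_ | b)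
    · rw [← hp]
      exact d1_card_sub _ _ (fun e he => he.2)
        (fun e he => by rw [d1_bl_none]; exact ⟨fun h => ⟨h, he⟩, fun h => h.1⟩)
    · rw [← h.degB b.1]
      exact d1_card_sub _ _ (fun e he => hq' e (he ▸ b.2)) (fun e he => d1_bl_some G YB YW e he b)
  · intro t
    rw [← h.degW t.1]
    exact d1_card_sub _ _ (fun e he => he ▸ t.2) (fun e he => hW e he t)
  · rintro ⟨w, e, he, h1 | h1⟩
    · exact ⟨⟨e, he⟩, Subtype.ext h1⟩
    · have hpos : 0 < (univ.filter fun e' => G.wh e' = G.wh e ∧ G.L e' = w).card := by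
        rw [h.clW, Finset.card_pos]
        exact ⟨e, by simp [h1]⟩
      obtain ⟨e', he'⟩ := Finset.card_pos.1 hpos
      simp only [mem_filter, mem_univ, true_and] at he'
      exact ⟨⟨e', he'.1 ▸ he⟩, Subtype.ext he'.2⟩
  · rintro (_ | b) w
    · refine (d1_card_sub _ _ (fun e he => he.1.2) (fun e he => ?_)).trans
        ((d1_cl h hq w.1).trans (d1_card_sub _ _ (fun e he => he.1.2) (fun e he => ?_)).symm)
      · rw [d1_bl_none, hL]; simp [he]
      · rw [d1_bl_none, hR]; simp [he]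
    · refine (d1_card_sub _ (fun e => G.bl e = b.1 ∧ G.L e = w.1)
        (fun e he => hq' e (by rw [he.1]; exact b.2)) (fun e he => ?_)).trans
        ((h.clB b.1 w.1).trans
          (d1_card_sub _ (fun e => G.bl e = b.1 ∧ G.R e = w.1)
            (fun e he => hq' e (by rw [he.1]; exact b.2)) (fun e he => ?_)).symm)
      · rw [d1_bl_some, hL]
      · rw [d1_bl_some, hR]
  · intro t w
    refine (d1_card_sub _ _ (fun e he => he.1 ▸ t.2) (fun e he => ?_)).trans
        ((h.clW t.1 w.1).trans (d1_card_sub _ _ (fun e he => he.1 ▸ t.2) (fun e he => ?_)).symm)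
    · rw [hW, hL]
    · rw [hW, hR]
  · intro ZB ZW hne hnu
    let φ : B → Option {b // b ∉ YB} := fun b => if hb : b ∈ YB then none else some ⟨b, hb⟩
    let TB : Finset B := univ.filter fun b => φ b ∈ ZB
    let TW : Finset W := univ.filter fun t =>
      if ht : t ∈ YW then none ∈ ZB else (⟨t, ht⟩ : {t // t ∉ YW}) ∈ ZW
    have hTB : ∀ b, b ∈ TB ↔ φ b ∈ ZB := fun b => by simp [TB]
    have hTW1 : ∀ t, t ∈ YW → (t ∈ TW ↔ none ∈ ZB) := fun t ht => by simp [TW, ht]
    have hTW2 : ∀ t (ht : t ∉ YW), t ∈ TW ↔ (⟨t, ht⟩ : {t // t ∉ YW}) ∈ ZW :=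
      fun t ht => by simp [TW, ht]
    have hφ1 : ∀ b, b ∈ YB → φ b = none := fun b hb => by simp [φ, hb]
    have hφ2 : ∀ b : {b // b ∉ YB}, φ b.1 = some b := fun b => by simp [φ, b.2]
    have hsurj : ∀ x, ∃ b, φ b = x := by
      rintro (_ | b)
      · exact ⟨_, hφ1 _ hc0.1⟩
      · exact ⟨_, hφ2 b⟩
    have hin : ∀ e, G.wh e ∈ YW → (G.bl e ∈ TB ↔ G.wh e ∈ TW) := fun e he => by
      rw [hTB, hTW1 _ he, hφ1 _ (d1_q0 hq e he)]
    have h3 := h.cut3 TB TW ?_ ?_
    · have e1 : (G.con YB YW).pc ZB ZW = G.pc TB TW := by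
        refine d1_card_sub _ _ (fun e he hw => he.2 ((hin e hw).1 he.1)) (fun e he => ?_)
        rw [hTB, hTW2 _ he]
        exact Iff.rfl
      have e2 : (G.con YB YW).qc ZB ZW = G.qc TB TW := by
        refine d1_card_sub _ _ (fun e he hw => he.1 ((hin e hw).2 he.2)) (fun e he => ?_)
        rw [hTB, hTW2 _ he]
        exact Iff.rfl
      rw [e1, e2]
      exact h3
    · rcases hne with ⟨x, hx⟩ | ⟨t, ht⟩
      · obtain ⟨b, rfl⟩ := hsurj x
        exact Or.inl ⟨b, (hTB b).2 hx⟩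
      · exact Or.inr ⟨t.1, (hTW2 t.1 t.2).2 ht⟩
    · rcases hnu with hx | hx
      · left
        intro hu
        apply hx
        refine Finset.eq_univ_of_forall fun x => ?_
        obtain ⟨b, rfl⟩ := hsurj x
        exact (hTB b).1 (hu ▸ mem_univ b)
      · right
        intro hu
        apply hx
        refine Finset.eq_univ_of_forall fun t => ?_
        exact (hTW2 t.1 t.2).1 (hu ▸ mem_univ t.1)

theorem D1 {G : Mp E B W F} (h : G.Good) (YB : Finset B) (YW : Finset W)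
    (hp : G.pc YB YW = 3) (hq : G.qc YB YW = 0) : (G.con YB YW).Good1 :=
  good1_of_LR (d1_good0 h.toGood0 YB YW hp hq)
    (fun e he => LR h e.1 (congrArg Subtype.val he))

/-- the three faces `L c` of the cut edges `c` are distinct -/
theorem D2 {G : Mp E B W F} (h : G.Good) (YB : Finset B) (YW : Finset W)
    (hp : G.pc YB YW = 3) (hq : G.qc YB YW = 0) :
    ((univ.filter fun e => G.bl e ∈ YB ∧ G.wh e ∉ YW).image G.L).card = 3 := by
  have hS : (univ.filter fun e => G.bl e ∈ YB ∧ G.wh e ∉ YW).card = 3 := hp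
  obtain ⟨e0, he0⟩ : (univ.filter fun e => G.bl e ∈ YB ∧ G.wh e ∉ YW).Nonempty := by
    rw [← Finset.card_pos]; omega
  obtain ⟨e1, e2, -, -, -, hE, -, -, -, n1, n2, n3⟩ := loc3 G.L G.R _ hS
    (fun w => by
      rw [Finset.filter_filter, Finset.filter_filter]
      exact d1_cl h.toGood0 hq w)
    (fun e _ => LR h e) e0 he0
  rw [hE, Finset.card_eq_three]
  exact ⟨G.L e0, G.L e1, G.L e2, n1, n2, n3, by simp⟩

end Mp
end Crest.Agent.R39
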