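import Crest.Agent.R39.D1

set_option autoImplicit false
set_option linter.unusedSectionVars false
open Finset

namespace Crest.Agent.R39
namespace Mp
variable {E B W F : Type} [Fintype E] [DecidableEq E] [Fintype B] [DecidableEq B]
  [Fintype W] [DecidableEq W] [Fintype F] [DecidableEq F]

theorem D3 {G : Mp E B W F} (h : G.Good) (b0 : B) (YB : Finset B) (YW : Finset W) (hb0 : b0 ∉ YB)
    (hne : YW.Nonempty) (hp : G.pc YB YW = 3) (hq : G.qc YB YW = 0) :
    (G.con YB YW).Good ∧ (G.swap.con YWᶜ YBᶜ).Good ∧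
      Fintype.card (Option {b // b ∉ YB}) < Fintype.card B ∧
      Fintype.card (Option {t // t ∉ YWᶜ}) < Fintype.card B := by
  classical
  have g1 := D1 h YB YW hp hq
  have g2 := D1 (swap_good h) YWᶜ YBᶜ ((pc_swap G YB YW).1.trans hp) ((pc_swap G YB YW).2.trans hq)
  have e1 := euler_le g1
  have e2 := euler_le g2
  have hc := cutcount h.toGood0 YB YW
  have hd := D2 h YB YW hp hq
  have c1 : Fintype.card (Option {b // b ∉ YB}) + YB.card = Fintype.card B + 1 := by
    rw [Fintype.card_option, Fintype.card_subtype]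
    have : (univ.filter fun b => b ∉ YB) = YBᶜ := by ext b; simp
    rw [this, card_compl]
    have := card_le_univ YB
    omega
  have c2 : Fintype.card (Option {t // t ∉ YWᶜ}) = YW.card + 1 := by
    rw [Fintype.card_option, Fintype.card_subtype]
    have : (univ.filter fun t => t ∉ YWᶜ) = YW := by ext t; simp
    rw [this]
  have c3 : YB.card < Fintype.card B :=
    card_lt_card (s := YB) (t := univ) ⟨subset_univ _, fun hh => hb0 (hh (mem_univ b0))⟩
  have c4 : 0 < YW.card := card_pos.2 hne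
  set F1 := univ.filter fun w => ∃ e, G.wh e ∉ YW ∧ (G.L e = w ∨ G.R e = w) with hF1
  set F2 := univ.filter fun w => ∃ e, G.swap.wh e ∉ YBᶜ ∧ (G.swap.L e = w ∨ G.swap.R e = w)
    with hF2
  have f1 : Fintype.card {w // ∃ e, G.wh e ∉ YW ∧ (G.L e = w ∨ G.R e = w)} = F1.card := by
    rw [Fintype.card_subtype]
  have f2 : Fintype.card {w // ∃ e, G.swap.wh e ∉ YBᶜ ∧ (G.swap.L e = w ∨ G.swap.R e = w)}
      = F2.card := by
    rw [Fintype.card_subtype]
  have hun : F1 ∪ F2 = univ := by
    refine eq_univ_of_forall fun w => ?_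
    obtain ⟨e, rfl⟩ := h.surj w
    rw [mem_union]
    by_cases hw : G.wh e ∈ YW
    · right
      have hb : G.bl e ∈ YB := by
        by_contra hb
        have : e ∈ (univ.filter fun e => G.bl e ∉ YB ∧ G.wh e ∈ YW) := by simp [hb, hw]
        rw [Finset.card_eq_zero.mp hq] at this
        simp at this
      rw [hF2, mem_filter]
      exact ⟨mem_univ _, e, fun hh => (mem_compl.1 hh) hb, Or.inl rfl⟩
    · left
      rw [hF1, mem_filter]
      exact ⟨mem_univ _, e, hw, Or.inl rfl⟩
  have hin : (univ.filter fun e => G.bl e ∈ YB ∧ G.wh e ∉ YW).image G.L ⊆ F1 ∩ F2 := by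
    intro w hw
    obtain ⟨e, he, rfl⟩ := mem_image.1 hw
    obtain ⟨-, hb, hw'⟩ := mem_filter.1 he
    rw [mem_inter, hF1, hF2, mem_filter, mem_filter]
    exact ⟨⟨mem_univ _, e, hw', Or.inl rfl⟩,
      ⟨mem_univ _, e, fun hh => (mem_compl.1 hh) hb, Or.inl rfl⟩⟩
  have h3 := card_le_card hin
  have h4 := card_union_add_card_inter F1 F2
  rw [hun, card_univ, h.euler] at h4
  rw [hd] at h3
  rw [hp, hq] at hc
  refine ⟨⟨g1, ?_⟩, ⟨g2, ?_⟩, by omega, by omega⟩
  · omega
  · omega

end Mp
end Crest.Agent.R39
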