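import Crest.Agent.R39.Basic2

set_option autoImplicit false
set_option linter.unusedSectionVars false
open Finset

namespace Crest.Agent.R39
namespace Mp
variable {E B W F : Type} [Fintype E] [DecidableEq E] [Fintype B] [DecidableEq B]
  [Fintype W] [DecidableEq W] [Fintype F] [DecidableEq F]

theorem D4_two {V : Type} [DecidableEq V] (p : E → V)
    (h3 : ∀ v, (univ.filter fun e => p e = v).card = 3) (M : Finset E)
    (h1 : ∀ v, (M.filter fun e => p e = v).card = 1) (S : Finset V) :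
    (univ.filter fun e => e ∉ M ∧ p e ∈ S).card = 2 * S.card := by
  rw [card_eq_sum_card_fiberwise (f := p) (t := S)
    (fun e he => by simpa using (mem_filter.1 (mem_coe.1 he)).2.2)]
  rw [mul_comm, ← smul_eq_mul, ← sum_const]
  refine sum_congr rfl fun v hv => ?_
  have a := card_filter_add_card_filter_not (s := univ.filter fun e => p e = v) (fun e => e ∈ M)
  have b : ((univ.filter fun e => p e = v).filter fun e => e ∈ M) = M.filter fun e => p e = v := by
    ext e; simp [and_comm]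
  have c : ((univ.filter fun e => e ∉ M ∧ p e ∈ S).filter fun e => p e = v) =
      ((univ.filter fun e => p e = v).filter fun e => ¬ e ∈ M) := by
    ext e
    simp only [mem_filter, mem_univ, true_and]
    constructor
    · rintro ⟨⟨x, -⟩, y⟩; exact ⟨y, x⟩
    · rintro ⟨x, y⟩; exact ⟨⟨y, x ▸ hv⟩, x⟩
  rw [c]; rw [b, h1, h3] at a; omega

theorem D4_par {G : Mp E B W F} (h : G.Good0) (YB : Finset B) (YW : Finset W)
    (hp : G.pc YB YW = 3) (hq : ∀ e, G.wh e ∈ YW → G.bl e ∈ YB) (M : Finset E)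
    (hB : ∀ b, (M.filter fun e => G.bl e = b).card = 1)
    (hW : ∀ t, (M.filter fun e => G.wh e = t).card = 1) (c : E) (hcM : c ∈ M)
    (hc1 : G.bl c ∈ YB) (hc2 : G.wh c ∉ YW)
    (hc : ∀ e ∈ M, G.bl e ∈ YB → G.wh e ∉ YW → e = c) (ZB : Finset B) (ZW : Finset W)
    (hZ : ∀ e, e ∉ M → (G.bl e ∈ ZB ↔ G.wh e ∈ ZW)) :
    ∃ z : Prop, ∀ e, e ∉ M → G.bl e ∈ YB → G.wh e ∉ YW → (G.bl e ∈ ZB ↔ z) := by
  have a1 := D4_two G.bl h.degB M hB (ZB ∩ YB)
  have a2 := D4_two G.wh h.degW M hW (ZW ∩ YW)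
  set K := univ.filter fun e => e ∉ M ∧ G.bl e ∈ YB ∧ G.wh e ∉ YW with hK
  have hKc : K.card = 2 := by
    have : K = (univ.filter fun e => G.bl e ∈ YB ∧ G.wh e ∉ YW).erase c := by
      ext e
      simp only [hK, mem_filter, mem_univ, true_and, mem_erase]
      constructor
      · rintro ⟨x, y⟩; exact ⟨fun hh => x (hh ▸ hcM), y⟩
      · rintro ⟨x, y⟩; exact ⟨fun hh => x (hc e hh y.1 y.2), y⟩
    rw [this, card_erase_of_mem (by simp [hc1, hc2])]
    unfold pc at hp; rw [hp]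
  have a3 := card_filter_add_card_filter_not
    (s := univ.filter fun e => e ∉ M ∧ G.bl e ∈ ZB ∩ YB) (fun e => G.wh e ∈ YW)
  have b1 : ((univ.filter fun e => e ∉ M ∧ G.bl e ∈ ZB ∩ YB).filter fun e => G.wh e ∈ YW) =
      univ.filter fun e => e ∉ M ∧ G.wh e ∈ ZW ∩ YW := by
    ext e
    simp only [mem_filter, mem_univ, true_and, mem_inter]
    constructor
    · rintro ⟨⟨x, y, -⟩, w⟩; exact ⟨x, (hZ e x).1 y, w⟩
    · rintro ⟨x, y, w⟩; exact ⟨⟨x, (hZ e x).2 y, hq e w⟩, w⟩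
  have b2 : ((univ.filter fun e => e ∉ M ∧ G.bl e ∈ ZB ∩ YB).filter fun e => ¬ G.wh e ∈ YW) =
      K.filter fun e => G.bl e ∈ ZB := by
    ext e
    simp only [hK, mem_filter, mem_univ, true_and, mem_inter]
    tauto
  rw [b1, b2, a1, a2] at a3
  have a4 : (K.filter fun e => G.bl e ∈ ZB).card ≤ K.card := card_filter_le _ _
  have hmem : ∀ e, e ∉ M → G.bl e ∈ YB → G.wh e ∉ YW → e ∈ K := fun e x y w => by
    simp [hK, x, y, w]
  by_cases h0 : (K.filter fun e => G.bl e ∈ ZB).card = 0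
  · refine ⟨False, fun e x y w => ⟨fun hh => ?_, False.elim⟩⟩
    exact filter_eq_empty_iff.1 (card_eq_zero.1 h0) (hmem e x y w) hh
  · have : (K.filter fun e => G.bl e ∈ ZB) = K :=
      eq_of_subset_of_card_le (filter_subset _ _) (by omega)
    refine ⟨True, fun e x y w => ⟨fun _ => trivial, fun _ => ?_⟩⟩
    have hh := hmem e x y w
    rw [← this] at hh
    exact (mem_filter.1 hh).2

/-- what `Ham` of a contraction says, on the original edges -/
theorem D4_con (G : Mp E B W F) (YB : Finset B) (YW : Finset W) (e0 : E) (he0 : G.wh e0 ∉ YW)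
    (h1 : (G.con YB YW).Ham ⟨e0, he0⟩) :
    ∃ P : Finset E, e0 ∈ P ∧ (∀ e ∈ P, G.wh e ∉ YW) ∧
      (P.filter fun e => G.bl e ∈ YB).card = 1 ∧
      (∀ b, b ∉ YB → (P.filter fun e => G.bl e = b).card = 1) ∧
      (∀ t, t ∉ YW → (P.filter fun e => G.wh e = t).card = 1) ∧
      ∀ (z : Prop) (ZB : Finset B) (ZW : Finset W),
        (∀ e, e ∉ P → G.wh e ∉ YW → G.bl e ∉ YB → (G.bl e ∈ ZB ↔ G.wh e ∈ ZW)) →
        (∀ e, e ∉ P → G.wh e ∉ YW → G.bl e ∈ YB → (z ↔ G.wh e ∈ ZW)) →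
        (∀ b, b ∉ YB → (b ∈ ZB ↔ z)) ∧ ∀ t, t ∉ YW → (t ∈ ZW ↔ z) := by
  obtain ⟨M, hM0, hB, hW, hX⟩ := h1
  have key : ∀ (p : E → Prop) [DecidablePred p] (q : {e // G.wh e ∉ YW} → Prop) [DecidablePred q],
      (∀ e, p e.1 ↔ q e) →
      ((M.map (Function.Embedding.subtype _)).filter p).card = (M.filter q).card := by
    intro p _ q _ hpq
    rw [filter_map, card_map]
    congr 1
    exact filter_congr fun e _ => hpq e
  have hmem : ∀ (e : E) (he : G.wh e ∉ YW),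
      e ∈ M.map (Function.Embedding.subtype _) ↔ (⟨e, he⟩ : {e // G.wh e ∉ YW}) ∈ M :=
    fun e he => mem_map' (Function.Embedding.subtype _) (a := ⟨e, he⟩)
  refine ⟨M.map (Function.Embedding.subtype _), (hmem e0 he0).2 hM0, ?_, ?_, ?_, ?_, ?_⟩
  · intro e he
    obtain ⟨e', -, rfl⟩ := mem_map.1 he
    exact e'.2
  · rw [key _ (fun e => (G.con YB YW).bl e = none), hB]
    intro e; simp only [con]; split_ifs with hh <;> simp [hh]
  · intro b hb
    rw [key _ (fun e => (G.con YB YW).bl e = some ⟨b, hb⟩), hB]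
    intro e; simp only [con]
    split_ifs with hh
    · simp only [reduceCtorEq, iff_false]; intro h2; exact hb (h2 ▸ hh)
    · simp
  · intro t ht
    rw [key _ (fun e => (G.con YB YW).wh e = ⟨t, ht⟩), hW]
    intro e; simp [con]
  · intro z ZB ZW hz1 hz2
    classical
    have := hX (univ.filter fun o => Option.elim o z (fun b => b.1 ∈ ZB))
      (univ.filter fun t => t.1 ∈ ZW) (by
        intro e he
        have he' : e.1 ∉ M.map (Function.Embedding.subtype _) := fun hh => he ((hmem e.1 e.2).1 hh)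
        simp only [mem_filter, mem_univ, true_and, con]
        split_ifs with hh
        · exact hz2 e.1 he' e.2 hh
        · exact hz1 e.1 he' e.2 hh)
    rcases this with ⟨x, y⟩ | ⟨x, y⟩
    · have hz : ¬ z := filter_eq_empty_iff.1 x (mem_univ none)
      refine ⟨fun b hb => ⟨fun hh => ?_, fun hh => absurd hh hz⟩,
        fun t ht => ⟨fun hh => ?_, fun hh => absurd hh hz⟩⟩
      · have := filter_eq_empty_iff.1 x (mem_univ (some (⟨b, hb⟩ : {b // b ∉ YB})))
        exact absurd hh this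
      · exact absurd hh (filter_eq_empty_iff.1 y (mem_univ ⟨t, ht⟩))
    · have x' := fun o => (mem_filter.1 ((eq_univ_iff_forall.1 x) o)).2
      have y' := fun o => (mem_filter.1 ((eq_univ_iff_forall.1 y) o)).2
      have hz : z := x' none
      exact ⟨fun b hb => ⟨fun _ => hz, fun _ => x' (some ⟨b, hb⟩)⟩,
        fun t ht => ⟨fun _ => hz, fun _ => y' ⟨t, ht⟩⟩⟩

theorem D4 {G : Mp E B W F} (h : G.Good0) (YB : Finset B) (YW : Finset W)
    (hp : G.pc YB YW = 3) (hq : G.qc YB YW = 0) (e0 : E) (he0 : G.wh e0 ∉ YW)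
    (h1 : (G.con YB YW).Ham ⟨e0, he0⟩) (h2 : ∀ c, (G.swap.con YWᶜ YBᶜ).Ham c) : G.Ham e0 := by
  have hq' : ∀ e, G.wh e ∈ YW → G.bl e ∈ YB := by
    intro e hw
    by_contra hb
    exact filter_eq_empty_iff.1 (card_eq_zero.1 hq) (mem_univ e) ⟨hb, hw⟩
  obtain ⟨P, hP0, hPs, hP1, hPB, hPW, hPX⟩ := D4_con G YB YW e0 he0 h1
  obtain ⟨c, hc⟩ := card_eq_one.1 hP1
  have hcP : c ∈ P ∧ G.bl c ∈ YB := mem_filter.1 (by rw [hc]; exact mem_singleton_self c)
  have hcu : ∀ e ∈ P, G.bl e ∈ YB → e = c := fun e x y =>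
    mem_singleton.1 (by rw [← hc]; exact mem_filter.2 ⟨x, y⟩)
  have hc2 : G.swap.wh c ∉ YBᶜ := by simpa [swap] using hcP.2
  obtain ⟨Q, hQ0, hQs, hQ1, hQB, hQW, hQX⟩ := D4_con G.swap YWᶜ YBᶜ c hc2 (h2 _)
  simp only [swap, mem_compl, not_not] at hQs hQ1 hQB hQW hQX
  have hcw : G.wh c ∉ YW := hPs c hcP.1
  have hQu : ∀ e ∈ Q, G.wh e ∉ YW → e = c := fun e x y =>
    card_le_one.1 hQ1.le e (mem_filter.2 ⟨x, y⟩) c (mem_filter.2 ⟨hQ0, hcw⟩)
  have m1 : ∀ e, G.wh e ∉ YW → (e ∈ P ∪ Q ↔ e ∈ P) := fun e he =>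
    ⟨fun hh => (mem_union.1 hh).elim id fun x => hQu e x he ▸ hcP.1, mem_union_left _⟩
  have m2 : ∀ e, G.bl e ∈ YB → (e ∈ P ∪ Q ↔ e ∈ Q) := fun e he =>
    ⟨fun hh => (mem_union.1 hh).elim (fun x => hcu e x he ▸ hQ0) id, mem_union_right _⟩
  have hB : ∀ b, ((P ∪ Q).filter fun e => G.bl e = b).card = 1 := by
    intro b
    by_cases hb : b ∈ YB
    · rw [← hQW b hb]; congr 1; ext e
      simp only [mem_filter]
      exact and_congr_left fun he => m2 e (he ▸ hb)
    · rw [← hPB b hb]; congr 1; ext e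
      simp only [mem_filter]
      exact and_congr_left fun he => m1 e fun hw => hb (he ▸ hq' e hw)
  have hW : ∀ t, ((P ∪ Q).filter fun e => G.wh e = t).card = 1 := by
    intro t
    by_cases ht : t ∈ YW
    · rw [← hQB t ht]; congr 1; ext e
      simp only [mem_filter]
      exact and_congr_left fun he => m2 e (hq' e (he ▸ ht))
    · rw [← hPW t ht]; congr 1; ext e
      simp only [mem_filter]
      exact and_congr_left fun he => m1 e (he ▸ ht)
  refine ⟨P ∪ Q, mem_union_left _ hP0, hB, hW, fun ZB ZW hZ => ?_⟩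
  obtain ⟨z, hz⟩ := D4_par h YB YW hp hq' (P ∪ Q) hB hW c (mem_union_left _ hcP.1) hcP.2 hcw
    (fun e x y w => hcu e ((m1 e w).1 x) y) ZB ZW hZ
  obtain ⟨u1, u2⟩ := hPX z ZB ZW (fun e x y _ => hZ e fun hh => x ((m1 e y).1 hh))
    (fun e x y w => by
      have x' : e ∉ P ∪ Q := fun hh => x ((m1 e y).1 hh)
      rw [← hz e x' w y]; exact hZ e x')
  obtain ⟨v1, v2⟩ := hQX z ZW ZB (fun e x y _ => (hZ e fun hh => x ((m2 e y).1 hh)).symm)
    (fun e x y w => (hz e (fun hh => x ((m2 e y).1 hh)) y w).symm)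
  have w1 : ∀ b, b ∈ ZB ↔ z := fun b => if hb : b ∈ YB then v2 b hb else u1 b hb
  have w2 : ∀ t, t ∈ ZW ↔ z := fun t => if ht : t ∈ YW then v1 t ht else u2 t ht
  by_cases hz0 : z
  · exact Or.inr ⟨eq_univ_iff_forall.2 fun b => (w1 b).2 hz0,
      eq_univ_iff_forall.2 fun t => (w2 t).2 hz0⟩
  · exact Or.inl ⟨eq_empty_iff_forall_notMem.2 fun b hb => hz0 ((w1 b).1 hb),
      eq_empty_iff_forall_notMem.2 fun t ht => hz0 ((w2 t).1 ht)⟩

end Mp
end Crest.Agent.R39
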