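import Mathlib

set_option autoImplicit false

namespace Crest.Agent.R39

open Module

/-- the coboundary map of a directed multigraph has rank at least `card V - 1` when connected. -/
theorem rank_cob {K : Type*} [Field K] {V E : Type*} [Fintype V] [Fintype E]
    (d : (V → K) →ₗ[K] (E → K)) (hd : ∀ g, d g = 0 → ∀ u v, g u = g v) :
    Fintype.card V ≤ finrank K (LinearMap.range d) + 1 := by
  classical
  have h1 := LinearMap.finrank_range_add_finrank_ker d
  have h2 : finrank K (V → K) = Fintype.card V := by simp
  have h3 : LinearMap.ker d ≤ Submodule.span K {(fun _ => 1 : V → K)} := by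
    intro g hg
    rw [Submodule.mem_span_singleton]
    by_cases hV : Nonempty V
    · obtain ⟨v0⟩ := hV
      refine ⟨g v0, ?_⟩
      funext v
      simp [hd g hg v0 v]
    · refine ⟨0, ?_⟩
      funext v
      exact absurd ⟨v⟩ hV
  have h4 : finrank K (LinearMap.ker d) ≤ 1 := by
    refine (Submodule.finrank_mono h3).trans ?_
    refine (finrank_span_le_card _).trans ?_
    simp
  omega

/-- Exactness in degree one: on a sphere map every closed 1-cochain is a coboundary. -/
theorem exact1 {K : Type*} [Field K] {V E F : Type*} [Fintype V] [Fintype E] [Fintype F]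
    [DecidableEq F] (s t : E → V) (L R : E → F)
    (closed : ∀ (g : V → K) (w : F),
      ∑ e with L e = w, (g (t e) - g (s e)) = ∑ e with R e = w, (g (t e) - g (s e)))
    (conn : ∀ g : V → K, (∀ e, g (s e) = g (t e)) → ∀ u v, g u = g v)
    (dconn : ∀ y : F → K, (∀ e, y (L e) = y (R e)) → ∀ u v, y u = y v)
    (hcard : Fintype.card E + 2 ≤ Fintype.card V + Fintype.card F)
    (x : E → K) (hx : ∀ w, ∑ e with L e = w, x e = ∑ e with R e = w, x e) :
    ∃ g : V → K, ∀ e, x e = g (t e) - g (s e) := by
  classical
  let d0 : (V → K) →ₗ[K] (E → K) :=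
    { toFun := fun g e => g (t e) - g (s e)
      map_add' := by intro a b; funext e; simp; ring
      map_smul' := by intro c a; funext e; simp; ring }
  let M : Matrix F E K := fun w e => (if L e = w then 1 else 0) - (if R e = w then 1 else 0)
  have hM : ∀ (x : E → K) (w : F),
      M.mulVecLin x w = ∑ e with L e = w, x e - ∑ e with R e = w, x e := by
    intro x w
    simp only [Matrix.mulVecLin_apply, Matrix.mulVec, dotProduct, M, sub_mul,
      Finset.sum_sub_distrib, Finset.sum_filter, ite_mul, one_mul, zero_mul]
  have hMT : ∀ (y : F → K) (e : E), M.transpose.mulVecLin y e = y (L e) - y (R e) := by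
    intro y e
    simp only [Matrix.mulVecLin_apply, Matrix.mulVec, dotProduct, M, Matrix.transpose_apply,
      sub_mul, Finset.sum_sub_distrib, ite_mul, one_mul, zero_mul, Finset.sum_ite_eq,
      Finset.mem_univ, if_true]
  have hle : LinearMap.range d0 ≤ LinearMap.ker M.mulVecLin := by
    rintro _ ⟨g, rfl⟩
    rw [LinearMap.mem_ker]
    funext w
    rw [hM]
    simp only [Pi.zero_apply]
    exact sub_eq_zero.2 (closed g w)
  have r0 := rank_cob d0 (by
    intro g hg
    refine conn g fun e => ?_
    have := congrFun hg e
    simp only [d0, LinearMap.coe_mk, AddHom.coe_mk, Pi.zero_apply] at this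
    exact (sub_eq_zero.1 this).symm)
  have r1 := rank_cob M.transpose.mulVecLin (by
    intro y hy
    refine dconn y fun e => ?_
    have := congrFun hy e
    rw [hMT] at this
    exact sub_eq_zero.1 this)
  have r2 : finrank K (LinearMap.range M.transpose.mulVecLin)
      = finrank K (LinearMap.range M.mulVecLin) := Matrix.rank_transpose M
  have r3 := LinearMap.finrank_range_add_finrank_ker M.mulVecLin
  have r4 : finrank K (E → K) = Fintype.card E := by simp
  have heq : LinearMap.range d0 = LinearMap.ker M.mulVecLin :=
    Submodule.eq_of_le_of_finrank_le hle (by omega)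
  have hxk : x ∈ LinearMap.ker M.mulVecLin := by
    rw [LinearMap.mem_ker]
    funext w
    rw [hM]
    simp only [Pi.zero_apply]
    exact sub_eq_zero.2 (hx w)
  rw [← heq] at hxk
  obtain ⟨g, hg⟩ := hxk
  exact ⟨g, fun e => (congrFun hg e).symm⟩

end Crest.Agent.R39
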