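import Crest.Agent.R39.A1
import Crest.Agent.R39.A2
import Crest.Agent.R39.B3
import Crest.Agent.R39.B4
import Crest.Agent.R39.CC
import Crest.Agent.R39.D3
import Crest.Agent.R39.D4

set_option autoImplicit false
set_option linter.unusedSectionVars false
open Finset

namespace Crest.Agent.R39
namespace Mp
variable {E B W F : Type} [Fintype E] [DecidableEq E] [Fintype B] [DecidableEq B]
  [Fintype W] [DecidableEq W] [Fintype F] [DecidableEq F]

theorem nobad_ham {G : Mp E B W F} (h : G.Good) (e0 : E) (hnb : G.NoBad (G.bl e0)) : G.Ham e0 := by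
  obtain ⟨a, ha⟩ := B3 h (G.bl e0)
  obtain ⟨r, hr⟩ := B4 (ι := B' (G.bl e0)) (κ := G.F' (G.bl e0))
    (fun b w w' => G.J b.1 w.1 w'.1) (fun b w => a b.1 w.1)
    (fun b w w' => J_val h.toGood0 (LR h) _ _ _) (fun b w w' => J_anti G _ _ _)
    (CC h _ hnb) ha
  obtain ⟨h0, χ, h1, h2, h3⟩ := A1 h e0 r hr
  exact A2 h e0 r h0 χ h1 h2 h3

theorem main_aux (n : ℕ) : ∀ (E B W F : Type) [Fintype E] [DecidableEq E] [Fintype B]
    [DecidableEq B] [Fintype W] [DecidableEq W] [Fintype F] [DecidableEq F] (G : Mp E B W F),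
    Fintype.card B = n → G.Good → ∀ e0, G.Ham e0 := by
  induction n using Nat.strong_induction_on with
  | _ n ih =>
    intro E B W F _ _ _ _ _ _ _ _ G hn h e0
    by_cases hnb : G.NoBad (G.bl e0)
    · exact nobad_ham h e0 hnb
    · unfold NoBad at hnb
      push Not at hnb
      obtain ⟨YB, YW, hb0, hne, hp, hq⟩ := hnb
      obtain ⟨g1, g2, l1, l2⟩ := D3 h (G.bl e0) YB YW hb0 hne hp hq
      have he0 : G.wh e0 ∉ YW := by
        intro hw
        have : e0 ∈ (univ.filter fun e => G.bl e ∉ YB ∧ G.wh e ∈ YW) := by simp [hb0, hw]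
        rw [Finset.card_eq_zero.mp hq] at this
        simp at this
      exact D4 h.toGood0 YB YW hp hq e0 he0
        (ih _ (hn ▸ l1) _ _ _ _ _ rfl g1 _) (fun c => ih _ (hn ▸ l2) _ _ _ _ _ rfl g2 c)

theorem main {G : Mp E B W F} (h : G.Good) (e0 : E) : G.Ham e0 :=
  main_aux _ E B W F G rfl h e0

end Mp
end Crest.Agent.R39
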